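import Vale.Agent.Lib.P254.Defs

/-! # P254 unit U14: the linear equivalence attached to an affinely independent family;
affine images of simplices -/

namespace P254

/-- `affineIndependent_iff_linearIndependent_vsub`, `basisOfLinearIndependentOfCardEqFinrank`,
`Module.Basis.equivFun`. -/
theorem exists_affine_map {n : ℕ} (b : Fin (n + 1) → E n) (hb : AffineIndependent ℝ b) :
    ∃ A : E n ≃ₗ[ℝ] E n, ∀ l : Fin n, A (Pi.single l 1) = b l.succ - b 0 := by
  have h1 := (affineIndependent_iff_linearIndependent_vsub ℝ b 0).1 hb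
  have h2 : LinearIndependent ℝ (fun l : Fin n => b l.succ - b 0) := by
    have := h1.comp (fun l : Fin n => (⟨l.succ, Fin.succ_ne_zero l⟩ : {x : Fin (n + 1) // x ≠ 0}))
      (by
        intro x y hxy
        simpa using hxy)
    exact this
  let B := basisOfLinearIndependentOfCardEqFinrank' (K := ℝ) _ h2 (by simp)
  refine ⟨(Pi.basisFun ℝ (Fin n)).equiv B (Equiv.refl _), fun l => ?_⟩
  have := (Pi.basisFun ℝ (Fin n)).equiv_apply l B (Equiv.refl _)
  rw [Pi.basisFun_apply] at this
  rw [this]
  simp [B]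

/-- the affine map `x ↦ A x + c` -/
noncomputable def affMap {n : ℕ} (A : E n ≃ₗ[ℝ] E n) (c : E n) : E n →ᵃ[ℝ] E n :=
  A.toLinearMap.toAffineMap + AffineMap.const ℝ (E n) c

theorem coe_affMap {n : ℕ} (A : E n ≃ₗ[ℝ] E n) (c : E n) :
    ⇑(affMap A c) = fun x => A x + c := by
  ext x
  simp [affMap]

theorem affMap_injective {n : ℕ} (A : E n ≃ₗ[ℝ] E n) (c : E n) :
    Function.Injective (affMap A c) := by
  rw [coe_affMap]
  intro x y hxy
  exact A.injective (add_right_cancel hxy)

theorem image_convexHull_aff {n : ℕ} (A : E n ≃ₗ[ℝ] E n) (c : E n) (s : Set (E n)) :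
    (fun x => A x + c) '' convexHull ℝ s = convexHull ℝ ((fun x => A x + c) '' s) := by
  rw [← coe_affMap]
  exact (affMap A c).image_convexHull s

theorem IsSimplex.affine_image {n : ℕ} (A : E n ≃ₗ[ℝ] E n) (c : E n) (K : Set (E n))
    (hK : IsSimplex K) : IsSimplex ((fun x => A x + c) '' K) := by
  obtain ⟨b, hb, rfl⟩ := hK
  refine ⟨fun i => A (b i) + c, ?_, ?_⟩
  · have := hb.map' (affMap A c) (affMap_injective A c)
    rw [coe_affMap] at this
    exact this
  · rw [image_convexHull_aff, ← Set.range_comp]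
    rfl

end P254
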