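import Vale.Agent.Lib.P254.Defs

/-! # P254 unit U2: change of variables under a linear map; determinant of `phi` -/

namespace P254
open MeasureTheory

/-- Use `MeasureTheory.integral_image_eq_integral_abs_det_fderiv_smul`. -/
theorem setIntegral_image_linear {n : ℕ} (A : E n →ₗ[ℝ] E n) (hA : LinearMap.det A ≠ 0)
    (S : Set (E n)) (hS : MeasurableSet S) (f : E n → ℝ) :
    ∫ y in A '' S, f y = |LinearMap.det A| * ∫ x in S, f (A x) := by
  have hinj : Function.Injective A := (LinearMap.equivOfDetNeZero A hA).injective
  have h := integral_image_eq_integral_abs_det_fderiv_smul (μ := (volume : Measure (E n)))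
    (s := S) (f := fun x => A x) (f' := fun _ => LinearMap.toContinuousLinearMap A) hS
    (fun x _ => ((LinearMap.toContinuousLinearMap A).hasFDerivAt (x := x)).hasFDerivWithinAt)
    hinj.injOn f
  have himg : (fun x => A x) '' S = A '' S := rfl
  rw [himg] at h
  rw [h]
  simp only [LinearMap.det_toContinuousLinearMap, smul_eq_mul]
  rw [integral_const_mul]

/-- rank one update of the identity. -/
theorem det_phi {n : ℕ} (p : E n) (i : Fin n) : LinearMap.det (phi p i) = p i := by
  rw [← LinearMap.det_toMatrix']
  have h : LinearMap.toMatrix' (phi p i)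
      = 1 + Matrix.replicateCol Unit (p - Pi.single i 1) *
          Matrix.replicateRow Unit (Pi.single i 1 : E n) := by
    ext a b
    rw [LinearMap.toMatrix'_apply, phi_apply]
    simp only [Matrix.add_apply, Matrix.mul_apply, Matrix.replicateCol_apply,
      Matrix.replicateRow_apply, Finset.univ_unique, Finset.sum_singleton, Pi.add_apply,
      Pi.smul_apply, smul_eq_mul, Matrix.one_apply, Pi.single_apply, Pi.sub_apply]
    by_cases hab : a = b <;> by_cases hbi : b = i <;> simp [hab, hbi, eq_comm] <;>
      exact fun h => absurd h.symm hbi
  rw [h, Matrix.det_one_add_replicateCol_mul_replicateRow]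
  simp [dotProduct_sub]

end P254
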