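import Vale.Agent.Lib.P254.CovEq
import Vale.Agent.Lib.P254.LinImage

/-! # P254 unit U12: affine invariance of `isoPow` -/

namespace P254
open MeasureTheory

theorem vol_affine_image {n : ℕ} (A : E n ≃ₗ[ℝ] E n) (c : E n) (K : Set (E n)) (_hK : IsCompact K) :
    vol ((fun x => A x + c) '' K) = |LinearMap.det (A : E n →ₗ[ℝ] E n)| * vol K := by
  have himg : (fun x => A x + c) '' K = (fun y => y + c) '' ((A : E n →ₗ[ℝ] E n) '' K) := by
    rw [Set.image_image]; rfl
  unfold vol
  rw [himg, Set.image_add_right, measure_preimage_add_right, Measure.addHaar_image_linearMap,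
    ENNReal.toReal_mul, ENNReal.toReal_ofReal (abs_nonneg _)]

theorem setIntegral_affine {n : ℕ} (A : E n ≃ₗ[ℝ] E n) (c : E n) (K : Set (E n))
    (hK : MeasurableSet K) (g : E n → ℝ) :
    ∫ y in (fun x => A x + c) '' K, g y
      = |LinearMap.det (A : E n →ₗ[ℝ] E n)| * ∫ x in K, g (A x + c) := by
  have hinj : Function.Injective (fun x => A x + c) := fun x y h => A.injective (by simpa using h)
  have h := integral_image_eq_integral_abs_det_fderiv_smul (μ := (volume : Measure (E n)))
    (s := K) (f := fun x => A x + c)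
    (f' := fun _ => LinearMap.toContinuousLinearMap (A : E n →ₗ[ℝ] E n)) hK
    (fun x _ => (((LinearMap.toContinuousLinearMap (A : E n →ₗ[ℝ] E n)).hasFDerivAt
      (x := x)).add_const c).hasFDerivWithinAt)
    hinj.injOn g
  rw [h]
  simp only [LinearMap.det_toContinuousLinearMap, smul_eq_mul]
  rw [integral_const_mul]

theorem apply_eq_sum {n : ℕ} (A : E n ≃ₗ[ℝ] E n) (z : E n) (i : Fin n) :
    A z i = ∑ a, LinearMap.toMatrix' (A : E n →ₗ[ℝ] E n) i a * z a := by
  have h := LinearMap.toMatrix'_mulVec (A : E n →ₗ[ℝ] E n) z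
  have h2 := congrFun h i
  simp only [Matrix.mulVec, dotProduct] at h2
  exact h2.symm

theorem intOn {n : ℕ} {K : Set (E n)} (hK : IsCompact K) {f : E n → ℝ} (hf : Continuous f) :
    Integrable f (volume.restrict K) :=
  hf.continuousOn.integrableOn_compact hK

theorem centroid_affine_image {n : ℕ} (A : E n ≃ₗ[ℝ] E n) (c : E n) (K : Set (E n))
    (hK : IsCompact K) (hv : 0 < vol K) (i : Fin n) :
    centroid ((fun x => A x + c) '' K) i
      = ∑ a, LinearMap.toMatrix' (A : E n →ₗ[ℝ] E n) i a * centroid K a + c i := by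
  set M := LinearMap.toMatrix' (A : E n →ₗ[ℝ] E n) with hM
  have hd : LinearMap.det (A : E n →ₗ[ℝ] E n) ≠ 0 := A.isUnit_det'.ne_zero
  have hd' : 0 < |LinearMap.det (A : E n →ₗ[ℝ] E n)| := abs_pos.2 hd
  unfold centroid
  rw [vol_affine_image A c K hK, setIntegral_affine A c K hK.measurableSet (fun y => y i)]
  have h1 : ∫ x in K, (A x + c) i = (∑ a, M i a * (∫ x in K, x a)) + c i * vol K := by
    have : ∀ x : E n, (A x + c) i = ∑ a, M i a * x a + c i := by
      intro x; rw [Pi.add_apply, apply_eq_sum]
    simp only [this]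
    rw [integral_add (intOn hK (by fun_prop)) (intOn hK (by fun_prop)),
      integral_finsetSum _ (fun a _ => intOn hK (by fun_prop))]
    simp only [integral_const_mul, integral_const, smul_eq_mul]
    congr 1
    simp [vol, Measure.real, mul_comm]
  rw [h1]
  have hv' := hv.ne'
  rw [mul_div_mul_left _ _ hd'.ne', add_div, Finset.sum_div, mul_div_assoc, div_self hv', mul_one]
  congr 1
  exact Finset.sum_congr rfl (fun a _ => by rw [mul_div_assoc])

theorem cov_affine_image {n : ℕ} (A : E n ≃ₗ[ℝ] E n) (c : E n) (K : Set (E n))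
    (hK : IsCompact K) (hv : 0 < vol K) :
    cov ((fun x => A x + c) '' K)
      = LinearMap.toMatrix' (A : E n →ₗ[ℝ] E n) * cov K *
        (LinearMap.toMatrix' (A : E n →ₗ[ℝ] E n)).transpose := by
  set M := LinearMap.toMatrix' (A : E n →ₗ[ℝ] E n) with hM
  have hd : LinearMap.det (A : E n →ₗ[ℝ] E n) ≠ 0 := A.isUnit_det'.ne_zero
  have hd' : 0 < |LinearMap.det (A : E n →ₗ[ℝ] E n)| := abs_pos.2 hd
  ext i j
  have hc := centroid_affine_image A c K hK hv
  simp only [cov, Matrix.of_apply]
  rw [vol_affine_image A c K hK, setIntegral_affine A c K hK.measurableSet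
    (fun y => (y i - centroid ((fun x => A x + c) '' K) i) *
      (y j - centroid ((fun x => A x + c) '' K) j))]
  have hlin : ∀ (x : E n) (k : Fin n), (A x + c) k - centroid ((fun x => A x + c) '' K) k
      = ∑ a, M k a * (x a - centroid K a) := by
    intro x k
    rw [hc k, Pi.add_apply, apply_eq_sum]
    simp only [mul_sub, Finset.sum_sub_distrib]
    ring
  simp only [hlin]
  have h2 : ∫ x in K, (∑ a, M i a * (x a - centroid K a)) * (∑ b, M j b * (x b - centroid K b))
      = ∑ a, ∑ b, M i a * M j b * ∫ x in K, (x a - centroid K a) * (x b - centroid K b) := by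
    have : ∀ x : E n, (∑ a, M i a * (x a - centroid K a)) * (∑ b, M j b * (x b - centroid K b))
        = ∑ a, ∑ b, M i a * M j b * ((x a - centroid K a) * (x b - centroid K b)) := by
      intro x
      rw [Finset.sum_mul_sum]
      exact Finset.sum_congr rfl (fun a _ => Finset.sum_congr rfl (fun b _ => by ring))
    simp only [this]
    rw [integral_finsetSum _ (fun a _ => intOn hK (by fun_prop))]
    refine Finset.sum_congr rfl (fun a _ => ?_)
    rw [integral_finsetSum _ (fun b _ => intOn hK (by fun_prop))]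
    exact Finset.sum_congr rfl (fun b _ => by rw [integral_const_mul])
  rw [h2, mul_div_mul_left _ _ hd'.ne']
  simp only [Matrix.mul_apply, Matrix.transpose_apply, Matrix.of_apply, Finset.sum_mul,
    Finset.sum_div]
  rw [Finset.sum_comm]
  exact Finset.sum_congr rfl (fun b _ => Finset.sum_congr rfl (fun a _ => by ring))

/-- `cov (T K) = A (cov K) Aᵀ`, `vol (T K) = |det A| vol K`. -/
theorem isoPow_affine_image {n : ℕ} (A : E n ≃ₗ[ℝ] E n) (c : E n) (K : Set (E n))
    (hK : IsCompact K) (hv : 0 < vol K) :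
    isoPow ((fun x => A x + c) '' K) = isoPow K := by
  have hd : LinearMap.det (A : E n →ₗ[ℝ] E n) ≠ 0 := A.isUnit_det'.ne_zero
  unfold isoPow
  rw [cov_affine_image A c K hK hv, vol_affine_image A c K hK, Matrix.det_mul, Matrix.det_mul,
    Matrix.det_transpose, LinearMap.det_toMatrix', mul_pow, sq_abs]
  have hv' := hv.ne'
  field_simp

end P254
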