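import Vale.Agent.Lib.P254.Defs

/-! # P254 unit U7: covariance in terms of raw moments -/

namespace P254
open MeasureTheory

theorem cov_eq {n : ℕ} (K : Set (E n)) (hK : IsCompact K) (hv : vol K ≠ 0) (i j : Fin n) :
    cov K i j = (∫ x in K, x i * x j) / vol K
      - (∫ x in K, x i) * (∫ x in K, x j) / (vol K) ^ 2 := by
  have hi : ∀ l : Fin n, IntegrableOn (fun x : E n => x l) K :=
    fun l => (continuous_apply l).continuousOn.integrableOn_compact hK
  have hij : IntegrableOn (fun x : E n => x i * x j) K :=
    ((continuous_apply i).mul (continuous_apply j)).continuousOn.integrableOn_compact hK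
  have hc : ∀ c : ℝ, IntegrableOn (fun _ : E n => c) K :=
    fun c => continuous_const.continuousOn.integrableOn_compact hK
  set ci := centroid K i with hci
  set cj := centroid K j with hcj
  have e : ∀ x : E n, (x i - ci) * (x j - cj) = x i * x j - cj * x i - ci * x j + ci * cj := by
    intro x; ring
  have h1 : ∫ x in K, (x i - ci) * (x j - cj) =
      (∫ x in K, x i * x j) - cj * (∫ x in K, x i) - ci * (∫ x in K, x j) + ci * cj * vol K := by
    simp only [e]
    have a1 : IntegrableOn (fun x : E n => cj * x i) K := (hi i).const_mul cj
    have a2 : IntegrableOn (fun x : E n => ci * x j) K := (hi j).const_mul ci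
    have a3 : IntegrableOn (fun x : E n => x i * x j - cj * x i) K := hij.sub a1
    have a4 : IntegrableOn (fun x : E n => x i * x j - cj * x i - ci * x j) K := a3.sub a2
    rw [integral_add a4 (hc _), integral_sub a3 a2, integral_sub hij a1, integral_const_mul,
      integral_const_mul, setIntegral_const]
    simp [vol, Measure.real, mul_comm]
  simp only [cov, Matrix.of_apply]
  rw [← hci, ← hcj, h1, hci, hcj]
  simp only [centroid]
  field_simp
  ring

end P254
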