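import Vale.Agent.Lib.P254.Hull

/-! # P254 unit U3: the triangulation covers `Kp p` -/

namespace P254
open MeasureTheory

/-- `⊇`: `phi p i` is linear and maps the vertices `0, e_l` of `Δ` into the vertex set of `Kp p`.
`⊆`: for `x ∈ Kp p` with parameter `θ` (see `mem_Kp_iff`) let `θ' = max (0, max_{p_i<0} x_i / p_i) ≤ θ`.
Then `z = x - θ' p` still satisfies `z ≥ 0`, `∑ z ≤ 1 - θ'` (here `∑ p < 1` is used).
If `θ' = 0` then `x ∈ Δ`; otherwise `θ' = x_i / p_i`, `z_i = 0` and `x = phi p i (z + θ' e_i)`. -/
theorem Kp_eq_union {n : ℕ} (p : E n) (hp0 : ∑ i, p i < 1) :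
    Kp p = stdS n ∪ ⋃ i ∈ Finset.univ.filter (fun i : Fin n => p i < 0), (phi p i) '' stdS n := by
  ext x
  simp only [Set.mem_union, Set.mem_iUnion, Finset.mem_filter, Finset.mem_univ, true_and,
    Set.mem_image, exists_prop]
  constructor
  · intro hx
    obtain ⟨θ, h0, h1, hz, hs⟩ := (mem_Kp_iff p x).1 hx
    have hsum : ∑ i, (x i - θ * p i) = ∑ i, x i - θ * ∑ i, p i := by
      rw [Finset.sum_sub_distrib, Finset.mul_sum]
    by_cases hA : ∀ i, p i < 0 → 0 ≤ x i
    · left
      refine ⟨fun l => ?_, ?_⟩
      · by_cases hl : p l < 0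
        · exact hA l hl
        · have h2 := hz l
          have h3 : 0 ≤ θ * p l := mul_nonneg h0 (not_lt.1 hl)
          linarith
      · have h3 : θ * ∑ i, p i ≤ θ * 1 := mul_le_mul_of_nonneg_left hp0.le h0
        linarith
    · right
      push Not at hA
      obtain ⟨i0, hi0, hx0⟩ := hA
      obtain ⟨i, hi, hmax⟩ := Finset.exists_max_image
        (Finset.univ.filter fun i : Fin n => p i < 0) (fun i => x i / p i) ⟨i0, by simp [hi0]⟩
      have hi' : p i < 0 := by simpa using hi
      set t := x i / p i with ht
      have ht0 : 0 < t := by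
        have h4 : x i0 / p i0 ≤ t := hmax i0 (by simp [hi0])
        have h5 : 0 < x i0 / p i0 := div_pos_of_neg_of_neg hx0 hi0
        linarith
      have htp : t * p i = x i := by
        rw [ht]; exact div_mul_cancel₀ _ hi'.ne
      have htθ : t ≤ θ := by
        have h2 := hz i
        rw [ht, div_le_iff_of_neg hi']
        linarith
      refine ⟨i, hi', fun l => x l - t * p l + t * (Pi.single i (1 : ℝ) : E n) l, ⟨fun l => ?_, ?_⟩, ?_⟩
      · by_cases hli : l = i
        · subst hli
          simp only [Pi.single_eq_same]
          linarith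
        · simp only [Pi.single_eq_of_ne hli, mul_zero, add_zero]
          by_cases hl : p l < 0
          · have h4 : x l / p l ≤ t := hmax l (by simp [hl])
            rw [div_le_iff_of_neg hl] at h4
            linarith
          · have h2 := hz l
            have h3 : t * p l ≤ θ * p l := mul_le_mul_of_nonneg_right htθ (not_lt.1 hl)
            linarith
      · have e1 : ∑ l, (x l - t * p l + t * (Pi.single i (1 : ℝ) : E n) l)
            = ∑ l, x l - t * ∑ l, p l + t := by
          rw [Finset.sum_add_distrib, Finset.sum_sub_distrib, ← Finset.mul_sum, ← Finset.mul_sum]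
          simp
        rw [e1]
        have h3 : 0 ≤ (θ - t) * (1 - ∑ l, p l) := mul_nonneg (by linarith) (by linarith)
        nlinarith
      · rw [phi_apply]
        ext l
        simp only [Pi.add_apply, Pi.smul_apply, Pi.sub_apply, smul_eq_mul, Pi.single_eq_same]
        rw [htp]
        ring
  · rintro (hx | ⟨i, hi, y, hy, rfl⟩)
    · exact stdS_subset_Kp p hx
    · rw [mem_Kp_iff]
      obtain ⟨hy0, hy1⟩ := hy
      have hyi : y i ≤ ∑ l, y l := Finset.single_le_sum (fun l _ => hy0 l) (Finset.mem_univ i)
      refine ⟨y i, hy0 i, by linarith, fun l => ?_, ?_⟩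
      · rw [phi_apply]
        simp only [Pi.add_apply, Pi.smul_apply, Pi.sub_apply, smul_eq_mul]
        by_cases hli : l = i
        · subst hli
          simp only [Pi.single_eq_same]
          linarith
        · simp only [Pi.single_eq_of_ne hli]
          have := hy0 l
          linarith
      · have e1 : ∑ l, ((phi p i y) l - y i * p l) = ∑ l, y l - y i := by
          have : ∀ l, (phi p i y) l - y i * p l = y l - y i * (Pi.single i (1 : ℝ) : E n) l := by
            intro l
            rw [phi_apply]
            simp only [Pi.add_apply, Pi.smul_apply, Pi.sub_apply, smul_eq_mul]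
            ring
          simp only [this]
          rw [Finset.sum_sub_distrib, ← Finset.mul_sum]
          simp
        rw [e1]
        linarith

end P254
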