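import Mathlib

/-!
# P254: isotropic constant of polytopes with at most n+2 vertices -- definitions
-/

namespace P254

open MeasureTheory

/-- `ℝ^n` with its Lebesgue measure (the product measure `volume` on `Fin n → ℝ`). -/
abbrev E (n : ℕ) := Fin n → ℝ

/-- Lebesgue volume as a real number. -/
noncomputable def vol {n : ℕ} (K : Set (E n)) : ℝ := (volume K).toReal

/-- Centroid `b_K`. -/
noncomputable def centroid {n : ℕ} (K : Set (E n)) : E n :=
  fun i => (∫ x in K, x i) / vol K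

/-- Covariance matrix `Σ_K`. -/
noncomputable def cov {n : ℕ} (K : Set (E n)) : Matrix (Fin n) (Fin n) ℝ :=
  Matrix.of fun i j => (∫ x in K, (x i - centroid K i) * (x j - centroid K j)) / vol K

/-- `L_K^{2n} = det Σ_K / |K|^2`. -/
noncomputable def isoPow {n : ℕ} (K : Set (E n)) : ℝ := (cov K).det / (vol K) ^ 2

/-- The isotropic constant `L_K = (det Σ_K / |K|^2)^{1/(2n)}`. -/
noncomputable def isoConst {n : ℕ} (K : Set (E n)) : ℝ := (isoPow K) ^ (1 / (2 * (n : ℝ)))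

/-- An `n`-simplex: the convex hull of `n+1` affinely independent points of `ℝ^n`. -/
def IsSimplex {n : ℕ} (K : Set (E n)) : Prop :=
  ∃ b : Fin (n + 1) → E n, AffineIndependent ℝ b ∧ K = convexHull ℝ (Set.range b)

/-- `L_{Δ_n}^{2n} = (n!)^2 / ((n+1)^{n+1} (n+2)^n)`. -/
noncomputable def cN (n : ℕ) : ℝ :=
  ((n.factorial : ℝ)) ^ 2 / (((n : ℝ) + 1) ^ (n + 1) * ((n : ℝ) + 2) ^ n)

/-- The value `L_{Δ_n}`. -/
noncomputable def simplexConst (n : ℕ) : ℝ := (cN n) ^ (1 / (2 * (n : ℝ)))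

/-! ### working objects for the proof -/

/-- The corner simplex `{x ≥ 0, ∑ x ≤ 1}`. -/
def stdS (n : ℕ) : Set (E n) := {x | (∀ i, 0 ≤ x i) ∧ ∑ i, x i ≤ 1}

/-- Normal form: `conv (p, 0, e_1, …, e_n)`. -/
def Kp {n : ℕ} (p : E n) : Set (E n) :=
  convexHull ℝ (insert p (insert 0 (Set.range (fun i : Fin n => (Pi.single i 1 : E n)))))

/-- The linear map fixing `e_l` (`l ≠ i`) and sending `e_i` to `p`. -/
noncomputable def phi {n : ℕ} (p : E n) (i : Fin n) : E n →ₗ[ℝ] E n :=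
  LinearMap.id + (LinearMap.proj i : E n →ₗ[ℝ] ℝ).smulRight (p - Pi.single i 1)

theorem phi_apply {n : ℕ} (p : E n) (i : Fin n) (x : E n) :
    phi p i x = x + x i • (p - Pi.single i 1) := by
  simp [phi]

/-- `σ = 1 + ∑ p_i^-`. -/
noncomputable def sig {n : ℕ} (p : E n) : ℝ := 1 + ∑ i, max (-(p i)) 0

/-- The Radon point `o = p^+ / σ`. -/
noncomputable def oV {n : ℕ} (p : E n) : E n := fun a => max (p a) 0 / sig p

/-- `P_- = ∑ (p_i^-)^2`. -/
noncomputable def Pm {n : ℕ} (p : E n) : ℝ := ∑ i, (max (-(p i)) 0) ^ 2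

/-- `P_+ = ∑ (p_i^+)^2`. -/
noncomputable def Pp {n : ℕ} (p : E n) : ℝ := ∑ i, (max (p i) 0) ^ 2

end P254
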