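import Vale.Agent.Lib.P254.Defs

/-! # P254 unit U8: the determinant identity (pure algebra) -/

namespace P254

theorem sig_pos {n : ℕ} (p : E n) : 0 < sig p := by
  have : 0 ≤ ∑ i, max (-(p i)) 0 := Finset.sum_nonneg fun i _ => le_max_right _ _
  unfold sig
  linarith

theorem sum_eq_pos_sub_neg {n : ℕ} (p : E n) :
    ∑ i, p i = ∑ i, max (p i) 0 - (sig p - 1) := by
  unfold sig
  rw [add_sub_cancel_left, ← Finset.sum_sub_distrib]
  refine Finset.sum_congr rfl fun i _ => ?_
  rcases le_total (p i) 0 with h | h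
  · rw [max_eq_right h, max_eq_left (by linarith)]; ring
  · rw [max_eq_left h, max_eq_right (by linarith)]; ring

theorem sum_sq_eq {n : ℕ} (p : E n) : ∑ i, p i * p i = Pp p + Pm p := by
  unfold Pp Pm
  rw [← Finset.sum_add_distrib]
  refine Finset.sum_congr rfl fun i _ => ?_
  rcases le_total (p i) 0 with h | h
  · rw [max_eq_right h, max_eq_left (by linarith)]; ring
  · rw [max_eq_left h, max_eq_right (by linarith)]; ring

theorem sum_mul_oV {n : ℕ} (p : E n) : ∑ i, p i * oV p i = Pp p / sig p := by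
  unfold Pp oV
  rw [Finset.sum_div]
  refine Finset.sum_congr rfl fun i _ => ?_
  rcases le_total (p i) 0 with h | h
  · rw [max_eq_right h]; ring
  · rw [max_eq_left h]; ring

theorem sum_oV {n : ℕ} (p : E n) : ∑ i, oV p i = (∑ i, max (p i) 0) / sig p := by
  unfold oV
  rw [Finset.sum_div]

theorem sum_oV_sq {n : ℕ} (p : E n) : ∑ i, oV p i * oV p i = Pp p / sig p ^ 2 := by
  unfold Pp oV
  rw [Finset.sum_div]
  refine Finset.sum_congr rfl fun i _ => ?_
  ring

/-- Write the matrix as `1 + U * (C * Uᵀ)` with `U : Matrix (Fin n) (Fin 3) ℝ` of columns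
`p, s = 1 + p, o = oV p` and
`C = !![1,0,0; 0,-1/(n+1),1/(n+1); 0,1/(n+1),-(n+2)/(n+1)]`; use `Matrix.det_one_add_mul_comm`,
`Matrix.det_fin_three`. Gram entries, with `σ = sig p`, `σ₊ = ∑ max (p i) 0`, `σ₋ = σ - 1`,
`τ = ∑ p = σ₊ - σ₋`, `P = Pp p + Pm p`:
`⟨p,p⟩ = P`, `⟨p,s⟩ = τ + P`, `⟨s,s⟩ = n + 2 τ + P`, `⟨p,o⟩ = Pp/σ`, `⟨s,o⟩ = (σ₊ + Pp)/σ`,
`⟨o,o⟩ = Pp/σ^2`. Then `field_simp; ring`. -/
theorem det_core (n : ℕ) (p : E n) :
    (Matrix.of fun a b : Fin n =>
        (if a = b then (1 : ℝ) else 0) + p a * p b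
          - (1 / ((n : ℝ) + 1)) * ((1 + p a) * (1 + p b))
          + (1 / ((n : ℝ) + 1)) * ((1 + p a) * oV p b + oV p a * (1 + p b))
          - (((n : ℝ) + 2) / ((n : ℝ) + 1)) * (oV p a * oV p b)).det
      = (sig p ^ 4 - (sig p ^ 2 - 1 - Pm p) * (sig p ^ 2 - Pp p - (1 - ∑ i, p i) ^ 2))
          / (((n : ℝ) + 1) * sig p ^ 2) := by
  have hσ : 0 < sig p := sig_pos p
  have hn : (0 : ℝ) < (n : ℝ) + 1 := by positivity
  set U : Matrix (Fin n) (Fin 3) ℝ := Matrix.of fun a c => ![p a, 1 + p a, oV p a] c with hU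
  set C : Matrix (Fin 3) (Fin 3) ℝ :=
    !![1, 0, 0; 0, -1 / ((n : ℝ) + 1), 1 / ((n : ℝ) + 1);
       0, 1 / ((n : ℝ) + 1), -((n : ℝ) + 2) / ((n : ℝ) + 1)] with hC
  have hM : (Matrix.of fun a b : Fin n =>
        (if a = b then (1 : ℝ) else 0) + p a * p b
          - (1 / ((n : ℝ) + 1)) * ((1 + p a) * (1 + p b))
          + (1 / ((n : ℝ) + 1)) * ((1 + p a) * oV p b + oV p a * (1 + p b))
          - (((n : ℝ) + 2) / ((n : ℝ) + 1)) * (oV p a * oV p b)) = 1 + U * (C * U.transpose) := by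
    ext a b
    simp only [Matrix.of_apply, Matrix.add_apply, Matrix.one_apply, Matrix.mul_apply,
      Fin.sum_univ_three, hU, hC, Matrix.transpose_apply]
    simp
    ring
  rw [hM, Matrix.det_one_add_mul_comm, Matrix.mul_assoc]
  set S := ∑ i, max (p i) 0 with hS
  have e1 := sum_eq_pos_sub_neg p
  have e2 := sum_sq_eq p
  have e3 := sum_mul_oV p
  have e4 := sum_oV p
  have e5 := sum_oV_sq p
  rw [← hS] at e1 e4
  have hG : U.transpose * U =
      !![Pp p + Pm p, (S - (sig p - 1)) + (Pp p + Pm p), Pp p / sig p;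
         (S - (sig p - 1)) + (Pp p + Pm p), (n : ℝ) + 2 * (S - (sig p - 1)) + (Pp p + Pm p),
            (S + Pp p) / sig p;
         Pp p / sig p, (S + Pp p) / sig p, Pp p / sig p ^ 2] := by
    ext a b
    fin_cases a <;> fin_cases b <;>
      simp only [Matrix.mul_apply, Matrix.transpose_apply, hU, Matrix.of_apply] <;> simp
    · exact e2
    · simp only [mul_add, mul_one, Finset.sum_add_distrib, e1, e2]
    · exact e3
    · simp only [add_mul, one_mul, Finset.sum_add_distrib, e1, e2]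
    · simp only [add_mul, mul_add, one_mul, mul_one, Finset.sum_add_distrib, e1, e2]
      simp
      ring
    · simp only [add_mul, one_mul, Finset.sum_add_distrib, e3, e4]
      ring
    · simp only [mul_comm (oV p _) (p _)]
      exact e3
    · simp only [mul_add, mul_one, Finset.sum_add_distrib, mul_comm (oV p _) (p _), e3, e4]
      ring
    · exact e5
  rw [hG, e1, hC]
  simp only [Matrix.det_fin_three, Matrix.add_apply, Matrix.one_apply, Matrix.mul_apply,
    Fin.sum_univ_three]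
  simp
  field_simp
  ring

end P254
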