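import Vale.Agent.Lib.P254.Defs

/-! # P254 unit U1: the Dirichlet integral over the corner simplex -/

namespace P254
open MeasureTheory

/-- scaled corner simplex -/
def stdSr (n : ℕ) (r : ℝ) : Set (E n) := {x | (∀ i, 0 ≤ x i) ∧ ∑ i, x i ≤ r}

theorem measurableSet_stdSr (n : ℕ) (r : ℝ) : MeasurableSet (stdSr n r) := by
  have h1 : MeasurableSet {x : E n | ∀ i, 0 ≤ x i} := by
    have h : {x : E n | ∀ i, 0 ≤ x i} = ⋂ i, {x : E n | 0 ≤ x i} := by ext; simp
    rw [h]
    exact MeasurableSet.iInter fun i => measurableSet_le measurable_const (measurable_pi_apply i)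
  have h2 : MeasurableSet {x : E n | ∑ i, x i ≤ r} :=
    measurableSet_le (Finset.measurable_sum _ fun i _ => measurable_pi_apply i) measurable_const
  exact h1.inter h2

theorem beta_rec (a b : ℕ) (r : ℝ) :
    ((b : ℝ) + 1) * ∫ t in (0:ℝ)..r, t ^ (a + 1) * (r - t) ^ b
      = ((a : ℝ) + 1) * ∫ t in (0:ℝ)..r, t ^ a * (r - t) ^ (b + 1) := by
  have hderiv : ∀ t ∈ Set.uIcc (0:ℝ) r, HasDerivAt (fun t : ℝ => t ^ (a + 1) * (r - t) ^ (b + 1))
      (((a : ℝ) + 1) * (t ^ a * (r - t) ^ (b + 1))
        - ((b : ℝ) + 1) * (t ^ (a + 1) * (r - t) ^ b)) t := by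
    intro t _
    have h1 : HasDerivAt (fun t : ℝ => t ^ (a + 1)) (((a + 1 : ℕ) : ℝ) * t ^ a) t := by
      simpa using hasDerivAt_pow (a + 1) t
    have h2 : HasDerivAt (fun t : ℝ => (r - t) ^ (b + 1))
        (((b + 1 : ℕ) : ℝ) * (r - t) ^ b * (-1)) t := by
      have h3 : HasDerivAt (fun t : ℝ => r - t) (-1) t := by
        simpa using (hasDerivAt_id t).const_sub r
      simpa using h3.fun_pow (b + 1)
    exact (h1.fun_mul h2).congr_deriv (by push_cast; ring)
  have hint := intervalIntegral.integral_eq_sub_of_hasDerivAt hderiv (by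
     apply Continuous.intervalIntegrable; fun_prop)
  rw [intervalIntegral.integral_sub (by apply Continuous.intervalIntegrable; fun_prop)
    (by apply Continuous.intervalIntegrable; fun_prop),
    intervalIntegral.integral_const_mul, intervalIntegral.integral_const_mul] at hint
  simp at hint
  linarith

theorem beta_nat (a : ℕ) : ∀ (b : ℕ) (r : ℝ), ∫ t in (0:ℝ)..r, t ^ a * (r - t) ^ b
    = r ^ (a + b + 1) * ((a.factorial : ℝ) * (b.factorial : ℝ)) / ((a + b + 1).factorial : ℝ) := by
  induction a with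
  | zero =>
    intro b r
    have h1 : ∫ t in (0:ℝ)..r, t ^ 0 * (r - t) ^ b = ∫ t in (0:ℝ)..r, t ^ b := by
      simp only [pow_zero, one_mul]
      rw [intervalIntegral.integral_comp_sub_left (fun x => x ^ b) r]
      simp
    rw [h1, integral_pow]
    have hb : ((b.factorial : ℝ)) ≠ 0 := by positivity
    have hb1 : ((b : ℝ) + 1) ≠ 0 := by positivity
    simp only [zero_add, Nat.factorial_succ, Nat.factorial_zero]
    push_cast
    field_simp
    simp
  | succ a ih =>
    intro b r
    have h1 := beta_rec a b r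
    rw [ih (b + 1) r] at h1
    have hb1 : ((b : ℝ) + 1) ≠ 0 := by positivity
    have h2 : ∫ t in (0:ℝ)..r, t ^ (a + 1) * (r - t) ^ b = (((a : ℝ) + 1) *
        (r ^ (a + (b + 1) + 1) * ((a.factorial : ℝ) * ((b + 1).factorial : ℝ)) /
          ((a + (b + 1) + 1).factorial : ℝ))) / ((b : ℝ) + 1) := by
      rw [← h1]; field_simp
    rw [h2]
    have e1 : a + (b + 1) + 1 = a + 1 + b + 1 := by ring
    rw [e1]
    have hf : (((a + 1 + b + 1).factorial : ℝ)) ≠ 0 := by positivity
    rw [Nat.factorial_succ a, Nat.factorial_succ b]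
    push_cast
    field_simp

theorem mem_stdSr_cons (n : ℕ) (r t : ℝ) (y : E n) :
    (Fin.cons t y : E (n + 1)) ∈ stdSr (n + 1) r ↔ t ∈ Set.Icc 0 r ∧ y ∈ stdSr n (r - t) := by
  simp only [stdSr, Set.mem_ofPred_eq, Fin.forall_fin_succ, Fin.cons_zero, Fin.cons_succ,
    Fin.sum_univ_succ, Set.mem_Icc]
  constructor
  · rintro ⟨⟨h0, hy⟩, hs⟩
    have h1 : 0 ≤ ∑ i, y i := Finset.sum_nonneg fun i _ => hy i
    exact ⟨⟨h0, by linarith⟩, hy, by linarith⟩
  · rintro ⟨⟨h0, _⟩, hy, hs⟩
    exact ⟨⟨h0, hy⟩, by linarith⟩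

theorem measurable_monomial (n : ℕ) (k : Fin n → ℕ) :
    Measurable (fun x : E n => ENNReal.ofReal (∏ i, x i ^ k i)) :=
  ENNReal.measurable_ofReal.comp
    (Finset.measurable_prod _ fun i _ => (measurable_pi_apply i).pow_const _)

theorem lintegral_stdSr (n : ℕ) : ∀ (k : Fin n → ℕ) (r : ℝ), 0 ≤ r →
    ∫⁻ x in stdSr n r, ENNReal.ofReal (∏ i, x i ^ k i)
      = ENNReal.ofReal (r ^ (n + ∑ i, k i) * (∏ i, ((k i).factorial : ℝ)) /
          ((n + ∑ i, k i).factorial : ℝ)) := by
  induction n with
  | zero =>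
    intro k r hr
    have h : stdSr 0 r = Set.univ := by ext x; simp [stdSr, hr]
    have hv : (volume : Measure (E 0)) Set.univ = 1 := by
      rw [volume_pi]; simp
    simp [h, hv]
  | succ n ih =>
    intro k r hr
    have hmp := (volume_preserving_piFinSuccAbove (fun _ : Fin (n + 1) => ℝ) 0).symm
    have hpt : ∀ (t : ℝ) (y : E n), (stdSr (n + 1) r).indicator
        (fun x : E (n + 1) => ENNReal.ofReal (∏ i, x i ^ k i))
        ((MeasurableEquiv.piFinSuccAbove (fun _ : Fin (n + 1) => ℝ) 0).symm (t, y)) =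
        (Set.Icc 0 r).indicator (fun t => ENNReal.ofReal (t ^ k 0) *
          (stdSr n (r - t)).indicator
            (fun y : E n => ENNReal.ofReal (∏ i, y i ^ k i.succ)) y) t := by
      intro t y
      have he : (MeasurableEquiv.piFinSuccAbove (fun _ : Fin (n + 1) => ℝ) 0).symm (t, y)
          = (Fin.cons t y : E (n + 1)) := by
        simp [MeasurableEquiv.piFinSuccAbove_symm_apply]
        rfl
      rw [he]
      by_cases ht : t ∈ Set.Icc 0 r
      · by_cases hy : y ∈ stdSr n (r - t)
        · rw [Set.indicator_of_mem ((mem_stdSr_cons n r t y).mpr ⟨ht, hy⟩),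
            Set.indicator_of_mem ht, Set.indicator_of_mem hy,
            ← ENNReal.ofReal_mul (pow_nonneg ht.1 _), Fin.prod_univ_succ]
          simp
        · rw [Set.indicator_of_notMem (fun h => hy ((mem_stdSr_cons n r t y).mp h).2),
            Set.indicator_of_mem ht, Set.indicator_of_notMem hy, mul_zero]
      · rw [Set.indicator_of_notMem (fun h => ht ((mem_stdSr_cons n r t y).mp h).1),
          Set.indicator_of_notMem ht]
    have hmeas : Measurable (fun a : ℝ × (Fin n → ℝ) => (stdSr (n + 1) r).indicator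
        (fun x : E (n + 1) => ENNReal.ofReal (∏ i, x i ^ k i))
        ((MeasurableEquiv.piFinSuccAbove (fun _ : Fin (n + 1) => ℝ) 0).symm a)) :=
      ((measurable_monomial (n + 1) k).indicator
        (measurableSet_stdSr _ _)).comp (MeasurableEquiv.measurable _)
    rw [← lintegral_indicator (measurableSet_stdSr _ _),
      ← hmp.lintegral_comp_emb (MeasurableEquiv.measurableEmbedding _),
      Measure.volume_eq_prod, lintegral_prod _ hmeas.aemeasurable]
    simp_rw [hpt]
    set m : ℕ := n + ∑ i : Fin n, k i.succ with hm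
    set C : ℝ := (∏ i : Fin n, ((k i.succ).factorial : ℝ)) / (m.factorial : ℝ) with hC
    have hCnn : 0 ≤ C := by positivity
    have hinner : ∀ t : ℝ, ∫⁻ y : E n, (Set.Icc 0 r).indicator (fun t => ENNReal.ofReal (t ^ k 0) *
          (stdSr n (r - t)).indicator
            (fun y : E n => ENNReal.ofReal (∏ i, y i ^ k i.succ)) y) t =
        (Set.Icc 0 r).indicator (fun t => ENNReal.ofReal (C * (t ^ k 0 * (r - t) ^ m))) t := by
      intro t
      by_cases ht : t ∈ Set.Icc 0 r
      · simp only [Set.indicator_of_mem ht]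
        rw [lintegral_const_mul _ ((measurable_monomial n (fun i => k i.succ)).indicator
          (measurableSet_stdSr _ _)), lintegral_indicator (measurableSet_stdSr _ _),
          ih (fun i => k i.succ) (r - t) (by linarith [ht.2]),
          ← ENNReal.ofReal_mul (pow_nonneg ht.1 _)]
        congr 1
        rw [hC]
        ring
      · simp only [Set.indicator_of_notMem ht]
        simp
    simp_rw [hinner]
    rw [lintegral_indicator measurableSet_Icc,
      ← ofReal_integral_eq_lintegral_ofReal]
    · congr 1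
      rw [integral_Icc_eq_integral_Ioc, ← intervalIntegral.integral_of_le hr,
        intervalIntegral.integral_const_mul, beta_nat, hC, Fin.prod_univ_succ, Fin.sum_univ_succ]
      have e1 : n + 1 + (k 0 + ∑ i : Fin n, k i.succ) = k 0 + m + 1 := by rw [hm]; ring
      rw [e1]
      have hf : (m.factorial : ℝ) ≠ 0 := by positivity
      field_simp
    · apply Continuous.integrableOn_Icc
      fun_prop
    · rw [Filter.EventuallyLE, ae_restrict_iff' measurableSet_Icc]
      refine Filter.Eventually.of_forall fun t ht => ?_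
      have h1 : 0 ≤ r - t := by linarith [ht.2]
      have h2 := ht.1
      simp only [Pi.zero_apply]
      positivity

/-- U1. Dirichlet integral: `∫_{Δ_n} ∏ x_i^{k_i} = ∏ k_i! / (n + ∑ k_i)!`.
Induction on `n` (slice off one coordinate with `MeasurableEquiv.piFinSuccAbove`, scale the slice
`(1-t) Δ_n`, then the Beta integral `∫_0^1 t^a (1-t)^b = a! b! / (a+b+1)!`). -/
theorem dirichlet (n : ℕ) (k : Fin n → ℕ) :
    ∫ x in stdS n, ∏ i, x i ^ k i
      = (∏ i, ((k i).factorial : ℝ)) / ((n + ∑ i, k i).factorial : ℝ) := by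
  have hS : stdS n = stdSr n 1 := rfl
  rw [hS, integral_eq_lintegral_of_nonneg_ae, lintegral_stdSr n k 1 zero_le_one,
    ENNReal.toReal_ofReal (by positivity)]
  · simp
  · rw [Filter.EventuallyLE, ae_restrict_iff' (measurableSet_stdSr _ _)]
    refine Filter.Eventually.of_forall fun x hx => ?_
    simp only [Pi.zero_apply]
    exact Finset.prod_nonneg fun i _ => pow_nonneg (hx.1 i) _
  · apply Measurable.aestronglyMeasurable
    exact Finset.measurable_prod _ fun i _ => (measurable_pi_apply i).pow_const _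

end P254
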