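import Vale.Agent.Lib.P254.Defs

/-! # P254 unit U4: the pieces of the triangulation overlap in null sets -/

namespace P254
open MeasureTheory

/-- The kernel of a nonzero linear functional is Lebesgue-null. -/
theorem null_of_functional {n : ℕ} (f : E n →ₗ[ℝ] ℝ) (v : E n) (hv : f v ≠ 0) :
    volume {x : E n | f x = 0} = 0 := by
  have h : (LinearMap.ker f) ≠ ⊤ := by
    intro h
    apply hv
    have : v ∈ LinearMap.ker f := by rw [h]; trivial
    simpa using this
  have := Measure.addHaar_submodule (volume : Measure (E n)) (LinearMap.ker f) h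
  have e : {x : E n | f x = 0} = (LinearMap.ker f : Set (E n)) := by
    ext x
    simp
  rw [e]
  exact this

/-- If `x = phi p i y`, `y ∈ Δ`, then `x_i = y_i p_i ≤ 0`; so the intersection lies in the
hyperplane `x_i = 0` (null by `Measure.addHaar_submodule` or `addHaar_affineSubspace`). -/
theorem aedisjoint_std_phi {n : ℕ} (p : E n) (i : Fin n) (hi : p i < 0) :
    AEDisjoint volume (stdS n) ((phi p i) '' stdS n) := by
  have h0 := null_of_functional (LinearMap.proj i : E n →ₗ[ℝ] ℝ) (Pi.single i 1) (by simp)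
  refine measure_mono_null ?_ h0
  rintro x ⟨hx, y, hy, rfl⟩
  have h1 := hx.1 i
  have h2 := hy.1 i
  rw [phi_apply] at h1
  simp only [Pi.add_apply, Pi.smul_apply, Pi.sub_apply, Pi.single_eq_same, smul_eq_mul] at h1
  simp only [Set.mem_setOf_eq, LinearMap.coe_proj, Function.eval, phi_apply, Pi.add_apply,
    Pi.smul_apply, Pi.sub_apply, Pi.single_eq_same, smul_eq_mul]
  nlinarith

/-- If `x = phi p i y`, `y ∈ Δ`, then `y_i = x_i / p_i` and `x_l - (x_i / p_i) p_l = y_l ≥ 0` for `l ≠ i`,
so `x_j / p_j ≤ x_i / p_i` when `p_j < 0`. Hence the intersection lies in the hyperplane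
`p_j x_i = p_i x_j`. -/
theorem aedisjoint_phi_phi {n : ℕ} (p : E n) (i j : Fin n) (hij : i ≠ j)
    (hi : p i < 0) (hj : p j < 0) :
    AEDisjoint volume ((phi p i) '' stdS n) ((phi p j) '' stdS n) := by
  have h0 := null_of_functional
    (p j • (LinearMap.proj i : E n →ₗ[ℝ] ℝ) - p i • (LinearMap.proj j : E n →ₗ[ℝ] ℝ))
    (Pi.single i 1) (by simp [Pi.single_eq_of_ne hij.symm, hj.ne])
  refine measure_mono_null ?_ h0
  rintro x ⟨⟨y, hy, rfl⟩, z, hz, hzy⟩
  have e1 := congrFun hzy i
  have e2 := congrFun hzy j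
  have y1 := hy.1 i
  have y2 := hy.1 j
  have z1 := hz.1 i
  have z2 := hz.1 j
  simp only [phi_apply, Pi.add_apply, Pi.smul_apply, Pi.sub_apply, Pi.single_eq_same,
    Pi.single_eq_of_ne hij, Pi.single_eq_of_ne hij.symm, smul_eq_mul] at e1 e2
  simp only [Set.mem_setOf_eq, LinearMap.sub_apply, LinearMap.smul_apply, LinearMap.coe_proj,
    Function.eval, phi_apply, Pi.add_apply, Pi.smul_apply, Pi.sub_apply, Pi.single_eq_same,
    Pi.single_eq_of_ne hij, Pi.single_eq_of_ne hij.symm, smul_eq_mul]
  -- e1 : z i + z j * (p i - 0) = y i + y i * (p i - 1)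
  -- e2 : z j + z j * (p j - 1) = y j + y i * (p j - 0)
  have a1 : z i + z j * p i = y i * p i := by linarith
  have a2 : z j * p j = y j + y i * p j := by linarith
  -- from a1: z i = (y i - z j) p i >= 0 => y i <= z j ; from a2: y j = (z j - y i) p j >= 0 => z j <= y i
  have b1 : y i ≤ z j := by
    by_contra h
    have h' := not_le.mp h
    nlinarith
  have b2 : z j ≤ y i := by
    by_contra h
    have h' := not_le.mp h
    nlinarith
  have b3 : y i = z j := le_antisymm b1 b2
  have b4 : y j = 0 := by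
    rw [b3] at a2; linarith
  rw [b4]; ring

end P254
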