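import Vale.Agent.Lib.P254.Hull

/-! # P254 unit U11: the two degenerate normal forms are simplices -/

namespace P254

/-- The points `q, e_1, …, e_n` are affinely independent as soon as `∑ q ≠ 1`. -/
theorem affineIndependent_cons {n : ℕ} (q : E n) (hq : ∑ i, q i ≠ 1) :
    AffineIndependent ℝ (Fin.cons q (fun i : Fin n => (Pi.single i 1 : E n)) : Fin (n + 1) → E n) := by
  classical
  rw [affineIndependent_iff_of_fintype]
  intro w hw hz
  rw [Finset.weightedVSub_eq_linear_combination _ hw] at hz
  rw [Fin.sum_univ_succ] at hw hz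
  simp only [Fin.cons_zero, Fin.cons_succ] at hz
  have hj : ∀ j : Fin n, w 0 * q j + w j.succ = 0 := by
    intro j
    have := congrFun hz j
    simp only [Pi.add_apply, Pi.smul_apply, Finset.sum_apply, smul_eq_mul, Pi.zero_apply,
      Pi.single_apply] at this
    simpa using this
  have hsum : w 0 * ∑ j, q j + ∑ j : Fin n, w j.succ = 0 := by
    rw [Finset.mul_sum, ← Finset.sum_add_distrib]
    exact Finset.sum_eq_zero fun j _ => hj j
  have h0 : w 0 * (∑ j, q j - 1) = 0 := by linarith
  have hw0 : w 0 = 0 := by
    rcases mul_eq_zero.mp h0 with h | h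
    · exact h
    · exact absurd (by linarith) hq
  intro i
  refine Fin.cases hw0 (fun j => ?_) i
  have := hj j
  rw [hw0] at this
  linarith

/-- Here `p ∈ Δ`, so `Kp p = Δ = conv (0, e_1, …, e_n)`. -/
theorem isSimplex_Kp_of_nonneg {n : ℕ} (p : E n) (hp0 : ∑ i, p i < 1) (h : ∀ i, 0 ≤ p i) :
    IsSimplex (Kp p) := by
  refine ⟨Fin.cons 0 (fun i : Fin n => (Pi.single i 1 : E n)),
    affineIndependent_cons 0 (by simp), ?_⟩
  rw [Fin.range_cons]
  unfold Kp
  apply Set.Subset.antisymm
  · refine convexHull_min ?_ (convex_convexHull ℝ _)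
    intro x hx
    rcases Set.mem_insert_iff.mp hx with rfl | hx
    · rw [convexHull_std]
      exact ⟨h, hp0.le⟩
    · exact subset_convexHull ℝ _ hx
  · exact convexHull_mono (Set.subset_insert _ _)

/-- Here `0 = (p + ∑ |p_i| e_i) / (1 + ∑ |p_i|)`, so `Kp p = conv (p, e_1, …, e_n)`, and these
`n+1` points are affinely independent because `1 - ∑ p ≠ 0`. -/
theorem isSimplex_Kp_of_nonpos {n : ℕ} (p : E n) (h : ∀ i, p i ≤ 0) :
    IsSimplex (Kp p) := by
  classical
  have hsum : ∑ i, p i ≤ 0 := Finset.sum_nonpos fun i _ => h i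
  refine ⟨Fin.cons p (fun i : Fin n => (Pi.single i 1 : E n)),
    affineIndependent_cons p (by linarith), ?_⟩
  rw [Fin.range_cons]
  unfold Kp
  set S : Set (E n) := insert p (Set.range (fun i : Fin n => (Pi.single i 1 : E n))) with hS
  have hσ : 0 < 1 - ∑ i, p i := by linarith
  have h0 : (0 : E n) ∈ convexHull ℝ S := by
    have key := (convex_convexHull ℝ S).sum_mem (t := (Finset.univ : Finset (Fin (n + 1))))
      (w := (Fin.cons (1 / (1 - ∑ i, p i)) (fun i : Fin n => -(p i) / (1 - ∑ i, p i)) :
        Fin (n + 1) → ℝ))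
      (z := (Fin.cons p (fun i : Fin n => (Pi.single i 1 : E n)) : Fin (n + 1) → E n))
      ?_ ?_ ?_
    · rw [Fin.sum_univ_succ] at key
      simp only [Fin.cons_zero, Fin.cons_succ] at key
      convert key using 1
      ext j
      simp only [Pi.add_apply, Pi.smul_apply, Finset.sum_apply, smul_eq_mul, Pi.zero_apply,
        Pi.single_apply]
      simp
      field_simp
      ring
    · intro i _
      refine Fin.cases ?_ (fun j => ?_) i
      · simp only [Fin.cons_zero]; positivity
      · simp only [Fin.cons_succ]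
        exact div_nonneg (by linarith [h j]) hσ.le
    · rw [Fin.sum_univ_succ]
      simp only [Fin.cons_zero, Fin.cons_succ]
      rw [← Finset.sum_div, Finset.sum_neg_distrib]
      field_simp
      ring
    · intro i _
      refine Fin.cases ?_ (fun j => ?_) i
      · simp only [Fin.cons_zero]
        exact subset_convexHull ℝ _ (Set.mem_insert _ _)
      · simp only [Fin.cons_succ]
        exact subset_convexHull ℝ _ (Set.mem_insert_of_mem _ ⟨j, rfl⟩)
  apply Set.Subset.antisymm
  · refine convexHull_min ?_ (convex_convexHull ℝ _)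
    intro x hx
    rcases Set.mem_insert_iff.mp hx with rfl | hx
    · exact subset_convexHull ℝ _ (Set.mem_insert _ _)
    · rcases Set.mem_insert_iff.mp hx with rfl | hx
      · exact h0
      · exact subset_convexHull ℝ _ (Set.mem_insert_of_mem _ hx)
  · refine convexHull_mono ?_
    intro x hx
    rcases Set.mem_insert_iff.mp hx with rfl | hx
    · exact Set.mem_insert _ _
    · exact Set.mem_insert_of_mem _ (Set.mem_insert_of_mem _ hx)

end P254
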