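import Vale.Agent.Lib.P254.AffBasisMap

/-! # P254 unit U15: reduction of a polytope with at most n+2 vertices to the normal form -/

namespace P254

theorem range_eq_insert_succ {n : ℕ} (b : Fin (n + 1) → E n) :
    Set.range b = insert (b 0) (Set.range (fun l : Fin n => b l.succ)) := by
  ext x
  constructor
  · rintro ⟨i, rfl⟩
    refine Fin.cases ?_ (fun l => ?_) i
    · exact Set.mem_insert _ _
    · exact Set.mem_insert_of_mem _ ⟨l, rfl⟩
  · rintro (rfl | ⟨l, rfl⟩)
    · exact ⟨0, rfl⟩
    · exact ⟨l.succ, rfl⟩

/-- the image of the normal form -/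
theorem image_Kp {n : ℕ} (b : Fin (n + 1) → E n) (A : E n ≃ₗ[ℝ] E n)
    (hA : ∀ l : Fin n, A (Pi.single l 1) = b l.succ - b 0) (p : E n) :
    (fun x => A x + b 0) '' Kp p = convexHull ℝ (insert (A p + b 0) (Set.range b)) := by
  unfold Kp
  rw [image_convexHull_aff, Set.image_insert_eq, Set.image_insert_eq, ← Set.range_comp,
    range_eq_insert_succ b]
  congr 3
  · simp
  · ext x
    simp [hA]

/-- From `exists_affine_map`: `T = conv (range b) = (A · + b 0) '' conv (0, 0, e_1, …, e_n)`. -/
theorem simplex_normal_form {n : ℕ} (T : Set (E n)) (hT : IsSimplex T) :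
    ∃ (A : E n ≃ₗ[ℝ] E n) (c : E n), T = (fun x => A x + c) '' Kp (0 : E n) := by
  obtain ⟨b, hb, rfl⟩ := hT
  obtain ⟨A, hA⟩ := exists_affine_map b hb
  refine ⟨A, b 0, ?_⟩
  rw [image_Kp b A hA 0]
  congr 1
  rw [map_zero, zero_add]
  exact (Set.insert_eq_of_mem (Set.mem_range_self 0)).symm

/-- `affineSpan_eq_top_of_nonempty_interior`, `exists_affineIndependent` give `t ⊆ s` affinely
independent spanning, so `t` has `n+1` elements and `s = t` or `s = insert q t`.
Enumerate `t` as `b : Fin (n+1) → E n`, take `A` from `exists_affine_map`, `c = b 0`,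
`p = A.symm (q - b 0)` (or `p = 0` when `s = t`). -/
theorem exists_normal_form {n : ℕ} (s : Finset (E n)) (hs : s.card ≤ n + 2)
    (hint : (interior (convexHull ℝ (s : Set (E n)))).Nonempty) :
    ∃ (A : E n ≃ₗ[ℝ] E n) (c p : E n),
      convexHull ℝ (s : Set (E n)) = (fun x => A x + c) '' Kp p := by
  classical
  have htop := affineSpan_eq_top_of_nonempty_interior hint
  obtain ⟨t, hts, hspan, hind⟩ := exists_affineIndependent ℝ (E n) (s : Set (E n))
  have hfin : t.Finite := s.finite_toSet.subset hts
  have : Fintype t := hfin.fintype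
  have hcard : Fintype.card t = n + 1 := by
    have h1 : affineSpan ℝ (Set.range ((↑) : t → E n)) = ⊤ := by
      rw [Subtype.range_coe, hspan, htop]
    have := hind.affineSpan_eq_top_iff_card_eq_finrank_add_one.1 h1
    simpa using this
  let e := Fintype.equivFinOfCardEq hcard
  let b : Fin (n + 1) → E n := fun i => (e.symm i : E n)
  have hb : AffineIndependent ℝ b := (affineIndependent_equiv e.symm).2 hind
  have hrange : Set.range b = t := by
    ext x
    constructor
    · rintro ⟨i, rfl⟩
      exact (e.symm i).2
    · intro hx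
      exact ⟨e ⟨x, hx⟩, by simp [b]⟩
  -- `s = insert q t`
  have hq : ∃ q, (s : Set (E n)) = insert q t := by
    have htc : t.toFinset.card = n + 1 := by
      rw [Set.toFinset_card]; exact hcard
    have hsub : t.toFinset ⊆ s := by
      intro x hx
      exact hts (Set.mem_toFinset.1 hx)
    have hd : (s \ t.toFinset).card ≤ 1 := by
      rw [Finset.card_sdiff_of_subset hsub]
      omega
    rcases Finset.card_le_one_iff_subset_singleton.1 hd with ⟨q, hq⟩
    by_cases hqs : q ∈ s
    · refine ⟨q, ?_⟩
      ext x
      constructor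
      · intro hx
        by_cases hxt : x ∈ t
        · exact Set.mem_insert_of_mem _ hxt
        · have : x ∈ s \ t.toFinset := by
            rw [Finset.mem_sdiff]
            exact ⟨hx, fun h => hxt (Set.mem_toFinset.1 h)⟩
          have := hq this
          rw [Finset.mem_singleton] at this
          rw [this]
          exact Set.mem_insert _ _
      · rintro (rfl | hx)
        · exact hqs
        · exact hts hx
    · refine ⟨b 0, ?_⟩
      have hb0 : b 0 ∈ t := (e.symm 0).2
      rw [Set.insert_eq_of_mem hb0]
      ext x
      constructor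
      · intro hx
        by_contra hxt
        have : x ∈ s \ t.toFinset := by
          rw [Finset.mem_sdiff]
          exact ⟨hx, fun h => hxt (Set.mem_toFinset.1 h)⟩
        have := hq this
        rw [Finset.mem_singleton] at this
        exact hqs (this ▸ hx)
      · intro hx
        exact hts hx
  obtain ⟨q, hq⟩ := hq
  obtain ⟨A, hA⟩ := exists_affine_map b hb
  refine ⟨A, b 0, A.symm (q - b 0), ?_⟩
  rw [image_Kp b A hA, hq, hrange]
  simp

end P254
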