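import Vale.Agent.Lib.P254.Defs

/-! # P254 unit U13: moving a vertex with positive barycentric coordinate to the origin -/

namespace P254

/-- linear part of the swap -/
noncomputable def swapLin {n : ℕ} (j : Fin n) : E n →ₗ[ℝ] E n :=
  LinearMap.id -
    ((∑ i, (LinearMap.proj i : E n →ₗ[ℝ] ℝ)) + LinearMap.proj j).smulRight (Pi.single j 1)

theorem swapLin_apply {n : ℕ} (j k : Fin n) (x : E n) :
    swapLin j x k = x k - (∑ i, x i + x j) * (if k = j then 1 else 0) := by
  simp [swapLin, Pi.single_apply, LinearMap.sum_apply]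

theorem sum_swapLin {n : ℕ} (j : Fin n) (x : E n) : ∑ k, swapLin j x k = - x j := by
  simp_rw [swapLin_apply]
  rw [Finset.sum_sub_distrib, ← Finset.mul_sum]
  simp

theorem swapLin_invol {n : ℕ} (j : Fin n) : Function.Involutive (swapLin j) := by
  intro x
  ext k
  rw [swapLin_apply, sum_swapLin, swapLin_apply, swapLin_apply]
  simp only [if_true]
  by_cases h : k = j
  · subst h
    simp only [if_true]
    ring
  · simp only [if_neg h]
    ring

/-- Pick `j` with `p j > 0`. `R x = x + (1 - ∑ x - x_j) e_j` is an affine involution with linear part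
`A x = x - (∑ x + x_j) e_j` (an involution, `LinearEquiv.ofInvolutive`) and `c = e_j`;
it swaps `0` and `e_j` and fixes the other `e_l`. Take `p' = R p`; then `∑ p' = 1 - p_j < 1`. -/
theorem exists_swap {n : ℕ} (p : E n) (hp : 1 ≤ ∑ i, p i) :
    ∃ (A : E n ≃ₗ[ℝ] E n) (c p' : E n), ∑ i, p' i < 1 ∧
      Kp p = (fun x => A x + c) '' Kp p' := by
  obtain ⟨j, _, hj⟩ : ∃ j ∈ Finset.univ, 0 < p j := by
    apply Finset.exists_lt_of_sum_lt (s := Finset.univ) (f := fun _ => (0 : ℝ)) (g := p)
    simp only [Finset.sum_const_zero]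
    linarith
  let A : E n ≃ₗ[ℝ] E n := LinearEquiv.ofInvolutive (swapLin j) (swapLin_invol j)
  have hA : ∀ x, A x = swapLin j x := fun x => rfl
  let c : E n := Pi.single j 1
  let f : E n →ᵃ[ℝ] E n := A.toLinearMap.toAffineMap + AffineMap.const ℝ (E n) c
  have hf : ∀ x, f x = A x + c := fun x => by simp [f]
  have hfun : (fun x => A x + c) = f := by
    funext x
    exact (hf x).symm
  have hcoord : ∀ x k, f x k = if k = j then 1 - ∑ i, x i else x k := by
    intro x k
    rw [hf, Pi.add_apply, hA, swapLin_apply]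
    simp only [c, Pi.single_apply]
    split_ifs with h
    · subst h; ring
    · ring
  have hff : ∀ x, f (f x) = x := by
    intro x
    rw [hf, hf, map_add, hA, hA, hA, swapLin_invol j x]
    ext k
    simp only [Pi.add_apply, swapLin_apply, c, Pi.single_apply]
    simp
    split_ifs <;> ring
  have hf0 : f 0 = Pi.single j 1 := by
    rw [hf, map_zero, zero_add]
  have hfj : f (Pi.single j 1) = 0 := by
    rw [← hf0, hff]
  have hfl : ∀ l, l ≠ j → f (Pi.single l 1) = Pi.single l 1 := by
    intro l hl
    ext k
    rw [hcoord]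
    split_ifs with h
    · subst h
      simp [Pi.single_apply, hl.symm]
    · rfl
  refine ⟨A, c, f p, ?_, ?_⟩
  · have h1 : ∑ i, f p i = 1 - p j := by
      simp_rw [hcoord]
      rw [← Finset.add_sum_erase Finset.univ _ (Finset.mem_univ j)]
      rw [if_pos rfl]
      have h2 : ∑ x ∈ Finset.univ.erase j, (if x = j then 1 - ∑ i, p i else p x)
          = ∑ x ∈ Finset.univ.erase j, p x := by
        refine Finset.sum_congr rfl fun x hx => ?_
        rw [if_neg (Finset.ne_of_mem_erase hx)]
      rw [h2]
      have h3 := Finset.add_sum_erase Finset.univ p (Finset.mem_univ j)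
      linarith
    rw [h1]
    linarith
  · rw [hfun]
    unfold Kp
    rw [AffineMap.image_convexHull, Set.image_insert_eq, Set.image_insert_eq, hff, hf0,
      ← Set.range_comp]
    congr 1
    ext y
    simp only [Set.mem_insert_iff, Set.mem_range, Function.comp]
    constructor
    · rintro (h | h | ⟨l, rfl⟩)
      · exact Or.inl h
      · exact Or.inr (Or.inr ⟨j, by rw [hfj, h]⟩)
      · by_cases hl : l = j
        · subst hl
          exact Or.inr (Or.inl rfl)
        · exact Or.inr (Or.inr ⟨l, hfl l hl⟩)
    · rintro (h | h | ⟨l, rfl⟩)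
      · exact Or.inl h
      · exact Or.inr (Or.inr ⟨j, h.symm⟩)
      · by_cases hl : l = j
        · subst hl
          exact Or.inr (Or.inl hfj)
        · exact Or.inr (Or.inr ⟨l, (hfl l hl).symm⟩)

end P254
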