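import Vale.Agent.Lib.P254.FormulaIneq
import Vale.Agent.Lib.P254.EqSimplex
import Vale.Agent.Lib.P254.AffineInv
import Vale.Agent.Lib.P254.Swap
import Vale.Agent.Lib.P254.Reduce

/-! # P254: assembly -/

namespace P254
open MeasureTheory

theorem vol_Kp_pos {n : ℕ} (p : E n) : 0 < vol (Kp p) := by
  have h1 : vol (stdS n) ≤ vol (Kp p) :=
    ENNReal.toReal_mono (isCompact_Kp p).measure_lt_top.ne (measure_mono (stdS_subset_Kp p))
  have h2 : 0 < vol (stdS n) := by rw [vol_stdS]; positivity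
  linarith

theorem cN_pos (n : ℕ) : 0 < cN n := by unfold cN; positivity

theorem Kp_main_lt {n : ℕ} (p : E n) (hp0 : ∑ i, p i < 1) :
    0 ≤ isoPow (Kp p) ∧ isoPow (Kp p) ≤ cN n ∧ (isoPow (Kp p) = cN n → IsSimplex (Kp p)) := by
  rw [isoPow_Kp p hp0]
  refine ⟨mul_nonneg (cN_pos n).le (ratio_nonneg p hp0), ?_, ?_⟩
  · calc cN n * ratio p ≤ cN n * 1 :=
          mul_le_mul_of_nonneg_left (ratio_le_one p hp0) (cN_pos n).le
      _ = cN n := mul_one _
  · intro h
    have h1 : ratio p = 1 := by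
      have h2 : cN n * ratio p = cN n * 1 := by rw [h, mul_one]
      exact mul_left_cancel₀ (cN_pos n).ne' h2
    rcases ratio_eq_one p hp0 h1 with h | h
    · exact isSimplex_Kp_of_nonneg p hp0 h
    · exact isSimplex_Kp_of_nonpos p h

theorem Kp_main {n : ℕ} (p : E n) :
    0 ≤ isoPow (Kp p) ∧ isoPow (Kp p) ≤ cN n ∧ (isoPow (Kp p) = cN n → IsSimplex (Kp p)) := by
  by_cases hp0 : ∑ i, p i < 1
  · exact Kp_main_lt p hp0
  · obtain ⟨A, c, p', hp', hK⟩ := exists_swap p (not_lt.mp hp0)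
    have h := Kp_main_lt p' hp'
    rw [hK, isoPow_affine_image A c _ (isCompact_Kp p') (vol_Kp_pos p')]
    exact ⟨h.1, h.2.1, fun h' => IsSimplex.affine_image A c _ (h.2.2 h')⟩

theorem isoPow_simplex {n : ℕ} (T : Set (E n)) (hT : IsSimplex T) : isoPow T = cN n := by
  obtain ⟨A, c, rfl⟩ := simplex_normal_form T hT
  rw [isoPow_affine_image A c _ (isCompact_Kp 0) (vol_Kp_pos 0), isoPow_Kp 0 (by simp)]
  simp [ratio, Pm, Pp, sig]

theorem main_pow {n : ℕ} (s : Finset (E n)) (hs : s.card ≤ n + 2)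
    (hint : (interior (convexHull ℝ (s : Set (E n)))).Nonempty) :
    0 ≤ isoPow (convexHull ℝ (s : Set (E n))) ∧ isoPow (convexHull ℝ (s : Set (E n))) ≤ cN n ∧
      (isoPow (convexHull ℝ (s : Set (E n))) = cN n → IsSimplex (convexHull ℝ (s : Set (E n)))) := by
  obtain ⟨A, c, p, hK⟩ := exists_normal_form s hs hint
  have h := Kp_main p
  rw [hK, isoPow_affine_image A c _ (isCompact_Kp p) (vol_Kp_pos p)]
  exact ⟨h.1, h.2.1, fun h' => IsSimplex.affine_image A c _ (h.2.2 h')⟩

/-- Main theorem: every simplex has `L = simplexConst n`; every convex body that is the convex hull of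
at most `n+2` points has `L_K ≤ L_{Δ_n}`, with equality only for simplices. -/
theorem main (n : ℕ) (hn : 1 ≤ n) :
    (∀ T : Set (E n), IsSimplex T → isoConst T = simplexConst n) ∧
    (∀ s : Finset (E n), s.card ≤ n + 2 →
      (interior (convexHull ℝ (s : Set (E n)))).Nonempty →
        isoConst (convexHull ℝ (s : Set (E n))) ≤ simplexConst n ∧
        (isoConst (convexHull ℝ (s : Set (E n))) = simplexConst n →
          IsSimplex (convexHull ℝ (s : Set (E n))))) := by
  have hn' : (0 : ℝ) < n := by exact_mod_cast hn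
  have hexp : (1 / (2 * (n : ℝ))) ≠ 0 := by positivity
  refine ⟨fun T hT => by rw [isoConst, isoPow_simplex T hT, simplexConst], ?_⟩
  intro s hs hint
  obtain ⟨h0, h1, h2⟩ := main_pow s hs hint
  refine ⟨Real.rpow_le_rpow h0 h1 (by positivity), fun h => h2 ?_⟩
  exact Real.rpow_left_injOn hexp (Set.mem_setOf.mpr h0) (Set.mem_setOf.mpr (cN_pos n).le) h

end P254
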