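import Vale.Agent.Lib.P254.IsoKp

/-! # P254 unit U10: inequalities for `ratio p` (pure real algebra)

Key facts: `sig p = ∑ max (p i) 0 + (1 - ∑ p)`; `Pm p ≤ (∑ max (-p i) 0)^2`;
`Pp p ≤ (∑ max (p i) 0)^2`; so `1 + Pm p ≤ sig p ^ 2` and `Pp p + (1 - ∑ p)^2 ≤ sig p ^ 2`. -/

namespace P254

theorem sum_sq_le_sq_sum23 {n : ℕ} (x : Fin n → ℝ) (hx : ∀ i, 0 ≤ x i) :
    ∑ i, (x i) ^ 2 ≤ (∑ i, x i) ^ 2 := by
  have h : ∀ i ∈ Finset.univ, (x i) ^ 2 ≤ x i * ∑ j, x j := by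
    intro i _
    have h1 : x i ≤ ∑ j, x j :=
      Finset.single_le_sum (f := x) (fun j _ => hx j) (Finset.mem_univ i)
    nlinarith [hx i]
  calc ∑ i, (x i) ^ 2 ≤ ∑ i, x i * ∑ j, x j := Finset.sum_le_sum h
    _ = (∑ i, x i) ^ 2 := by rw [← Finset.sum_mul]; ring

theorem sum_eq_pos_sub_neg23 {n : ℕ} (p : E n) :
    ∑ i, p i = ∑ i, max (p i) 0 - ∑ i, max (-(p i)) 0 := by
  rw [← Finset.sum_sub_distrib]
  refine Finset.sum_congr rfl (fun i _ => ?_)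
  rcases le_total 0 (p i) with h | h
  · rw [max_eq_left h, max_eq_right (by linarith)]; ring
  · rw [max_eq_right h, max_eq_left (by linarith)]; ring

/-- the basic quantities and their relations -/
theorem ratio_facts23 {n : ℕ} (p : E n) (hp0 : ∑ i, p i < 1) :
    0 < sig p ∧ 0 ≤ Pm p ∧ 0 ≤ Pp p ∧
    1 + Pm p + 2 * (∑ i, max (-(p i)) 0) ≤ sig p ^ 2 ∧
    Pp p + (1 - ∑ i, p i) ^ 2 + 2 * (∑ i, max (p i) 0) * (1 - ∑ i, p i) ≤ sig p ^ 2 ∧
    0 ≤ ∑ i, max (-(p i)) 0 ∧ 0 ≤ ∑ i, max (p i) 0 := by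
  have hm : 0 ≤ ∑ i, max (-(p i)) 0 := Finset.sum_nonneg (fun i _ => le_max_right _ _)
  have hP : 0 ≤ ∑ i, max (p i) 0 := Finset.sum_nonneg (fun i _ => le_max_right _ _)
  have h1 : Pm p ≤ (∑ i, max (-(p i)) 0) ^ 2 :=
    sum_sq_le_sq_sum23 (fun i => max (-(p i)) 0) (fun i => le_max_right _ _)
  have h2 : Pp p ≤ (∑ i, max (p i) 0) ^ 2 :=
    sum_sq_le_sq_sum23 (fun i => max (p i) 0) (fun i => le_max_right _ _)
  have hs := sum_eq_pos_sub_neg23 p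
  have hsig : sig p = 1 + ∑ i, max (-(p i)) 0 := rfl
  refine ⟨by rw [hsig]; linarith, Finset.sum_nonneg (fun i _ => sq_nonneg _),
    Finset.sum_nonneg (fun i _ => sq_nonneg _), ?_, ?_, hm, hP⟩
  · rw [hsig]; nlinarith
  · have : sig p = ∑ i, max (p i) 0 + (1 - ∑ i, p i) := by rw [hsig, hs]; ring
    rw [this]; nlinarith

theorem ratio_nonneg {n : ℕ} (p : E n) (hp0 : ∑ i, p i < 1) : 0 ≤ ratio p := by
  obtain ⟨hs, hPm, hPp, hA, hB, hm, hP⟩ := ratio_facts23 p hp0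
  have hs2 : 0 < sig p ^ 2 := by positivity
  have h1s : 0 < 1 - ∑ i, p i := by linarith
  have hA0 : 0 ≤ (1 + Pm p) / sig p ^ 2 := by positivity
  have hB0 : 0 ≤ (Pp p + (1 - ∑ i, p i) ^ 2) / sig p ^ 2 := by positivity
  have hA1 : (1 + Pm p) / sig p ^ 2 ≤ 1 := by
    rw [div_le_one hs2]; linarith
  have hB1 : (Pp p + (1 - ∑ i, p i) ^ 2) / sig p ^ 2 ≤ 1 := by
    rw [div_le_one hs2]
    have : 0 ≤ 2 * (∑ i, max (p i) 0) * (1 - ∑ i, p i) := by positivity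
    linarith
  unfold ratio
  nlinarith

theorem ratio_le_one {n : ℕ} (p : E n) (hp0 : ∑ i, p i < 1) : ratio p ≤ 1 := by
  obtain ⟨hs, hPm, hPp, hA, hB, hm, hP⟩ := ratio_facts23 p hp0
  have hs2 : 0 < sig p ^ 2 := by positivity
  have h1s : 0 < 1 - ∑ i, p i := by linarith
  have hA1 : (1 + Pm p) / sig p ^ 2 ≤ 1 := by
    rw [div_le_one hs2]; linarith
  have hB1 : (Pp p + (1 - ∑ i, p i) ^ 2) / sig p ^ 2 ≤ 1 := by
    rw [div_le_one hs2]
    have : 0 ≤ 2 * (∑ i, max (p i) 0) * (1 - ∑ i, p i) := by positivity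
    linarith
  unfold ratio
  nlinarith [mul_nonneg (sub_nonneg.2 hA1) (sub_nonneg.2 hB1)]

theorem ratio_eq_one {n : ℕ} (p : E n) (hp0 : ∑ i, p i < 1) (h : ratio p = 1) :
    (∀ i, 0 ≤ p i) ∨ (∀ i, p i ≤ 0) := by
  obtain ⟨hs, hPm, hPp, hA, hB, hm, hP⟩ := ratio_facts23 p hp0
  have hs2 : 0 < sig p ^ 2 := by positivity
  have h1s : 0 < 1 - ∑ i, p i := by linarith
  unfold ratio at h
  have hprod : (1 - (1 + Pm p) / sig p ^ 2) *
      (1 - (Pp p + (1 - ∑ i, p i) ^ 2) / sig p ^ 2) = 0 := by linarith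
  rcases mul_eq_zero.1 hprod with h0 | h0
  · left
    have hA1 : (1 + Pm p) / sig p ^ 2 = 1 := by linarith
    rw [div_eq_one_iff_eq hs2.ne'] at hA1
    have hm0 : ∑ i, max (-(p i)) 0 = 0 := by linarith
    intro i
    have := (Finset.sum_eq_zero_iff_of_nonneg (fun j _ => le_max_right (-(p j)) 0)).1 hm0 i
      (Finset.mem_univ i)
    have h2 : -(p i) ≤ max (-(p i)) 0 := le_max_left _ _
    linarith
  · right
    have hB1 : (Pp p + (1 - ∑ i, p i) ^ 2) / sig p ^ 2 = 1 := by linarith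
    rw [div_eq_one_iff_eq hs2.ne'] at hB1
    have hP0' : 2 * (∑ i, max (p i) 0) * (1 - ∑ i, p i) ≤ 0 := by linarith
    have hP0 : ∑ i, max (p i) 0 = 0 := by
      by_contra hne
      have hpos : 0 < ∑ i, max (p i) 0 := lt_of_le_of_ne hP (Ne.symm hne)
      have : 0 < 2 * (∑ i, max (p i) 0) * (1 - ∑ i, p i) := by positivity
      linarith
    intro i
    have := (Finset.sum_eq_zero_iff_of_nonneg (fun j _ => le_max_right (p j) 0)).1 hP0 i
      (Finset.mem_univ i)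
    have h2 : p i ≤ max (p i) 0 := le_max_left _ _
    linarith

end P254
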