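import Vale.Agent.Lib.P254.Defs

/-! # P254 unit U0: elementary facts on the corner simplex and on `Kp p` -/

namespace P254
open MeasureTheory

theorem isClosed_stdS (n : ℕ) : IsClosed (stdS n) := by
  have h1 : IsClosed {x : E n | ∀ i, 0 ≤ x i} := by
    simp only [Set.ofPred_forall]
    exact isClosed_iInter (fun i => isClosed_le continuous_const (continuous_apply i))
  have h2 : IsClosed {x : E n | ∑ i, x i ≤ 1} :=
    isClosed_le (continuous_finsetSum _ (fun i _ => continuous_apply i)) continuous_const
  exact h1.inter h2

theorem measurableSet_stdS (n : ℕ) : MeasurableSet (stdS n) :=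
  (isClosed_stdS n).measurableSet

theorem isCompact_stdS (n : ℕ) : IsCompact (stdS n) := by
  apply IsCompact.of_isClosed_subset (isCompact_Icc (a := (0 : E n)) (b := 1)) (isClosed_stdS n)
  intro x hx
  refine ⟨fun i => hx.1 i, fun i => ?_⟩
  exact (Finset.single_le_sum (f := fun i => x i) (fun j _ => hx.1 j) (Finset.mem_univ i)).trans
    hx.2

theorem convex_stdS (n : ℕ) : Convex ℝ (stdS n) := by
  intro x hx y hy a b ha hb hab
  refine ⟨fun i => ?_, ?_⟩
  · have h1 := hx.1 i
    have h2 := hy.1 i
    simp only [Pi.add_apply, Pi.smul_apply, smul_eq_mul]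
    positivity
  · simp only [Pi.add_apply, Pi.smul_apply, smul_eq_mul, Finset.sum_add_distrib,
      ← Finset.mul_sum]
    have h1 := hx.2
    have h2 := hy.2
    nlinarith

theorem convexHull_std (n : ℕ) :
    convexHull ℝ (insert (0 : E n) (Set.range (fun i : Fin n => (Pi.single i 1 : E n))))
      = stdS n := by
  apply Set.Subset.antisymm
  · apply convexHull_min _ (convex_stdS n)
    intro x hx
    rcases hx with rfl | ⟨i, rfl⟩
    · exact ⟨fun i => le_rfl, by simp⟩
    · refine ⟨fun j => ?_, ?_⟩
      · by_cases h : j = i
        · subst h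
          simp
        · simp [Pi.single_eq_of_ne h]
      · simp
  · intro x hx
    have hconv := convex_convexHull ℝ
      (insert (0 : E n) (Set.range (fun i : Fin n => (Pi.single i 1 : E n))))
    have key := hconv.sum_mem (t := (Finset.univ : Finset (Option (Fin n))))
      (w := fun o => match o with
        | none => 1 - ∑ i, x i
        | some i => x i)
      (z := fun o => match o with
        | none => (0 : E n)
        | some i => Pi.single i 1)
      (by
        intro o _
        cases o with
        | none => simpa using hx.2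
        | some i => exact hx.1 i)
      (by
        rw [Fintype.sum_option]
        simp)
      (by
        intro o _
        cases o with
        | none => exact subset_convexHull _ _ (Set.mem_insert _ _)
        | some i => exact subset_convexHull _ _ (Set.mem_insert_of_mem _ ⟨i, rfl⟩))
    rw [Fintype.sum_option] at key
    have hx' : x = ∑ i, x i • (Pi.single i 1 : E n) := by
      funext j
      simp [Finset.sum_apply, Pi.single_apply]
    simp only [smul_zero, zero_add] at key
    rw [hx']
    exact key

theorem isCompact_Kp {n : ℕ} (p : E n) : IsCompact (Kp p) := by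
  unfold Kp
  exact Set.Finite.isCompact_convexHull (𝕜 := ℝ) (((Set.finite_range _).insert 0).insert p)

theorem stdS_subset_Kp {n : ℕ} (p : E n) : stdS n ⊆ Kp p := by
  rw [← convexHull_std]
  exact convexHull_mono (Set.subset_insert _ _)

/-- `x ∈ Kp p` iff `x - θ p ∈ (1-θ) Δ` for some `θ ∈ [0,1]`
(use `convexHull_insert` and `convexHull_std`). -/
theorem mem_Kp_iff {n : ℕ} (p x : E n) :
    x ∈ Kp p ↔ ∃ θ : ℝ, 0 ≤ θ ∧ θ ≤ 1 ∧ (∀ i, 0 ≤ x i - θ * p i) ∧
      ∑ i, (x i - θ * p i) ≤ 1 - θ := by
  unfold Kp
  rw [convexHull_insert ⟨0, Set.mem_insert _ _⟩, convexHull_std, mem_convexJoin]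
  constructor
  · rintro ⟨q, hq, y, hy, a, b, ha, hb, hab, rfl⟩
    rw [Set.mem_singleton_iff] at hq
    subst hq
    refine ⟨a, ha, by linarith, fun i => ?_, ?_⟩
    · have := hy.1 i
      simp only [Pi.add_apply, Pi.smul_apply, smul_eq_mul]
      have h2 : 0 ≤ b * y i := by positivity
      linarith
    · have h1 : ∑ i, ((a • q + b • y) i - a * q i) = b * ∑ i, y i := by
        rw [Finset.mul_sum]
        apply Finset.sum_congr rfl
        intro i _
        simp only [Pi.add_apply, Pi.smul_apply, smul_eq_mul]
        ring
      rw [h1]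
      have := hy.2
      nlinarith
  · rintro ⟨θ, h0, h1, hpos, hsum⟩
    refine ⟨p, rfl, ?_⟩
    rcases eq_or_lt_of_le h1 with rfl | hlt
    · refine ⟨0, ⟨fun i => le_rfl, by simp⟩, 1, 0, by norm_num, le_rfl, by norm_num, ?_⟩
      have hz : ∀ i, x i - 1 * p i = 0 := by
        have hs : ∑ i, (x i - 1 * p i) = 0 :=
          le_antisymm (by simpa using hsum) (Finset.sum_nonneg (fun i _ => hpos i))
        intro i
        exact (Finset.sum_eq_zero_iff_of_nonneg (fun i _ => hpos i)).mp hs i (Finset.mem_univ i)
      funext i
      have := hz i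
      simp only [Pi.add_apply, Pi.smul_apply, smul_eq_mul, Pi.zero_apply]
      linarith
    · have hpos1 : 0 < 1 - θ := by linarith
      refine ⟨fun i => (x i - θ * p i) / (1 - θ), ⟨fun i => div_nonneg (hpos i) hpos1.le, ?_⟩,
        θ, 1 - θ, h0, hpos1.le, by ring, ?_⟩
      · rw [← Finset.sum_div, div_le_one hpos1]
        exact hsum
      · funext i
        simp only [Pi.add_apply, Pi.smul_apply, smul_eq_mul]
        field_simp
        ring

end P254
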