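import Vale.Agent.Lib.P254.KpMoments
import Vale.Agent.Lib.P254.CovEq
import Vale.Agent.Lib.P254.DetCore

/-! # P254 unit U9: the exact formula for `L^{2n}` of the normal form -/

namespace P254
open MeasureTheory

/-- `1 - (1 - |a|^2)(1 - |b|^2)` for the Radon coefficients `a, b` of `(p, 0, e_1, …, e_n)`. -/
noncomputable def ratio {n : ℕ} (p : E n) : ℝ :=
  1 - (1 - (1 + Pm p) / sig p ^ 2) * (1 - (Pp p + (1 - ∑ i, p i) ^ 2) / sig p ^ 2)

/-- By `cov_eq`, `vol_Kp`, `mom1_Kp`, `mom2_Kp`: `cov (Kp p) = (1/((n+1)(n+2))) • M` with `M` the matrix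
of `det_core`; then `Matrix.det_smul` and `det_core`. -/
theorem isoPow_Kp {n : ℕ} (p : E n) (hp0 : ∑ i, p i < 1) :
    isoPow (Kp p) = cN n * ratio p := by
  have hs := sig_pos p
  have hf : (0 : ℝ) < (n.factorial : ℝ) := by positivity
  have hn1 : (0 : ℝ) < (n : ℝ) + 1 := by positivity
  have hn2 : (0 : ℝ) < (n : ℝ) + 2 := by positivity
  have hV : vol (Kp p) = sig p / (n.factorial : ℝ) := vol_Kp p hp0
  have hV0 : vol (Kp p) ≠ 0 := by rw [hV]; positivity
  have hf1 : ((n + 1).factorial : ℝ) = ((n : ℝ) + 1) * (n.factorial : ℝ) := by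
    rw [Nat.factorial_succ]; push_cast; ring
  have hf2 : ((n + 2).factorial : ℝ) = ((n : ℝ) + 2) * (((n : ℝ) + 1) * (n.factorial : ℝ)) := by
    rw [Nat.factorial_succ, Nat.factorial_succ]; push_cast; ring
  have hcov : cov (Kp p) = (1 / (((n : ℝ) + 1) * ((n : ℝ) + 2))) •
      (Matrix.of fun a b : Fin n =>
        (if a = b then (1 : ℝ) else 0) + p a * p b
          - (1 / ((n : ℝ) + 1)) * ((1 + p a) * (1 + p b))
          + (1 / ((n : ℝ) + 1)) * ((1 + p a) * oV p b + oV p a * (1 + p b))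
          - (((n : ℝ) + 2) / ((n : ℝ) + 1)) * (oV p a * oV p b)) := by
    ext a b
    rw [cov_eq (Kp p) (isCompact_Kp p) hV0, mom2_Kp p hp0, mom1_Kp p hp0, mom1_Kp p hp0, hV,
      hf1, hf2]
    simp only [Matrix.smul_apply, Matrix.of_apply, smul_eq_mul]
    field_simp
    ring
  rw [isoPow, hcov, Matrix.det_smul, det_core, hV, Fintype.card_fin, cN, ratio]
  rw [pow_succ ((n : ℝ) + 1) n, div_pow, one_pow, mul_pow]
  field_simp
  ring

end P254
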