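import Vale.Agent.Lib.P254.Dirichlet
import Vale.Agent.Lib.P254.Hull

/-! # P254 unit U1b: volume, first and second moments of the corner simplex (from `dirichlet`) -/

namespace P254
open MeasureTheory

theorem vol_stdS (n : ℕ) : vol (stdS n) = 1 / (n.factorial : ℝ) := by
  have h := dirichlet n (fun _ => 0)
  simp only [pow_zero, Finset.prod_const_one, Nat.factorial_zero, Nat.cast_one,
    Finset.sum_const_zero, add_zero] at h
  rw [← h]
  simp [vol, Measure.real]

theorem mom1_stdS (n : ℕ) (i : Fin n) :
    ∫ x in stdS n, x i = 1 / ((n + 1).factorial : ℝ) := by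
  have h := dirichlet n (fun j => if j = i then 1 else 0)
  have e1 : ∀ x : E n, ∏ j, x j ^ (if j = i then 1 else 0) = x i := by
    intro x
    rw [Finset.prod_eq_single i]
    · simp
    · intro b _ hb; simp [hb]
    · simp
  have e2 : ∏ j : Fin n, (((if j = i then 1 else 0 : ℕ)).factorial : ℝ) = 1 := by
    refine Finset.prod_eq_one fun j _ => ?_
    split_ifs <;> simp
  have e3 : ∑ j : Fin n, (if j = i then 1 else 0 : ℕ) = 1 := by simp
  simp only [e1, e2, e3] at h
  exact h

theorem mom2_stdS (n : ℕ) (i j : Fin n) :
    ∫ x in stdS n, x i * x j = (if i = j then 2 else 1) / ((n + 2).factorial : ℝ) := by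
  have h := dirichlet n (fun l => (if l = i then 1 else 0) + (if l = j then 1 else 0))
  have e1 : ∀ x : E n,
      ∏ l, x l ^ ((if l = i then 1 else 0) + (if l = j then 1 else 0)) = x i * x j := by
    intro x
    simp only [pow_add, Finset.prod_mul_distrib]
    congr 1
    · rw [Finset.prod_eq_single i]
      · simp
      · intro b _ hb; simp [hb]
      · simp
    · rw [Finset.prod_eq_single j]
      · simp
      · intro b _ hb; simp [hb]
      · simp
  have e3 : ∑ l : Fin n, ((if l = i then 1 else 0) + (if l = j then 1 else 0) : ℕ) = 2 := by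
    simp [Finset.sum_add_distrib]
  have e2 : ∏ l : Fin n,
      ((((if l = i then 1 else 0) + (if l = j then 1 else 0) : ℕ)).factorial : ℝ)
      = if i = j then 2 else 1 := by
    by_cases hij : i = j
    · subst hij
      rw [Finset.prod_eq_single i]
      · simp
      · intro b _ hb; simp [hb]
      · simp
    · rw [if_neg hij]
      refine Finset.prod_eq_one fun l _ => ?_
      by_cases h1 : l = i
      · simp [h1, hij]
      · by_cases h2 : l = j
        · simp [h2, Ne.symm hij]
        · simp [h1, h2]
  simp only [e1, e2, e3] at h
  exact h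

end P254
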