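import Vale.Agent.Lib.P254.Master
import Vale.Agent.Lib.P254.StdMoments

/-! # P254 unit U6: closed forms for the moments of `Kp p` -/

namespace P254
open MeasureTheory

theorem intOn23 {n : ℕ} (g : E n → ℝ) (hg : Continuous g) :
    IntegrableOn g (stdS n) volume :=
  hg.continuousOn.integrableOn_compact (isCompact_stdS n)

theorem pos_sub_neg23 (t : ℝ) : max t 0 - max (-t) 0 = t := by
  rcases le_total 0 t with h | h
  · rw [max_eq_left h, max_eq_right (by linarith)]; ring
  · rw [max_eq_right h, max_eq_left (by linarith)]; ring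

theorem sum_m23 {n : ℕ} (p : E n) : ∑ i, max (-(p i)) 0 = sig p - 1 := by
  unfold sig; ring

theorem sum_m_ite23 {n : ℕ} (p : E n) (a : Fin n) (c : ℝ) :
    ∑ i, max (-(p i)) 0 * ((if i = a then 1 else 0) * c) = max (-(p a)) 0 * c := by
  have : ∀ i : Fin n, max (-(p i)) 0 * ((if i = a then 1 else 0) * c)
      = if i = a then max (-(p i)) 0 * c else 0 := by
    intro i; split_ifs <;> ring
  simp only [this]
  rw [Finset.sum_ite_eq' Finset.univ a (fun i => max (-(p i)) 0 * c)]
  simp

theorem sig_pos23 {n : ℕ} (p : E n) : 0 < sig p := by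
  have hm : 0 ≤ ∑ i, max (-(p i)) 0 := Finset.sum_nonneg (fun i _ => le_max_right _ _)
  unfold sig; linarith

theorem vol_Kp {n : ℕ} (p : E n) (hp0 : ∑ i, p i < 1) :
    vol (Kp p) = sig p / (n.factorial : ℝ) := by
  have h := master p hp0 (fun _ => (1 : ℝ)) continuous_const
  have e1 : ∀ K : Set (E n), ∫ _x in K, (1 : ℝ) = vol K := by
    intro K
    simp [vol, Measure.real]
  rw [e1, e1, vol_stdS, ← Finset.sum_mul, sum_m23] at h
  rw [h]; ring

theorem int_phi1_23 {n : ℕ} (p : E n) (i a : Fin n) :
    ∫ x in stdS n, (phi p i x) a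
      = 1 / ((n + 1).factorial : ℝ) * (1 + p a - (if i = a then 1 else 0)) := by
  have e : ∀ x : E n, (phi p i x) a = x a + (p a - (if i = a then 1 else 0)) * x i := by
    intro x
    rw [phi_apply]
    simp only [Pi.add_apply, Pi.smul_apply, Pi.sub_apply, smul_eq_mul, Pi.single_apply]
    by_cases h : i = a
    · subst h; simp; ring
    · have h' : ¬ a = i := fun hh => h hh.symm
      simp [h, h']; ring
  simp only [e]
  rw [integral_add (intOn23 _ (continuous_apply a))
    ((intOn23 _ (continuous_apply i)).const_mul _), integral_const_mul, mom1_stdS, mom1_stdS]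
  ring

theorem mom1_Kp {n : ℕ} (p : E n) (hp0 : ∑ i, p i < 1) (a : Fin n) :
    ∫ x in Kp p, x a = sig p / ((n + 1).factorial : ℝ) * (1 + p a - oV p a) := by
  have h := master p hp0 (fun x => x a) (continuous_apply a)
  simp only [int_phi1_23, mom1_stdS] at h
  rw [h]
  have e : ∀ i : Fin n, max (-(p i)) 0 * (1 / ((n + 1).factorial : ℝ)
        * (1 + p a - (if i = a then 1 else 0)))
      = max (-(p i)) 0 * (1 / ((n + 1).factorial : ℝ) * (1 + p a))
        - max (-(p i)) 0 * ((if i = a then 1 else 0) * (1 / ((n + 1).factorial : ℝ))) := by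
    intro i; ring
  simp only [e]
  rw [Finset.sum_sub_distrib, ← Finset.sum_mul, sum_m23, sum_m_ite23]
  have hs := sig_pos23 p
  have hpa := pos_sub_neg23 (p a)
  have ho : sig p * oV p a = max (p a) 0 := by
    unfold oV; field_simp
  have hf : ((n + 1).factorial : ℝ) ≠ 0 := by positivity
  field_simp
  nlinarith [ho, hpa]

theorem int_phi2_23 {n : ℕ} (p : E n) (i a b : Fin n) :
    ∫ x in stdS n, (phi p i x) a * (phi p i x) b
      = 1 / ((n + 2).factorial : ℝ) * (((if a = b then 1 else 0) + 1 + p a + p b + 2 * p a * p b)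
          - (if i = b then 1 else 0) * (1 + p a) - (if i = a then 1 else 0) * (1 + p b)) := by
  have e1 : ∀ (c : Fin n) (x : E n),
      (phi p i x) c = x c + (p c - (if i = c then 1 else 0)) * x i := by
    intro c x
    rw [phi_apply]
    simp only [Pi.add_apply, Pi.smul_apply, Pi.sub_apply, smul_eq_mul, Pi.single_apply]
    by_cases h : i = c
    · subst h; simp; ring
    · have h' : ¬ c = i := fun hh => h hh.symm
      simp [h, h']; ring
  have e : ∀ x : E n, (phi p i x) a * (phi p i x) b
      = x a * x b + (p b - (if i = b then 1 else 0)) * (x a * x i)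
        + (p a - (if i = a then 1 else 0)) * (x i * x b)
        + ((p a - (if i = a then 1 else 0)) * (p b - (if i = b then 1 else 0))) * (x i * x i) := by
    intro x; rw [e1 a, e1 b]; ring
  simp only [e]
  set ua : ℝ := p a - (if i = a then 1 else 0) with hua
  set ub : ℝ := p b - (if i = b then 1 else 0) with hub
  have I1 : IntegrableOn (fun x : E n => x a * x b) (stdS n) volume :=
    intOn23 _ (by fun_prop)
  have I2 : IntegrableOn (fun x : E n => ub * (x a * x i)) (stdS n) volume :=
    intOn23 _ (by fun_prop)
  have I3 : IntegrableOn (fun x : E n => ua * (x i * x b)) (stdS n) volume :=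
    intOn23 _ (by fun_prop)
  have I4 : IntegrableOn (fun x : E n => ua * ub * (x i * x i)) (stdS n) volume :=
    intOn23 _ (by fun_prop)
  have I12 : IntegrableOn (fun x : E n => x a * x b + ub * (x a * x i)) (stdS n) volume :=
    intOn23 _ (by fun_prop)
  have I123 : IntegrableOn (fun x : E n => x a * x b + ub * (x a * x i) + ua * (x i * x b))
      (stdS n) volume := intOn23 _ (by fun_prop)
  rw [integral_add I123 I4, integral_add I12 I3, integral_add I1 I2,
    integral_const_mul, integral_const_mul, integral_const_mul,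
    mom2_stdS, mom2_stdS, mom2_stdS, mom2_stdS, hua, hub]
  by_cases hab : a = b
  · subst hab
    by_cases hia : i = a
    · subst hia; simp; ring
    · have hia' : ¬ a = i := fun hh => hia hh.symm
      simp [hia, hia']; ring
  · by_cases hia : i = a
    · subst hia
      have hab' : ¬ b = i := fun hh => hab hh.symm
      simp [hab, hab']; ring
    · have hia' : ¬ a = i := fun hh => hia hh.symm
      by_cases hib : i = b
      · subst hib; simp [hab, hia, hia']; ring
      · have hib' : ¬ b = i := fun hh => hib hh.symm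
        simp [hab, hia, hia', hib, hib']; ring

theorem mom2_Kp {n : ℕ} (p : E n) (hp0 : ∑ i, p i < 1) (a b : Fin n) :
    ∫ x in Kp p, x a * x b = sig p / ((n + 2).factorial : ℝ) *
      ((if a = b then 1 else 0) + p a * p b + (1 + p a) * (1 + p b)
        - (1 + p a) * oV p b - oV p a * (1 + p b)) := by
  have h := master p hp0 (fun x => x a * x b)
    ((continuous_apply a).mul (continuous_apply b))
  simp only [int_phi2_23, mom2_stdS] at h
  rw [h]
  set K0 : ℝ := (if a = b then 1 else 0) + 1 + p a + p b + 2 * p a * p b with hK0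
  set c : ℝ := 1 / ((n + 2).factorial : ℝ) with hc
  have e : ∀ i : Fin n, max (-(p i)) 0 * (c * (K0 - (if i = b then 1 else 0) * (1 + p a)
        - (if i = a then 1 else 0) * (1 + p b)))
      = max (-(p i)) 0 * (c * K0)
        - max (-(p i)) 0 * ((if i = b then 1 else 0) * (c * (1 + p a)))
        - max (-(p i)) 0 * ((if i = a then 1 else 0) * (c * (1 + p b))) := by
    intro i; ring
  simp only [e]
  rw [Finset.sum_sub_distrib, Finset.sum_sub_distrib, ← Finset.sum_mul, sum_m23, sum_m_ite23,
    sum_m_ite23]
  have hs := sig_pos23 p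
  have hpa := pos_sub_neg23 (p a)
  have hpb := pos_sub_neg23 (p b)
  have hoa : sig p * oV p a = max (p a) 0 := by
    unfold oV; field_simp
  have hob : sig p * oV p b = max (p b) 0 := by
    unfold oV; field_simp
  have hma : max (-(p a)) 0 = sig p * oV p a - p a := by rw [hoa]; linarith
  have hmb : max (-(p b)) 0 = sig p * oV p b - p b := by rw [hob]; linarith
  rw [hma, hmb]
  have h12 : ((if a = b then 2 else 1 : ℝ)) = (if a = b then 1 else 0) + 1 := by
    split_ifs <;> norm_num
  rw [h12, hK0, div_eq_mul_one_div (sig p), ← hc, div_eq_mul_one_div, ← hc]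
  ring

end P254
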