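import Vale.Agent.Lib.P254.LDefs

/-! # P254 part 4, unit L3: `NotLocMax` is invariant under invertible affine maps

Given `ε`, use `h` with `ε / (C + 1)` where `‖A z‖ ≤ C ‖z‖` (`A` is continuous:
`LinearMap.toContinuousLinearMap`, `ContinuousLinearMap.le_opNorm`). Take `s'' = s'.image (A · + c)`:
`image_convexHull_aff`, `isoPow_affine_image` (compactness: `Set.Finite.isCompact_convexHull`;
positive volume from the nonempty interior: `IsOpen.measure_pos` + `measure_mono`), the interior of the image
is nonempty because `x ↦ A x + c` is a homeomorphism (open map), and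
`Metric.hausdorffDist_le_of_mem_dist` together with `Metric.exists_dist_lt_of_hausdorffDist_lt`
(all sets are nonempty and bounded, so the Hausdorff edistance is finite:
`Metric.hausdorffEDist_ne_top_of_nonempty_of_bounded`). -/

namespace P254
open MeasureTheory

theorem NotLocMax.affine_image {n : ℕ} (A : E n ≃ₗ[ℝ] E n) (c : E n) (K : Set (E n))
    (hK : IsCompact K) (hv : 0 < vol K) (h : NotLocMax K) :
    NotLocMax ((fun x => A x + c) '' K) := by
  classical
  intro ε hε
  set Ac : E n →L[ℝ] E n := LinearMap.toContinuousLinearMap (A : E n →ₗ[ℝ] E n) with hAc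
  have hAc_apply : ∀ x, Ac x = A x := fun x => rfl
  set C : ℝ := ‖Ac‖ with hC
  have hC0 : 0 ≤ C := norm_nonneg _
  have hlip : ∀ x y, dist (A x + c) (A y + c) ≤ C * dist x y := by
    intro x y
    rw [dist_add_right, dist_eq_norm, dist_eq_norm, ← map_sub, ← hAc_apply]
    exact Ac.le_opNorm _
  obtain ⟨s', hs', hint, hd, hlt⟩ := h (ε / (C + 1)) (by positivity)
  set K' := convexHull ℝ (s' : Set (E n)) with hK'
  have hK'c : IsCompact K' := Set.Finite.isCompact_convexHull (𝕜 := ℝ) s'.finite_toSet
  have hKne : K.Nonempty := by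
    by_contra hne
    rw [Set.not_nonempty_iff_eq_empty] at hne
    rw [hne] at hv
    simp [vol] at hv
  have hK'ne : K'.Nonempty := hint.mono interior_subset
  have hfin : Metric.hausdorffEDist K K' ≠ ⊤ :=
    Metric.hausdorffEDist_ne_top_of_nonempty_of_bounded hKne hK'ne hK.isBounded hK'c.isBounded
  have hv' : 0 < vol K' := by
    have h1 : 0 < volume (interior K') := isOpen_interior.measure_pos volume hint
    have h2 : 0 < volume K' := lt_of_lt_of_le h1 (measure_mono interior_subset)
    exact ENNReal.toReal_pos h2.ne' hK'c.measure_lt_top.ne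
  refine ⟨s'.image (fun x => A x + c), ?_, ?_, ?_, ?_⟩
  · exact Finset.card_image_le.trans hs'
  · rw [Finset.coe_image, ← image_convexHull_aff]
    have hopen : IsOpenMap (fun x : E n => A x + c) :=
      (A.toContinuousLinearEquiv.toHomeomorph.trans (Homeomorph.addRight c)).isOpenMap
    obtain ⟨x, hx⟩ := hint
    exact ⟨A x + c, hopen.image_interior_subset _ ⟨x, hx, rfl⟩⟩
  · rw [Finset.coe_image, ← image_convexHull_aff]
    have hle : Metric.hausdorffDist ((fun x => A x + c) '' K) ((fun x => A x + c) '' K')
        ≤ C * (ε / (C + 1)) := by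
      apply Metric.hausdorffDist_le_of_mem_dist (by positivity)
      · rintro _ ⟨x, hx, rfl⟩
        obtain ⟨y, hy, hxy⟩ := Metric.exists_dist_lt_of_hausdorffDist_lt hx hd hfin
        exact ⟨A y + c, ⟨y, hy, rfl⟩, (hlip x y).trans (mul_le_mul_of_nonneg_left hxy.le hC0)⟩
      · rintro _ ⟨y, hy, rfl⟩
        obtain ⟨x, hx, hxy⟩ := Metric.exists_dist_lt_of_hausdorffDist_lt' hy hd hfin
        exact ⟨A x + c, ⟨x, hx, rfl⟩, (hlip y x).trans
          (mul_le_mul_of_nonneg_left (by rw [dist_comm]; exact hxy.le) hC0)⟩
    have h1 : C / (C + 1) < 1 := by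
      rw [div_lt_one (by positivity)]; linarith
    calc Metric.hausdorffDist ((fun x => A x + c) '' K) ((fun x => A x + c) '' K')
        ≤ C * (ε / (C + 1)) := hle
      _ = ε * (C / (C + 1)) := by ring
      _ < ε := mul_lt_of_lt_one_right hε h1
  · rw [Finset.coe_image, ← image_convexHull_aff, isoPow_affine_image A c K hK hv,
      isoPow_affine_image A c K' hK'c hv']
    exact hlt

end P254
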