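import Vale.Agent.Lib.P254.LDefs

/-! # P254 part 4, unit L1 (pure real algebra): the ratio can be increased by a small move of `p`

Move `p` on the line through the Radon point `o = oV p`: `p' = o + t (p - o)`, `t > 0` close to `1`.
With `σ = sig p`, `σ₋ = σ - 1`, `c = (1 + t σ₋)/σ`: `p'_l = c p_l` if `p_l ≥ 0`, `p'_l = t p_l` if `p_l < 0`;
`sig p' = 1 + t σ₋`, `Pm p' = t^2 Pm p`, `Pp p' = c^2 Pp p`, `1 - ∑ p' = c (1 - ∑ p)`.
So the second factor of `ratio` is unchanged and the first one becomes `1 - A t`,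
`A t = (1 + t^2 P)/(1 + t σ₋)^2`, `P = Pm p`, and
`A t - A 1 = (t - 1) (c₂ (t + 1) - 2 σ₋ (1 + P)) / ((1 + t σ₋)^2 (1 + σ₋)^2)`, `c₂ = P + 2 P σ₋ - σ₋^2`;
at `t = 1` the bracket is `2 (P - σ₋)(1 + σ₋)`. If `P > σ₋` take `t > 1`, if `P < σ₋` take `t < 1`
(`t` close to `1`, by continuity or explicitly); if `P = σ₋` the numerator is `(σ₋ + σ₋^2)(t - 1)^2 > 0`.
`ratio p < 1` forces both factors of the product to be positive, in particular `σ₋ > 0`. -/

namespace P254

/-- scale the positive part by `c` and the negative part by `t` -/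
noncomputable def mv {n : ℕ} (p : E n) (c t : ℝ) : E n :=
  fun i => c * max (p i) 0 - t * max (-(p i)) 0

theorem mv_pos {n : ℕ} (p : E n) (c t : ℝ) (hc : 0 ≤ c) (ht : 0 ≤ t) (i : Fin n) :
    max (mv p c t i) 0 = c * max (p i) 0 := by
  unfold mv
  rcases le_total 0 (p i) with h | h
  · rw [max_eq_left h, max_eq_right (by linarith : -(p i) ≤ 0), mul_zero, sub_zero,
      max_eq_left (by positivity)]
  · rw [max_eq_right h, max_eq_left (by linarith : 0 ≤ -(p i)), mul_zero, zero_sub, max_eq_right]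
    nlinarith

theorem mv_neg {n : ℕ} (p : E n) (c t : ℝ) (hc : 0 ≤ c) (ht : 0 ≤ t) (i : Fin n) :
    max (-(mv p c t i)) 0 = t * max (-(p i)) 0 := by
  unfold mv
  rcases le_total 0 (p i) with h | h
  · rw [max_eq_left h, max_eq_right (by linarith : -(p i) ≤ 0), mul_zero, sub_zero, max_eq_right]
    nlinarith
  · rw [max_eq_right h, max_eq_left (by linarith : 0 ≤ -(p i)), mul_zero, zero_sub, neg_neg,
      max_eq_left]
    nlinarith

theorem numer_pos (s P t : ℝ) (hs : 0 < s) (ht : 0 < t)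
    (h : (s ≤ P ∧ 1 < t) ∨ (P < s ∧ t < 1)) :
    (1 + P) * (1 + t * s) ^ 2 < (1 + t ^ 2 * P) * (1 + s) ^ 2 := by
  have key : (1 + t ^ 2 * P) * (1 + s) ^ 2 - (1 + P) * (1 + t * s) ^ 2
      = (t - 1) * ((P + 2 * P * s - s ^ 2) * t - (2 * s + s ^ 2 - P)) := by ring
  have goal : 0 < (t - 1) * ((P + 2 * P * s - s ^ 2) * t - (2 * s + s ^ 2 - P)) := by
    rcases h with ⟨h1, h2⟩ | ⟨h1, h2⟩
    · apply mul_pos (by linarith)
      have e : (P + 2 * P * s - s ^ 2) * t - (2 * s + s ^ 2 - P)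
          = (P + 2 * P * s - s ^ 2) * (t - 1) + 2 * (P - s) * (1 + s) := by ring
      rw [e]
      have c2 : 0 < P + 2 * P * s - s ^ 2 := by nlinarith
      have a1 : 0 < (P + 2 * P * s - s ^ 2) * (t - 1) := mul_pos c2 (by linarith)
      have a2 : 0 ≤ 2 * (P - s) * (1 + s) :=
        mul_nonneg (mul_nonneg (by norm_num) (by linarith)) (by linarith)
      linarith
    · apply mul_pos_of_neg_of_neg (by linarith)
      have e : (P + 2 * P * s - s ^ 2) * t - (2 * s + s ^ 2 - P)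
          = -((2 * s + s ^ 2 - P) * (1 - t) + 2 * (s - P) * (1 + s) * t) := by ring
      rw [e]
      have c0 : 0 < 2 * s + s ^ 2 - P := by nlinarith
      have a1 : 0 < (2 * s + s ^ 2 - P) * (1 - t) := mul_pos c0 (by linarith)
      have a2 : 0 < 2 * (s - P) * (1 + s) * t :=
        mul_pos (mul_pos (mul_pos (by norm_num) (by linarith)) (by linarith)) ht
      linarith
  linarith

theorem exists_better {n : ℕ} (p : E n) (hp0 : ∑ i, p i < 1) (hr : ratio p < 1)
    (η : ℝ) (hη : 0 < η) :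
    ∃ p' : E n, ∑ i, p' i < 1 ∧ dist p p' ≤ η ∧ ratio p < ratio p' := by
  obtain ⟨hs, hPm, hPp, hA, hB, hm, hP⟩ := ratio_facts23 p hp0
  set s : ℝ := ∑ i, max (-(p i)) 0 with hsdef
  set S : ℝ := ∑ i, max (p i) 0 with hSdef
  set δ : ℝ := 1 - ∑ i, p i with hδdef
  have hsig : sig p = 1 + s := rfl
  have hδ : 0 < δ := by rw [hδdef]; linarith
  have hsum : ∑ i, p i = S - s := sum_eq_pos_sub_neg23 p
  have hSδ : S = 1 + s - δ := by rw [hδdef, hsum]; ring
  have hs2 : 0 < sig p ^ 2 := by positivity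
  -- both factors are positive
  have hA1 : 0 ≤ 1 - (1 + Pm p) / sig p ^ 2 := by
    rw [sub_nonneg, div_le_one hs2]; linarith
  have hB1 : 0 ≤ 1 - (Pp p + δ ^ 2) / sig p ^ 2 := by
    rw [sub_nonneg, div_le_one hs2]
    have : 0 ≤ 2 * S * δ := by positivity
    linarith
  have hprod : 0 < (1 - (1 + Pm p) / sig p ^ 2) * (1 - (Pp p + δ ^ 2) / sig p ^ 2) := by
    unfold ratio at hr
    linarith
  have hA2 : 0 < 1 - (1 + Pm p) / sig p ^ 2 := by
    rcases hA1.eq_or_lt with h | h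
    · rw [← h, zero_mul] at hprod; exact absurd hprod (lt_irrefl _)
    · exact h
  have hB2 : 0 < 1 - (Pp p + δ ^ 2) / sig p ^ 2 := by
    rcases hB1.eq_or_lt with h | h
    · rw [← h, mul_zero] at hprod; exact absurd hprod (lt_irrefl _)
    · exact h
  have hspos : 0 < s := by
    rcases hm.eq_or_lt with h | h
    · exfalso
      rw [hsig, ← h] at hA2
      have : (1 + Pm p) / (1 + 0) ^ 2 = 1 + Pm p := by norm_num
      rw [this] at hA2
      linarith
    · exact h
  -- the step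
  set ε : ℝ := min (1 / 2) (η / (‖p‖ + 1)) with hεdef
  have hnp : 0 < ‖p‖ + 1 := by positivity
  have hε0 : 0 < ε := lt_min (by norm_num) (by positivity)
  have hε1 : ε ≤ 1 / 2 := min_le_left _ _
  have hε2 : ε * ‖p‖ ≤ η := by
    have h1 : ε ≤ η / (‖p‖ + 1) := min_le_right _ _
    have h2 : ε * (‖p‖ + 1) ≤ η := by rwa [le_div_iff₀ hnp] at h1
    nlinarith [norm_nonneg p]
  obtain ⟨t, ht0, htε, hcase⟩ : ∃ t : ℝ, 0 < t ∧ |t - 1| ≤ ε ∧
      ((s ≤ Pm p ∧ 1 < t) ∨ (Pm p < s ∧ t < 1)) := by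
    rcases le_or_gt s (Pm p) with h | h
    · exact ⟨1 + ε, by linarith, by rw [add_sub_cancel_left, abs_of_pos hε0],
        Or.inl ⟨h, by linarith⟩⟩
    · refine ⟨1 - ε, by linarith, ?_, Or.inr ⟨h, by linarith⟩⟩
      rw [show (1 - ε - 1 : ℝ) = -ε by ring, abs_neg, abs_of_pos hε0]
  have hts : 0 < 1 + t * s := by positivity
  have h1s : 0 < 1 + s := by positivity
  set c : ℝ := (1 + t * s) / (1 + s) with hcdef
  have hc0 : 0 < c := by positivity
  have hc1 : c * (1 + s) = 1 + t * s := by rw [hcdef]; field_simp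
  have e_sig : sig (mv p c t) = 1 + t * s := by
    unfold sig
    simp only [mv_neg p c t hc0.le ht0.le]
    rw [← Finset.mul_sum]
  have e_Pm : Pm (mv p c t) = t ^ 2 * Pm p := by
    unfold Pm
    simp only [mv_neg p c t hc0.le ht0.le, mul_pow]
    rw [← Finset.mul_sum]
  have e_Pp : Pp (mv p c t) = c ^ 2 * Pp p := by
    unfold Pp
    simp only [mv_pos p c t hc0.le ht0.le, mul_pow]
    rw [← Finset.mul_sum]
  have e_sum : ∑ i, mv p c t i = c * S - t * s := by
    unfold mv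
    rw [Finset.sum_sub_distrib, ← Finset.mul_sum, ← Finset.mul_sum]
  have e_del : 1 - ∑ i, mv p c t i = c * δ := by
    rw [e_sum, hSδ]
    linear_combination -hc1
  refine ⟨mv p c t, ?_, ?_, ?_⟩
  · have : 0 < c * δ := by positivity
    linarith
  · rw [dist_pi_le_iff hη.le]
    intro i
    have hc' : c - 1 = (t - 1) * (s / (1 + s)) := by
      rw [hcdef]; field_simp; ring
    have hfr0 : 0 ≤ s / (1 + s) := by positivity
    have hfr1 : s / (1 + s) ≤ 1 := by rw [div_le_one h1s]; linarith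
    have hpi : |p i| ≤ ‖p‖ := by
      have := norm_le_pi_norm p i
      rwa [Real.norm_eq_abs] at this
    have hbound : |p i - mv p c t i| ≤ |t - 1| * |p i| := by
      unfold mv
      rcases le_total 0 (p i) with h | h
      · rw [max_eq_left h, max_eq_right (by linarith : -(p i) ≤ 0), mul_zero, sub_zero]
        have : p i - c * p i = -((t - 1) * (s / (1 + s)) * p i) := by
          rw [← hc']; ring
        rw [this, abs_neg, abs_mul, abs_mul, abs_of_nonneg hfr0]
        have h3 : |t - 1| * (s / (1 + s)) ≤ |t - 1| * 1 :=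
          mul_le_mul_of_nonneg_left hfr1 (abs_nonneg _)
        calc |t - 1| * (s / (1 + s)) * |p i| ≤ |t - 1| * 1 * |p i| :=
              mul_le_mul_of_nonneg_right h3 (abs_nonneg _)
          _ = |t - 1| * |p i| := by ring
      · rw [max_eq_right h, max_eq_left (by linarith : 0 ≤ -(p i)), mul_zero, zero_sub]
        have : p i - -(t * -p i) = -((t - 1) * p i) := by ring
        rw [this, abs_neg, abs_mul]
    rw [Real.dist_eq]
    calc |p i - mv p c t i| ≤ |t - 1| * |p i| := hbound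
      _ ≤ ε * ‖p‖ := mul_le_mul htε hpi (abs_nonneg _) hε0.le
      _ ≤ η := hε2
  · have hBeq : (Pp (mv p c t) + (1 - ∑ i, mv p c t i) ^ 2) / sig (mv p c t) ^ 2
        = (Pp p + δ ^ 2) / sig p ^ 2 := by
      rw [e_Pp, e_del, e_sig, hsig, ← hc1]
      field_simp
    have hAlt : (1 + Pm p) / sig p ^ 2 < (1 + Pm (mv p c t)) / sig (mv p c t) ^ 2 := by
      rw [e_Pm, e_sig, hsig, div_lt_div_iff₀ (by positivity) (by positivity)]
      exact numer_pos s (Pm p) t hspos ht0 hcase
    have e1 : ratio (mv p c t) = 1 - (1 - (1 + Pm (mv p c t)) / sig (mv p c t) ^ 2) *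
        (1 - (Pp p + δ ^ 2) / sig p ^ 2) := by
      rw [← hBeq]; rfl
    have e2 : ratio p = 1 - (1 - (1 + Pm p) / sig p ^ 2) * (1 - (Pp p + δ ^ 2) / sig p ^ 2) := rfl
    rw [e1, e2]
    have := mul_lt_mul_of_pos_right hAlt hB2
    linarith

end P254
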