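import Vale.Agent.Lib.P254.LDefs

/-! # P254 part 4, unit L2: `Kp p` depends continuously on `p`; `Kp p` as the hull of a finset -/

namespace P254

theorem exists_close_Kp_L2 {n : ℕ} (p p' : E n) (x : E n) (hx : x ∈ Kp p) :
    ∃ y ∈ Kp p', dist x y ≤ dist p p' := by
  obtain ⟨θ, h0, h1, hpos, hsum⟩ := (mem_Kp_iff p x).mp hx
  refine ⟨x + θ • (p' - p), (mem_Kp_iff p' _).mpr ⟨θ, h0, h1, ?_, ?_⟩, ?_⟩
  · intro i
    have : (x + θ • (p' - p)) i - θ * p' i = x i - θ * p i := by
      simp only [Pi.add_apply, Pi.smul_apply, Pi.sub_apply, smul_eq_mul]; ring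
    rw [this]; exact hpos i
  · have : ∀ i, (x + θ • (p' - p)) i - θ * p' i = x i - θ * p i := by
      intro i
      simp only [Pi.add_apply, Pi.smul_apply, Pi.sub_apply, smul_eq_mul]; ring
    simp only [this]; exact hsum
  · rw [dist_eq_norm, dist_eq_norm]
    have : x - (x + θ • (p' - p)) = θ • (p - p') := by
      rw [sub_add_cancel_left, ← smul_neg, neg_sub]
    rw [this, norm_smul, Real.norm_eq_abs, abs_of_nonneg h0]
    calc θ * ‖p - p'‖ ≤ 1 * ‖p - p'‖ := mul_le_mul_of_nonneg_right h1 (norm_nonneg _)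
      _ = ‖p - p'‖ := one_mul _

/-- `x = θ p + (1-θ) y ↦ θ p' + (1-θ) y` (`convexHull_insert`); then
`Metric.hausdorffDist_le_of_mem_dist`. -/
theorem hausdorffDist_Kp_le {n : ℕ} (p p' : E n) :
    Metric.hausdorffDist (Kp p) (Kp p') ≤ dist p p' := by
  refine Metric.hausdorffDist_le_of_mem_dist dist_nonneg
    (fun x hx => exists_close_Kp_L2 p p' x hx) (fun x hx => ?_)
  obtain ⟨y, hy, hd⟩ := exists_close_Kp_L2 p' p x hx
  exact ⟨y, hy, by rw [dist_comm p p']; exact hd⟩

theorem exists_finset_Kp {n : ℕ} (p : E n) :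
    ∃ s : Finset (E n), s.card ≤ n + 2 ∧ convexHull ℝ (s : Set (E n)) = Kp p := by
  classical
  refine ⟨insert p (insert 0 (Finset.univ.image (fun i : Fin n => (Pi.single i 1 : E n)))), ?_, ?_⟩
  · calc (insert p (insert 0 (Finset.univ.image (fun i : Fin n => (Pi.single i 1 : E n))))).card
        ≤ (insert 0 (Finset.univ.image (fun i : Fin n => (Pi.single i 1 : E n)))).card + 1 :=
          Finset.card_insert_le _ _
      _ ≤ ((Finset.univ.image (fun i : Fin n => (Pi.single i 1 : E n))).card + 1) + 1 :=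
          Nat.add_le_add_right (Finset.card_insert_le _ _) 1
      _ ≤ (n + 1) + 1 := by
          have : (Finset.univ.image (fun i : Fin n => (Pi.single i 1 : E n))).card ≤ n := by
            calc _ ≤ (Finset.univ : Finset (Fin n)).card := Finset.card_image_le
              _ = n := by simp
          omega
      _ = n + 2 := rfl
  · unfold Kp
    congr 1
    simp [Finset.coe_insert, Finset.coe_image, Set.image_univ]

/-- `Kp p ⊇ stdS n`, which contains a small open box around `(1/(2n+2), …)`. -/
theorem interior_Kp_nonempty {n : ℕ} (p : E n) : (interior (Kp p)).Nonempty := by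
  set U : Set (E n) := (⋂ i : Fin n, {x : E n | 0 < x i}) ∩ {x : E n | ∑ i, x i < 1} with hU
  have hopen : IsOpen U := by
    refine IsOpen.inter (isOpen_iInter_of_finite fun i => ?_) ?_
    · exact isOpen_lt continuous_const (continuous_apply i)
    · exact isOpen_lt (continuous_finsetSum _ fun i _ => continuous_apply i) continuous_const
  have hsub : U ⊆ Kp p := by
    intro x hx
    refine stdS_subset_Kp p ⟨fun i => ?_, hx.2.le⟩
    exact (Set.mem_iInter.mp hx.1 i).le
  refine ⟨fun _ => 1 / ((n : ℝ) + 1), interior_maximal hsub hopen ⟨?_, ?_⟩⟩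
  · refine Set.mem_iInter.mpr fun i => ?_
    show (0 : ℝ) < 1 / ((n : ℝ) + 1)
    positivity
  · show ∑ _i : Fin n, 1 / ((n : ℝ) + 1) < 1
    rw [Finset.sum_const, Finset.card_univ, Fintype.card_fin, nsmul_eq_mul, mul_one_div,
      div_lt_one (by positivity)]
    linarith

end P254
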