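import Vale.Agent.Lib.P254.Final

/-!
# P254 part 4: a polytope with at most n+2 vertices that is not a simplex is not a local maximizer
-/

namespace P254

/-- `K` can be approximated in the Hausdorff distance by hulls of at most `n+2` points with a strictly
larger value of `det Σ / vol^2`. -/
def NotLocMax {n : ℕ} (K : Set (E n)) : Prop :=
  ∀ ε : ℝ, 0 < ε → ∃ s' : Finset (E n), s'.card ≤ n + 2 ∧
    (interior (convexHull ℝ (s' : Set (E n)))).Nonempty ∧
    Metric.hausdorffDist K (convexHull ℝ (s' : Set (E n))) < ε ∧
    isoPow K < isoPow (convexHull ℝ (s' : Set (E n)))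

end P254
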