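import Vale.Agent.Lib.P254.LAlg
import Vale.Agent.Lib.P254.LClose
import Vale.Agent.Lib.P254.LAffine

/-! # P254 part 4: assembly -/

namespace P254
open MeasureTheory

theorem notLocMax_Kp_lt {n : ℕ} (p : E n) (hp0 : ∑ i, p i < 1) (hr : ratio p < 1) :
    NotLocMax (Kp p) := by
  intro ε hε
  obtain ⟨p', hp', hd, hlt⟩ := exists_better p hp0 hr (ε / 2) (by positivity)
  obtain ⟨s, hs, hsK⟩ := exists_finset_Kp p'
  refine ⟨s, hs, ?_, ?_, ?_⟩
  · rw [hsK]; exact interior_Kp_nonempty p'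
  · rw [hsK]
    calc Metric.hausdorffDist (Kp p) (Kp p') ≤ dist p p' := hausdorffDist_Kp_le p p'
      _ ≤ ε / 2 := hd
      _ < ε := by linarith
  · rw [hsK, isoPow_Kp p hp0, isoPow_Kp p' hp']
    exact mul_lt_mul_of_pos_left hlt (cN_pos n)

theorem notLocMax_Kp {n : ℕ} (p : E n) (hS : ¬ IsSimplex (Kp p)) : NotLocMax (Kp p) := by
  by_cases hp0 : ∑ i, p i < 1
  · refine notLocMax_Kp_lt p hp0 (lt_of_le_of_ne (ratio_le_one p hp0) fun h1 => hS ?_)
    exact (Kp_main_lt p hp0).2.2 (by rw [isoPow_Kp p hp0, h1, mul_one])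
  · obtain ⟨A, c, p', hp', hK⟩ := exists_swap p (not_lt.mp hp0)
    rw [hK]
    refine NotLocMax.affine_image A c _ (isCompact_Kp p') (vol_Kp_pos p') ?_
    refine notLocMax_Kp_lt p' hp' (lt_of_le_of_ne (ratio_le_one p' hp') fun h1 => hS ?_)
    rw [hK]
    exact IsSimplex.affine_image A c _
      ((Kp_main_lt p' hp').2.2 (by rw [isoPow_Kp p' hp', h1, mul_one]))

/-- A polytope with at most `n+2` vertices that is not a simplex is not a local maximizer of the
isotropic constant. -/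
theorem mainL (n : ℕ) (hn : 1 ≤ n) (s : Finset (E n)) (hs : s.card ≤ n + 2)
    (hint : (interior (convexHull ℝ (s : Set (E n)))).Nonempty)
    (hS : ¬ IsSimplex (convexHull ℝ (s : Set (E n)))) :
    ∀ ε : ℝ, 0 < ε → ∃ s' : Finset (E n), s'.card ≤ n + 2 ∧
      (interior (convexHull ℝ (s' : Set (E n)))).Nonempty ∧
      Metric.hausdorffDist (convexHull ℝ (s : Set (E n))) (convexHull ℝ (s' : Set (E n))) < ε ∧
      isoConst (convexHull ℝ (s : Set (E n))) < isoConst (convexHull ℝ (s' : Set (E n))) := by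
  obtain ⟨A, c, p, hK⟩ := exists_normal_form s hs hint
  have hSp : ¬ IsSimplex (Kp p) := fun h => hS (by rw [hK]; exact IsSimplex.affine_image A c _ h)
  have hN : NotLocMax (convexHull ℝ (s : Set (E n))) := by
    rw [hK]
    exact NotLocMax.affine_image A c _ (isCompact_Kp p) (vol_Kp_pos p) (notLocMax_Kp p hSp)
  have hn' : (0 : ℝ) < n := by exact_mod_cast hn
  intro ε hε
  obtain ⟨s', hs', hint', hd, hlt⟩ := hN ε hε
  refine ⟨s', hs', hint', hd, ?_⟩
  exact Real.rpow_lt_rpow (main_pow s hs hint).1 hlt (by positivity)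

end P254
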