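import Vale.Agent.Lib.P254.Cover
import Vale.Agent.Lib.P254.Disjoint
import Vale.Agent.Lib.P254.LinImage

/-! # P254 unit U5: the master integration formula over `Kp p` -/

namespace P254
open MeasureTheory

/-- From `Kp_eq_union`, the two `aedisjoint` lemmas, `setIntegral_image_linear`, `det_phi`. -/
theorem master {n : ℕ} (p : E n) (hp0 : ∑ i, p i < 1) (f : E n → ℝ) (hf : Continuous f) :
    ∫ x in Kp p, f x
      = (∫ x in stdS n, f x) + ∑ i, max (-(p i)) 0 * ∫ x in stdS n, f (phi p i x) := by
  classical
  let s : Option (Fin n) → Set (E n) := fun o => match o with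
    | none => stdS n
    | some i => if p i < 0 then (phi p i) '' stdS n else ∅
  have hs0 : s none = stdS n := rfl
  have hs1 : ∀ i, p i < 0 → s (some i) = (phi p i) '' stdS n := fun i hi => if_pos hi
  have hs2 : ∀ i, ¬ p i < 0 → s (some i) = ∅ := fun i hi => if_neg hi
  have hU : Kp p = ⋃ o, s o := by
    rw [Kp_eq_union p hp0]
    ext x
    simp only [Set.mem_union, Set.mem_iUnion, Finset.mem_filter, Finset.mem_univ, true_and]
    constructor
    · rintro (h | ⟨i, hi, hx⟩)
      · exact ⟨none, h⟩
      · exact ⟨some i, by rw [hs1 i hi]; exact hx⟩
    · rintro ⟨o, ho⟩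
      cases o with
      | none => exact Or.inl ho
      | some i =>
        by_cases hi : p i < 0
        · right
          rw [hs1 i hi] at ho
          exact ⟨i, hi, ho⟩
        · rw [hs2 i hi] at ho
          exact absurd ho (Set.notMem_empty _)
  have hcomp : ∀ i, IsCompact ((phi p i) '' stdS n) := fun i =>
    (isCompact_stdS n).image (LinearMap.continuous_of_finiteDimensional _)
  have hm : ∀ o, NullMeasurableSet (s o) volume := by
    intro o
    cases o with
    | none => exact (measurableSet_stdS n).nullMeasurableSet
    | some i =>
      by_cases hi : p i < 0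
      · rw [hs1 i hi]
        exact (hcomp i).measurableSet.nullMeasurableSet
      · rw [hs2 i hi]
        exact MeasurableSet.empty.nullMeasurableSet
  have hempty : ∀ t : Set (E n), AEDisjoint volume t ∅ := fun t => by
    simp [AEDisjoint]
  have hd : Pairwise (Function.onFun (AEDisjoint volume) s) := by
    intro a b hab
    show AEDisjoint volume (s a) (s b)
    cases a with
    | none =>
      cases b with
      | none => exact absurd rfl hab
      | some j =>
        by_cases hj : p j < 0
        · rw [hs1 j hj]
          exact aedisjoint_std_phi p j hj
        · rw [hs2 j hj]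
          exact hempty _
    | some i =>
      cases b with
      | none =>
        by_cases hi : p i < 0
        · rw [hs1 i hi]
          exact (aedisjoint_std_phi p i hi).symm
        · rw [hs2 i hi]
          exact (hempty _).symm
      | some j =>
        have hij : i ≠ j := fun h => hab (by rw [h])
        by_cases hi : p i < 0
        · by_cases hj : p j < 0
          · rw [hs1 i hi, hs1 j hj]
            exact aedisjoint_phi_phi p i j hij hi hj
          · rw [hs2 j hj]
            exact hempty _
        · rw [hs2 i hi]
          exact (hempty _).symm
  have hfi : IntegrableOn f (⋃ o, s o) volume := by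
    rw [← hU]
    exact hf.continuousOn.integrableOn_compact (isCompact_Kp p)
  rw [hU, integral_iUnion_ae hm hd hfi, tsum_fintype, Fintype.sum_option, hs0]
  congr 1
  apply Finset.sum_congr rfl
  intro i _
  by_cases hi : p i < 0
  · rw [hs1 i hi, setIntegral_image_linear (phi p i) (by rw [det_phi]; exact hi.ne) _
      (measurableSet_stdS n) f, det_phi, abs_of_neg hi, max_eq_left (by linarith)]
  · rw [hs2 i hi, max_eq_right (by linarith)]
    simp

end P254
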