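import Vale.Agent.Lib.P254.TMem

/-! # P254 part 2, unit T2: `Q_{k+1}` is covered by `Q_k` and its images -/

namespace P254

theorem phi_coordT {n : ℕ} (p : E n) (i l : Fin n) (y : E n) :
    phi p i y l = y l + y i * (p l - if l = i then 1 else 0) := by
  rw [phi_apply]
  simp [Pi.single_apply]

/-- Use `mem_Qk_iff`. `⊆`: let `x_l = t_l - θ_{β l} c_l` and
`θ' = max (0, max_{β i = k, c_i > 0} (-x_i / c_i)) ≤ θ_k`.
If `θ' = 0`: on block `k` put `t'_l = x_l (≤ t_l)`, `θ'_k = 0`, so `x ∈ Q_k`.
Otherwise `θ' = -x_i / c_i`; `y` with `t'_l = x_l + θ' c_l` (`β l = k`, `l ≠ i`), `t'_i = θ'`, `θ'_k = 0`,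
everything else unchanged, lies in `Q_k` and `phi (pB β c k) i y = x`.
`⊇`: for `y ∈ Q_k` with data `(t, θ)`, `θ_k = 0`, `y_i = t_i`; the image has data
`t''_i = 0`, `θ''_k = t_i`. -/
theorem Qk_succ_eq_union {n : ℕ} (β : Fin n → ℕ) (c : E n) (hc : ∀ l, 0 ≤ c l) (k : ℕ) :
    Qk β c (k + 1) = Qk β c k ∪
      ⋃ i ∈ Finset.univ.filter (fun i : Fin n => β i = k ∧ 0 < c i),
        (phi (pB β c k) i) '' Qk β c k := by
  apply Set.Subset.antisymm
  · intro x hx
    obtain ⟨t, θ, ht, hθ, hθ0, hsum, hx⟩ := (mem_Qk_iff β c (k + 1) x).mp hx
    rw [Finset.sum_range_succ] at hsum
    have hθ' : ∀ r, 0 ≤ (if r = k then 0 else θ r) := by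
      intro r
      split_ifs
      · exact le_rfl
      · exact hθ r
    have hθ0' : ∀ r, k ≤ r → (if r = k then 0 else θ r) = 0 := by
      intro r hr
      split_ifs with h
      · rfl
      · exact hθ0 r (by omega)
    have hsumθ : ∑ r ∈ Finset.range k, (if r = k then 0 else θ r)
        = ∑ r ∈ Finset.range k, θ r := by
      refine Finset.sum_congr rfl fun r hr => ?_
      rw [if_neg (by have := Finset.mem_range.mp hr; omega)]
    by_cases hall : ∀ i, β i = k → 0 < c i → 0 ≤ x i
    · left
      rw [mem_Qk_iff]
      refine ⟨fun l => if β l = k then x l else t l, fun r => if r = k then 0 else θ r,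
        ?_, hθ', hθ0', ?_, ?_⟩
      · intro l
        show 0 ≤ if β l = k then x l else t l
        split_ifs with h
        · rcases (hc l).lt_or_eq with h1 | h1
          · exact hall l h h1
          · rw [hx l, ← h1, mul_zero, sub_zero]
            exact ht l
        · exact ht l
      · rw [hsumθ]
        have h1 : ∑ l, (if β l = k then x l else t l) ≤ ∑ l, t l := by
          refine Finset.sum_le_sum fun l _ => ?_
          split_ifs with h
          · rw [hx l]
            have := mul_nonneg (hθ (β l)) (hc l)
            linarith
          · exact le_rfl
        have := hθ k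
        linarith
      · intro l
        show x l = (if β l = k then x l else t l) - (if β l = k then 0 else θ (β l)) * c l
        split_ifs with h
        · ring
        · exact hx l
    · right
      push Not at hall
      obtain ⟨i0, hi0k, hi0c, hxi0⟩ := hall
      have hN : (Finset.univ.filter (fun i : Fin n => β i = k ∧ 0 < c i)).Nonempty :=
        ⟨i0, by simp [hi0k, hi0c]⟩
      obtain ⟨i, hiN, hmax⟩ := Finset.exists_max_image _ (fun i => - x i / c i) hN
      have hi : β i = k ∧ 0 < c i := by simpa using hiN
      obtain ⟨s, hs⟩ : ∃ s, s = - x i / c i := ⟨_, rfl⟩
      have hs0 : 0 < s := by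
        rw [hs]
        exact lt_of_lt_of_le (div_pos (by linarith) hi0c) (hmax i0 (by simp [hi0k, hi0c]))
      have hsc : s * c i = - x i := by rw [hs, div_mul_cancel₀ _ hi.2.ne']
      have hsθ : s ≤ θ k := by
        have h1 := hx i
        rw [hi.1] at h1
        have h2 := ht i
        have h3 : s * c i ≤ θ k * c i := by linarith
        exact le_of_mul_le_mul_right h3 hi.2
      have hpos : ∀ l, β l = k → 0 ≤ x l + s * c l := by
        intro l hl
        rcases (hc l).lt_or_eq with h1 | h1
        · have h3 := hmax l (by simp [hl, h1])
          rw [← hs, div_le_iff₀ h1] at h3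
          linarith
        · rw [hx l, ← h1, mul_zero, mul_zero, sub_zero, add_zero]
          exact ht l
      simp only [Set.mem_iUnion]
      refine ⟨i, hiN, fun l => (if β l = k then (if l = i then s else x l + s * c l) else x l),
        ?_, ?_⟩
      · rw [mem_Qk_iff]
        refine ⟨fun l => if β l = k then (if l = i then s else x l + s * c l) else t l,
          fun r => if r = k then 0 else θ r, ?_, hθ', hθ0', ?_, ?_⟩
        · intro l
          show 0 ≤ if β l = k then (if l = i then s else x l + s * c l) else t l
          split_ifs with h h'
          · exact hs0.le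
          · exact hpos l h
          · exact ht l
        · rw [hsumθ]
          have h1 : ∑ l, (if β l = k then (if l = i then s else x l + s * c l) else t l)
              ≤ ∑ l, (t l + if l = i then θ k else 0) := by
            refine Finset.sum_le_sum fun l _ => ?_
            split_ifs with h h'
            · have := ht l
              linarith
            · rw [hx l, h]
              have := mul_nonneg (sub_nonneg.mpr hsθ) (hc l)
              nlinarith
            · exfalso
              rename_i h''
              exact h (h'' ▸ hi.1)
            · linarith
          rw [Finset.sum_add_distrib, Finset.sum_ite_eq' Finset.univ i (fun _ => θ k)] at h1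
          simp only [Finset.mem_univ, if_true] at h1
          linarith
        · intro l
          show (if β l = k then (if l = i then s else x l + s * c l) else x l)
            = (if β l = k then (if l = i then s else x l + s * c l) else t l)
              - (if β l = k then 0 else θ (β l)) * c l
          split_ifs with h h'
          · ring
          · ring
          · exact hx l
      · ext l
        rw [phi_coordT]
        simp only [hi.1, if_true, pB]
        by_cases hl : β l = k
        · by_cases hli : l = i
          · subst hli
            simp only [hl, if_true]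
            linarith
          · simp only [hl, hli, if_true, if_false]
            ring
        · have hli : l ≠ i := fun h => hl (h ▸ hi.1)
          simp only [hl, hli, if_false]
          ring
  · intro x hx
    rcases hx with hx | hx
    · obtain ⟨t, θ, ht, hθ, hθ0, hsum, hx⟩ := (mem_Qk_iff β c k x).mp hx
      rw [mem_Qk_iff]
      refine ⟨t, θ, ht, hθ, fun r hr => hθ0 r (by omega), ?_, hx⟩
      rw [Finset.sum_range_succ, hθ0 k le_rfl]
      linarith
    · simp only [Set.mem_iUnion] at hx
      obtain ⟨i, hiN, y, hy, rfl⟩ := hx
      have hi : β i = k ∧ 0 < c i := by simpa using hiN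
      obtain ⟨t, θ, ht, hθ, hθ0, hsum, hy⟩ := (mem_Qk_iff β c k y).mp hy
      have hyi : y i = t i := by
        rw [hy i, hi.1, hθ0 k le_rfl]
        ring
      rw [mem_Qk_iff]
      refine ⟨fun l => if l = i then 0 else t l, fun r => if r = k then t i else θ r,
        ?_, ?_, ?_, ?_, ?_⟩
      · intro l
        show 0 ≤ if l = i then 0 else t l
        split_ifs
        · exact le_rfl
        · exact ht l
      · intro r
        show 0 ≤ if r = k then t i else θ r
        split_ifs
        · exact ht i
        · exact hθ r
      · intro r hr
        show (if r = k then t i else θ r) = 0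
        rw [if_neg (by omega)]
        exact hθ0 r (by omega)
      · rw [Finset.sum_range_succ]
        have h1 : ∑ r ∈ Finset.range k, (if r = k then t i else θ r)
            = ∑ r ∈ Finset.range k, θ r := by
          refine Finset.sum_congr rfl fun r hr => ?_
          rw [if_neg (by have := Finset.mem_range.mp hr; omega)]
        have h2 : ∑ l, (if l = i then 0 else t l) = ∑ l, t l - t i := by
          have h3 : ∀ l, (if l = i then 0 else t l) = t l - (if l = i then t i else 0) := by
            intro l
            split_ifs with h
            · rw [h]; ring
            · ring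
          rw [Finset.sum_congr rfl (fun l _ => h3 l), Finset.sum_sub_distrib,
            Finset.sum_ite_eq' Finset.univ i (fun _ => t i)]
          simp
        rw [h1, h2]
        simp only [if_true]
        linarith
      · intro l
        rw [phi_coordT, hyi]
        show y l + t i * (pB β c k l - if l = i then 1 else 0)
          = (if l = i then 0 else t l) - (if β l = k then t i else θ (β l)) * c l
        unfold pB
        by_cases hl : β l = k
        · by_cases hli : l = i
          · subst hli
            simp only [hl, if_true, hyi]
            ring
          · simp only [hl, hli, if_true, if_false]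
            rw [hy l, hl, hθ0 k le_rfl]
            ring
        · have hli : l ≠ i := fun h => hl (h ▸ hi.1)
          simp only [hl, hli, if_false]
          rw [hy l]
          ring

end P254
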