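import Vale.Agent.Lib.P254.Final

/-!
# P254 part 2: polytopes with n+m vertices that split into m parts whose hulls share a point
(free sums of simplices, pyramids over them) -- working definitions for the normal form
-/

namespace P254

/-- The extra vertex of block `r`: `p^{(r)} = - ∑_{β l = r} c_l e_l`. -/
noncomputable def pB {n : ℕ} (β : Fin n → ℕ) (c : E n) (r : ℕ) : E n :=
  fun l => if β l = r then -(c l) else 0

/-- `Q_k = conv (0, e_1, …, e_n, p^{(0)}, …, p^{(k-1)})`. -/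
def Qk {n : ℕ} (β : Fin n → ℕ) (c : E n) (k : ℕ) : Set (E n) :=
  convexHull ℝ (insert 0 (Set.range (fun i : Fin n => (Pi.single i 1 : E n))
    ∪ (pB β c) '' {r | r < k}))

/-- `C_r = ∑_{β l = r} c_l`. -/
noncomputable def CB {n : ℕ} (β : Fin n → ℕ) (c : E n) (r : ℕ) : ℝ :=
  ∑ l, if β l = r then c l else 0

/-- `D_r = ∑_{β l = r} c_l^2`. -/
noncomputable def DB {n : ℕ} (β : Fin n → ℕ) (c : E n) (r : ℕ) : ℝ :=
  ∑ l, if β l = r then (c l) ^ 2 else 0

/-- `S_k = 1 + ∑_{r<k} p^{(r)}` (sum of all vertices of `Q_k`). -/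
noncomputable def sK {n : ℕ} (β : Fin n → ℕ) (c : E n) (k : ℕ) (a : Fin n) : ℝ :=
  1 + ∑ r ∈ Finset.range k, pB β c r a

/-- `G_k = I + ∑_{r<k} p^{(r)} p^{(r)ᵀ}`. -/
noncomputable def gK {n : ℕ} (β : Fin n → ℕ) (c : E n) (k : ℕ) (a b : Fin n) : ℝ :=
  (if a = b then 1 else 0) + ∑ r ∈ Finset.range k, pB β c r a * pB β c r b

/-- `α_r = (1 + D_r) / (1 + C_r)^2`, the squared norm of the barycentric coordinates of `0`
in the simplex of block `r`. -/
noncomputable def alphaB {n : ℕ} (β : Fin n → ℕ) (c : E n) (r : ℕ) : ℝ :=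
  (1 + DB β c r) / (1 + CB β c r) ^ 2

/-- `∏ α_r (∑ 1/α_r - (m-1))`. -/
noncomputable def ratioT {n : ℕ} (β : Fin n → ℕ) (c : E n) (m : ℕ) : ℝ :=
  (∏ r ∈ Finset.range m, alphaB β c r)
    * (∑ r ∈ Finset.range m, 1 / alphaB β c r - ((m : ℝ) - 1))

end P254
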