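import Vale.Agent.Lib.P254.TDefs

/-! # P254 part 2, unit T6: the determinant (pure algebra) -/

namespace P254

open Matrix

theorem sum_blocks {n : ℕ} (β : Fin n → ℕ) (m : ℕ) (hβ : ∀ l, β l < m) (f : Fin n → ℝ) :
    ∑ a, f a = ∑ r ∈ Finset.range m, ∑ a, if β a = r then f a else 0 := by
  rw [Finset.sum_comm]
  refine Finset.sum_congr rfl fun a _ => ?_
  rw [Finset.sum_ite_eq]
  simp [hβ a]

theorem DB_nonneg {n : ℕ} (β : Fin n → ℕ) (c : E n) (r : ℕ) : 0 ≤ DB β c r := by
  unfold DB
  refine Finset.sum_nonneg fun l _ => ?_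
  split_ifs
  · positivity
  · exact le_rfl

theorem sum_pB_apply {n : ℕ} (β : Fin n → ℕ) (c : E n) (m : ℕ) (hβ : ∀ l, β l < m) (a : Fin n)
    (f : ℕ → ℝ) :
    ∑ r ∈ Finset.range m, pB β c r a * f r = -(c a) * f (β a) := by
  unfold pB
  have : ∀ r, (if β a = r then -(c a) else 0) * f r = if β a = r then -(c a) * f r else 0 := by
    intro r; split_ifs <;> simp
  simp only [this]
  rw [Finset.sum_ite_eq]
  simp [hβ a]

theorem sK_eq {n : ℕ} (β : Fin n → ℕ) (c : E n) (m : ℕ) (hβ : ∀ l, β l < m) (a : Fin n) :
    sK β c m a = 1 - c a := by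
  have := sum_pB_apply β c m hβ a (fun _ => 1)
  simp only [mul_one] at this
  rw [sK, this]; ring

theorem det_gK {n : ℕ} (β : Fin n → ℕ) (c : E n) (m : ℕ) :
    (Matrix.of fun a b : Fin n => gK β c m a b).det
      = ∏ r ∈ Finset.range m, (1 + DB β c r) := by
  classical
  set P : Matrix (Fin n) (Fin m) ℝ := Matrix.of fun a r => pB β c (r : ℕ) a with hP
  have h1 : (Matrix.of fun a b : Fin n => gK β c m a b) = 1 + P * P.transpose := by
    ext a b
    simp only [Matrix.of_apply, gK, Matrix.add_apply, Matrix.one_apply, Matrix.mul_apply,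
      Matrix.transpose_apply, hP]
    rw [Fin.sum_univ_eq_sum_range (fun r => pB β c r a * pB β c r b) m]
  have h2 : 1 + P.transpose * P = Matrix.diagonal (fun r : Fin m => 1 + DB β c (r : ℕ)) := by
    ext r r'
    simp only [Matrix.add_apply, Matrix.one_apply, Matrix.mul_apply, Matrix.transpose_apply, hP,
      Matrix.of_apply, Matrix.diagonal_apply]
    by_cases h : r = r'
    · subst h
      simp only [if_true, DB, pB]
      congr 1
      refine Finset.sum_congr rfl fun l _ => ?_
      split_ifs <;> ring
    · simp only [if_neg h, zero_add]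
      refine Finset.sum_eq_zero fun l _ => ?_
      unfold pB
      by_cases h1 : β l = (r : ℕ)
      · have h2 : β l ≠ (r' : ℕ) := fun h3 => h (Fin.ext (h1.symm.trans h3))
        simp [h2]
      · simp [h1]
  rw [h1, Matrix.det_one_add_mul_comm, h2, Matrix.det_diagonal,
    Fin.prod_univ_eq_prod_range (fun r => 1 + DB β c r) m]

theorem det_T {n : ℕ} (β : Fin n → ℕ) (c : E n) (hc : ∀ l, 0 ≤ c l) (m : ℕ)
    (hβ : ∀ l, β l < m) :
    (Matrix.of fun a b : Fin n => gK β c m a b - sK β c m a * sK β c m b / ((n : ℝ) + 1)).det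
      = (∏ r ∈ Finset.range m, (1 + DB β c r))
        * (∑ r ∈ Finset.range m, (1 + CB β c r) ^ 2 / (1 + DB β c r) - ((m : ℝ) - 1))
        / ((n : ℝ) + 1) := by
  classical
  have hn : (0 : ℝ) < (n : ℝ) + 1 := by positivity
  have hD : ∀ r, (0 : ℝ) < 1 + DB β c r := fun r => by have := DB_nonneg β c r; linarith
  set κ : ℕ → ℝ := fun r => (1 + CB β c r) / (1 + DB β c r) with hκ
  set w : Fin n → ℝ := fun a => 1 - c a * κ (β a) with hw
  set G : Matrix (Fin n) (Fin n) ℝ := Matrix.of fun a b : Fin n => gK β c m a b with hG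
  -- inner products with the block vectors
  have hpw : ∀ r, ∑ b, pB β c r b * w b = (DB β c r - CB β c r) / (1 + DB β c r) := by
    intro r
    have h1 : ∀ b, pB β c r b * w b
        = -(if β b = r then c b else 0) + κ r * (if β b = r then (c b) ^ 2 else 0) := by
      intro b
      simp only [pB, hw]
      split_ifs with h
      · rw [h]; ring
      · ring
    simp only [h1, Finset.sum_add_distrib, Finset.sum_neg_distrib, ← Finset.mul_sum]
    have hC : ∑ b, (if β b = r then c b else 0) = CB β c r := rfl
    have hDD : ∑ b, (if β b = r then (c b) ^ 2 else 0) = DB β c r := rfl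
    rw [hC, hDD, hκ]
    have := (hD r).ne'
    field_simp
    ring
  have hGw : ∀ a, ∑ b, gK β c m a b * w b = sK β c m a := by
    intro a
    have h1 : ∀ b, gK β c m a b * w b = (if a = b then w b else 0)
        + ∑ r ∈ Finset.range m, pB β c r a * (pB β c r b * w b) := by
      intro b
      rw [gK, add_mul, Finset.sum_mul]
      congr 1
      · split_ifs <;> simp
      · exact Finset.sum_congr rfl fun r _ => by ring
    simp only [h1, Finset.sum_add_distrib]
    rw [Finset.sum_comm]
    simp only [← Finset.mul_sum, hpw]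
    rw [sum_pB_apply β c m hβ a (fun r => (DB β c r - CB β c r) / (1 + DB β c r)),
      sK_eq β c m hβ a]
    simp only [Finset.sum_ite_eq, Finset.mem_univ, if_true, hw, hκ]
    have := (hD (β a)).ne'
    field_simp
    ring
  have hM : (Matrix.of fun a b : Fin n =>
      gK β c m a b - sK β c m a * sK β c m b / ((n : ℝ) + 1))
      = G * (1 + Matrix.replicateCol Unit w
          * Matrix.replicateRow Unit (fun b => -(sK β c m b) / ((n : ℝ) + 1))) := by
    ext a b
    rw [Matrix.mul_add, Matrix.mul_one, ← Matrix.mul_assoc]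
    simp only [Matrix.of_apply, Matrix.add_apply, Matrix.mul_apply, Matrix.replicateCol_apply,
      Matrix.replicateRow_apply, Finset.univ_unique, Finset.sum_singleton, hG]
    rw [hGw a]
    ring
  have hsw : ∑ a, sK β c m a * w a
      = (n : ℝ) + m - ∑ r ∈ Finset.range m, (1 + CB β c r) ^ 2 / (1 + DB β c r) := by
    rw [sum_blocks β m hβ]
    have h1 : ∀ r, ∑ a, (if β a = r then sK β c m a * w a else 0)
        = (∑ a, if β a = r then (1 : ℝ) else 0) + 1 - (1 + CB β c r) ^ 2 / (1 + DB β c r) := by
      intro r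
      have h2 : ∀ a, (if β a = r then sK β c m a * w a else 0)
          = (if β a = r then (1 : ℝ) else 0) - (1 + κ r) * (if β a = r then c a else 0)
            + κ r * (if β a = r then (c a) ^ 2 else 0) := by
        intro a
        rw [sK_eq β c m hβ a]
        simp only [hw]
        split_ifs with h
        · rw [h]; ring
        · ring
      simp only [h2, Finset.sum_add_distrib, Finset.sum_sub_distrib, ← Finset.mul_sum]
      have hC : ∑ b, (if β b = r then c b else 0) = CB β c r := rfl
      have hDD : ∑ b, (if β b = r then (c b) ^ 2 else 0) = DB β c r := rfl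
      rw [hC, hDD, hκ]
      have := (hD r).ne'
      field_simp
      ring
    simp only [h1, Finset.sum_sub_distrib, Finset.sum_add_distrib]
    rw [← sum_blocks β m hβ (fun _ => (1 : ℝ))]
    simp
  rw [hM, Matrix.det_mul, Matrix.det_one_add_replicateCol_mul_replicateRow, hG, det_gK]
  have hdot : (fun b => -(sK β c m b) / ((n : ℝ) + 1)) ⬝ᵥ w
      = -(∑ a, sK β c m a * w a) / ((n : ℝ) + 1) := by
    simp only [dotProduct]
    rw [← Finset.sum_neg_distrib, Finset.sum_div]
    exact Finset.sum_congr rfl fun a _ => by ring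
  rw [hdot, hsw]
  field_simp
  ring

end P254
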