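import Vale.Agent.Lib.P254.TMem

/-! # P254 part 2, unit T3: overlaps are null (same proofs as in `Disjoint.lean`,
using only `y_l ≥ 0` for `y ∈ Q_k`, `β l = k`, which follows from `mem_Qk_iff`) -/

namespace P254
open MeasureTheory

theorem Qk_nonneg {n : ℕ} (β : Fin n → ℕ) (c : E n) (k : ℕ) (y : E n) (hy : y ∈ Qk β c k)
    (l : Fin n) (hl : k ≤ β l) : 0 ≤ y l := by
  rw [mem_Qk_iff] at hy
  obtain ⟨t, θ, ht, _, hθ, _, hx⟩ := hy
  rw [hx l, hθ _ hl]
  simpa using ht l

theorem aedisjoint_Qk_phi {n : ℕ} (β : Fin n → ℕ) (c : E n) (k : ℕ) (i : Fin n)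
    (hi : β i = k) (hci : 0 < c i) :
    AEDisjoint volume (Qk β c k) ((phi (pB β c k) i) '' Qk β c k) := by
  have hpi : pB β c k i < 0 := by simp [pB, hi, hci]
  have h0 := null_of_functional (LinearMap.proj i : E n →ₗ[ℝ] ℝ) (Pi.single i 1) (by simp)
  refine measure_mono_null ?_ h0
  rintro x ⟨hx, y, hy, rfl⟩
  have h1 := Qk_nonneg β c k _ hx i hi.ge
  have h2 := Qk_nonneg β c k _ hy i hi.ge
  rw [phi_apply] at h1
  simp only [Pi.add_apply, Pi.smul_apply, Pi.sub_apply, Pi.single_eq_same, smul_eq_mul] at h1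
  simp only [Set.mem_setOf_eq, LinearMap.coe_proj, Function.eval, phi_apply, Pi.add_apply,
    Pi.smul_apply, Pi.sub_apply, Pi.single_eq_same, smul_eq_mul]
  nlinarith

theorem aedisjoint_phi_phi_Qk {n : ℕ} (β : Fin n → ℕ) (c : E n) (k : ℕ) (i j : Fin n)
    (hij : i ≠ j) (hi : β i = k) (hci : 0 < c i) (hj : β j = k) (hcj : 0 < c j) :
    AEDisjoint volume ((phi (pB β c k) i) '' Qk β c k) ((phi (pB β c k) j) '' Qk β c k) := by
  have hpi : pB β c k i < 0 := by simp [pB, hi, hci]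
  have hpj : pB β c k j < 0 := by simp [pB, hj, hcj]
  set p := pB β c k with hp
  have h0 := null_of_functional
    (p j • (LinearMap.proj i : E n →ₗ[ℝ] ℝ) - p i • (LinearMap.proj j : E n →ₗ[ℝ] ℝ))
    (Pi.single i 1) (by simp [Pi.single_eq_of_ne hij.symm, hpj.ne])
  refine measure_mono_null ?_ h0
  rintro x ⟨⟨y, hy, rfl⟩, z, hz, hzy⟩
  have e1 := congrFun hzy i
  have e2 := congrFun hzy j
  have y1 := Qk_nonneg β c k _ hy i hi.ge
  have y2 := Qk_nonneg β c k _ hy j hj.ge
  have z1 := Qk_nonneg β c k _ hz i hi.ge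
  have z2 := Qk_nonneg β c k _ hz j hj.ge
  simp only [phi_apply, Pi.add_apply, Pi.smul_apply, Pi.sub_apply, Pi.single_eq_same,
    Pi.single_eq_of_ne hij, Pi.single_eq_of_ne hij.symm, smul_eq_mul] at e1 e2
  simp only [Set.mem_setOf_eq, LinearMap.sub_apply, LinearMap.smul_apply, LinearMap.coe_proj,
    Function.eval, phi_apply, Pi.add_apply, Pi.smul_apply, Pi.sub_apply, Pi.single_eq_same,
    Pi.single_eq_of_ne hij.symm, smul_eq_mul]
  have a1 : z i + z j * p i = y i * p i := by linarith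
  have a2 : z j * p j = y j + y i * p j := by linarith
  have b1 : y i ≤ z j := by
    by_contra h
    have h' := not_le.mp h
    nlinarith
  have b2 : z j ≤ y i := by
    by_contra h
    have h' := not_le.mp h
    nlinarith
  have b3 : y i = z j := le_antisymm b1 b2
  have b4 : y j = 0 := by
    rw [b3] at a2; linarith
  rw [b4]; ring

end P254
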