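import Vale.Agent.Lib.P254.TMem

/-! # P254 part 2, unit T9: the equality case is a simplex -/

namespace P254

theorem pB_eq_zero_of_CB_T9 {n : ℕ} (β : Fin n → ℕ) (c : E n) (hc : ∀ l, 0 ≤ c l) (r : ℕ)
    (h : CB β c r = 0) : pB β c r = 0 := by
  unfold CB at h
  have h' := (Finset.sum_eq_zero_iff_of_nonneg (fun l _ => by
    split_ifs
    · exact hc l
    · exact le_rfl)).mp h
  funext l
  have hl := h' l (Finset.mem_univ l)
  unfold pB
  by_cases hb : β l = r
  · simp only [hb, if_true] at hl ⊢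
    simp [hl]
  · simp [hb]

theorem pB_nonpos_T9 {n : ℕ} (β : Fin n → ℕ) (c : E n) (hc : ∀ l, 0 ≤ c l) (r : ℕ) (l : Fin n) :
    pB β c r l ≤ 0 := by
  unfold pB
  split_ifs
  · linarith [hc l]
  · exact le_rfl

/-- `CB β c r = 0` and `c ≥ 0` give `pB β c r = 0`. So the vertex set of `Q_m` is that of
`Kp (pB β c r0)` (if `r0 < m`) or of `Kp 0`; conclude with `isSimplex_Kp_of_nonpos`. -/
theorem isSimplex_Qk {n : ℕ} (β : Fin n → ℕ) (c : E n) (hc : ∀ l, 0 ≤ c l) (m r0 : ℕ)
    (h : ∀ r, r < m → r ≠ r0 → CB β c r = 0) : IsSimplex (Qk β c m) := by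
  have hz : ∀ r, r < m → r ≠ r0 → pB β c r = 0 := fun r hr hne =>
    pB_eq_zero_of_CB_T9 β c hc r (h r hr hne)
  by_cases hr0 : r0 < m
  · have hset : Qk β c m = Kp (pB β c r0) := by
      unfold Qk Kp
      congr 1
      ext x
      simp only [Set.mem_insert_iff, Set.mem_union, Set.mem_image, Set.mem_ofPred_eq]
      constructor
      · rintro (hx | hx | ⟨r, hr, rfl⟩)
        · exact Or.inr (Or.inl hx)
        · exact Or.inr (Or.inr hx)
        · by_cases hne : r = r0
          · exact Or.inl (by rw [hne])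
          · exact Or.inr (Or.inl (hz r hr hne))
      · rintro (hx | hx | hx)
        · exact Or.inr (Or.inr ⟨r0, hr0, hx.symm⟩)
        · exact Or.inl hx
        · exact Or.inr (Or.inl hx)
    rw [hset]
    exact isSimplex_Kp_of_nonpos _ (pB_nonpos_T9 β c hc r0)
  · have hset : Qk β c m = Kp (0 : E n) := by
      unfold Qk Kp
      congr 1
      ext x
      simp only [Set.mem_insert_iff, Set.mem_union, Set.mem_image, Set.mem_ofPred_eq]
      constructor
      · rintro (hx | hx | ⟨r, hr, rfl⟩)
        · exact Or.inl hx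
        · exact Or.inr (Or.inr hx)
        · exact Or.inl (hz r hr (fun hne => hr0 (hne ▸ hr)))
      · rintro (hx | hx | hx)
        · exact Or.inl hx
        · exact Or.inl hx
        · exact Or.inr (Or.inl hx)
    rw [hset]
    exact isSimplex_Kp_of_nonpos _ (fun i => le_rfl)

end P254
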