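import Vale.Agent.Lib.P254.TDefs

/-! # P254 part 2, unit T8: inequalities for `ratioT` (pure real algebra)

With `u_r = 1/α_r - 1 = ((1 + C_r)^2 - (1 + D_r))/(1 + D_r) ≥ 2 C_r/(1 + D_r) ≥ 0` (as `D_r ≤ C_r^2`):
`ratioT = (1 + ∑ u_r) / ∏ (1 + u_r)`, and `∏ (1 + u_r) ≥ 1 + ∑ u_r`, with equality only if at most one
`u_r` is nonzero. -/

namespace P254

theorem one_add_sum_le_prod (u : ℕ → ℝ) (hu : ∀ r, 0 ≤ u r) (m : ℕ) :
    1 + ∑ r ∈ Finset.range m, u r ≤ ∏ r ∈ Finset.range m, (1 + u r) := by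
  induction m with
  | zero => simp
  | succ m ih =>
    rw [Finset.sum_range_succ, Finset.prod_range_succ]
    have hS : 0 ≤ ∑ r ∈ Finset.range m, u r := Finset.sum_nonneg (fun r _ => hu r)
    have := hu m
    nlinarith [mul_nonneg hS this]

theorem eq_case_prod (u : ℕ → ℝ) (hu : ∀ r, 0 ≤ u r) (m : ℕ)
    (h : 1 + ∑ r ∈ Finset.range m, u r = ∏ r ∈ Finset.range m, (1 + u r)) :
    ∃ r0 : ℕ, ∀ r, r < m → r ≠ r0 → u r = 0 := by
  induction m with
  | zero => exact ⟨0, fun r hr => absurd hr (Nat.not_lt_zero r)⟩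
  | succ m ih =>
    rw [Finset.sum_range_succ, Finset.prod_range_succ] at h
    have hS : 0 ≤ ∑ r ∈ Finset.range m, u r := Finset.sum_nonneg (fun r _ => hu r)
    have hm := hu m
    have hle := one_add_sum_le_prod u hu m
    have hprod : (∑ r ∈ Finset.range m, u r) * u m ≤ 0 := by nlinarith
    have hzero : (∑ r ∈ Finset.range m, u r) * u m = 0 :=
      le_antisymm hprod (mul_nonneg hS hm)
    rcases mul_eq_zero.1 hzero with h0 | h0
    · refine ⟨m, fun r hr hne => ?_⟩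
      have hr' : r ∈ Finset.range m := Finset.mem_range.2 (by omega)
      exact (Finset.sum_eq_zero_iff_of_nonneg (fun r _ => hu r)).1 h0 r hr'
    · rw [h0] at h
      obtain ⟨r0, hr0⟩ := ih (by linarith)
      refine ⟨r0, fun r hr hne => ?_⟩
      rcases Nat.lt_succ_iff_lt_or_eq.1 hr with h1 | h1
      · exact hr0 r h1 hne
      · rw [h1]; exact h0

theorem CB_nonneg {n : ℕ} (β : Fin n → ℕ) (c : E n) (hc : ∀ l, 0 ≤ c l) (r : ℕ) :
    0 ≤ CB β c r :=
  Finset.sum_nonneg (fun l _ => by split_ifs <;> simp [hc l])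

theorem DB_nonneg {n : ℕ} (β : Fin n → ℕ) (c : E n) (r : ℕ) : 0 ≤ DB β c r :=
  Finset.sum_nonneg (fun l _ => by split_ifs <;> positivity)

theorem DB_le {n : ℕ} (β : Fin n → ℕ) (c : E n) (hc : ∀ l, 0 ≤ c l) (r : ℕ) :
    DB β c r ≤ (CB β c r) ^ 2 := by
  set a : Fin n → ℝ := fun l => if β l = r then c l else 0 with ha
  have ha0 : ∀ l, 0 ≤ a l := fun l => by simp only [ha]; split_ifs <;> simp [hc l]
  have h1 : DB β c r = ∑ l, a l * a l := by
    unfold DB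
    refine Finset.sum_congr rfl (fun l _ => ?_)
    simp only [ha]; split_ifs <;> ring
  have h2 : CB β c r = ∑ l, a l := rfl
  rw [h1, h2, sq, Finset.sum_mul]
  refine Finset.sum_le_sum (fun l _ => ?_)
  exact mul_le_mul_of_nonneg_left
    (Finset.single_le_sum (fun i _ => ha0 i) (Finset.mem_univ l)) (ha0 l)

/-- `u_r = 1/α_r - 1` -/
noncomputable def uB {n : ℕ} (β : Fin n → ℕ) (c : E n) (r : ℕ) : ℝ := 1 / alphaB β c r - 1

theorem alphaB_pos {n : ℕ} (β : Fin n → ℕ) (c : E n) (hc : ∀ l, 0 ≤ c l) (r : ℕ) :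
    0 < alphaB β c r := by
  unfold alphaB
  have h1 := DB_nonneg β c r
  have h2 := CB_nonneg β c hc r
  positivity

theorem uB_eq {n : ℕ} (β : Fin n → ℕ) (c : E n) (hc : ∀ l, 0 ≤ c l) (r : ℕ) :
    uB β c r = (2 * CB β c r + ((CB β c r) ^ 2 - DB β c r)) / (1 + DB β c r) := by
  unfold uB alphaB
  have h1 := DB_nonneg β c r
  have h2 := CB_nonneg β c hc r
  have h3 : (1 + DB β c r) ≠ 0 := by positivity
  have h4 : (1 + CB β c r) ≠ 0 := by positivity
  field_simp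
  ring

theorem uB_nonneg {n : ℕ} (β : Fin n → ℕ) (c : E n) (hc : ∀ l, 0 ≤ c l) (r : ℕ) :
    0 ≤ uB β c r := by
  rw [uB_eq β c hc r]
  have h1 := DB_nonneg β c r
  have h2 := CB_nonneg β c hc r
  have h3 := DB_le β c hc r
  apply div_nonneg <;> linarith

theorem CB_eq_zero_of_uB {n : ℕ} (β : Fin n → ℕ) (c : E n) (hc : ∀ l, 0 ≤ c l) (r : ℕ)
    (h : uB β c r = 0) : CB β c r = 0 := by
  rw [uB_eq β c hc r] at h
  have h1 := DB_nonneg β c r
  have h2 := CB_nonneg β c hc r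
  have h3 := DB_le β c hc r
  have h4 : (1 + DB β c r) ≠ 0 := by positivity
  rw [div_eq_zero_iff] at h
  rcases h with h | h
  · linarith
  · exact absurd h h4

theorem ratioT_eq {n : ℕ} (β : Fin n → ℕ) (c : E n) (m : ℕ) :
    ratioT β c m = (∏ r ∈ Finset.range m, alphaB β c r)
      * (1 + ∑ r ∈ Finset.range m, uB β c r) := by
  unfold ratioT uB
  rw [Finset.sum_sub_distrib]
  simp only [Finset.sum_const, Finset.card_range, nsmul_eq_mul, mul_one]
  ring

theorem prod_alpha_mul {n : ℕ} (β : Fin n → ℕ) (c : E n) (hc : ∀ l, 0 ≤ c l) (m : ℕ) :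
    (∏ r ∈ Finset.range m, alphaB β c r) * (∏ r ∈ Finset.range m, (1 + uB β c r)) = 1 := by
  rw [← Finset.prod_mul_distrib]
  refine Finset.prod_eq_one (fun r _ => ?_)
  have := (alphaB_pos β c hc r).ne'
  unfold uB
  field_simp
  ring

theorem ratioT_nonneg {n : ℕ} (β : Fin n → ℕ) (c : E n) (hc : ∀ l, 0 ≤ c l) (m : ℕ) :
    0 ≤ ratioT β c m := by
  rw [ratioT_eq]
  have h1 : 0 ≤ ∏ r ∈ Finset.range m, alphaB β c r :=
    Finset.prod_nonneg (fun r _ => (alphaB_pos β c hc r).le)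
  have h2 : 0 ≤ ∑ r ∈ Finset.range m, uB β c r :=
    Finset.sum_nonneg (fun r _ => uB_nonneg β c hc r)
  positivity

theorem ratioT_le_one {n : ℕ} (β : Fin n → ℕ) (c : E n) (hc : ∀ l, 0 ≤ c l) (m : ℕ) :
    ratioT β c m ≤ 1 := by
  rw [ratioT_eq]
  refine le_trans ?_ (prod_alpha_mul β c hc m).le
  exact mul_le_mul_of_nonneg_left (one_add_sum_le_prod _ (uB_nonneg β c hc) m)
    (Finset.prod_nonneg (fun r _ => (alphaB_pos β c hc r).le))

theorem ratioT_eq_one {n : ℕ} (β : Fin n → ℕ) (c : E n) (hc : ∀ l, 0 ≤ c l) (m : ℕ)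
    (h : ratioT β c m = 1) :
    ∃ r0 : ℕ, ∀ r, r < m → r ≠ r0 → CB β c r = 0 := by
  rw [ratioT_eq] at h
  have h := h.trans (prod_alpha_mul β c hc m).symm
  have hpos : 0 < ∏ r ∈ Finset.range m, alphaB β c r :=
    Finset.prod_pos (fun r _ => alphaB_pos β c hc r)
  have h' := mul_left_cancel₀ hpos.ne' h
  obtain ⟨r0, hr0⟩ := eq_case_prod _ (uB_nonneg β c hc) m h'
  exact ⟨r0, fun r hr hne => CB_eq_zero_of_uB β c hc r (hr0 r hr hne)⟩

end P254
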