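import Vale.Agent.Lib.P254.TDefs

/-! # P254 part 2, unit T10: reduction to the normal form

For each `r` pick `w r` with `β (w r) = r`, `a (w r) > 0`. `w` is injective, so the complement of its range
has `n` elements; enumerate it by `e : Fin n → ι`. The vectors `v (e l) - o` span `ℝ^n`
(`affineSpan_eq_top_of_nonempty_interior`; `a (w r) (v (w r) - o) = - ∑_{i ≠ w r, β i = r} a i (v i - o)`),
so they form a basis: `A (Pi.single l 1) = v (e l) - o`. Put `β' l = (β (e l)).val`,
`c l = a (e l) / a (w (β (e l)))`. Then `A (pB β' c r) + o = v (w r)`, `A 0 + o = o ∈ conv (range v)`,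
`1 = a (w r) (1 + C_r)`, `∑_{β i = r} a_i^2 = a (w r)^2 (1 + D_r)`. -/

namespace P254

theorem split_sumT {ι M : Type*} [Fintype ι] [AddCommMonoid M] {m n : ℕ}
    (σ : Fin m ⊕ Fin n ≃ ι) (g : ι → M) :
    ∑ i, g i = ∑ r, g (σ (Sum.inl r)) + ∑ l, g (σ (Sum.inr l)) := by
  rw [← Equiv.sum_comp σ g, Fintype.sum_sum_type]

theorem exists_sigmaT {ι : Type} [Fintype ι] {m n : ℕ} (hcard : Fintype.card ι = n + m)
    (w : Fin m → ι) (hw : Function.Injective w) :
    ∃ σ : Fin m ⊕ Fin n ≃ ι, ∀ r, σ (Sum.inl r) = w r := by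
  classical
  have h1 : Fintype.card ((Set.range w)ᶜ : Set ι) = n := by
    rw [Fintype.card_compl_set, Set.card_range_of_injective hw, hcard]; simp
  let e' := (Fintype.equivFinOfCardEq h1).symm
  refine ⟨(Equiv.sumCongr (Equiv.ofInjective w hw) e').trans (Equiv.Set.sumCompl (Set.range w)),
    fun r => ?_⟩
  simp

theorem block_sumT {ι M : Type*} [Fintype ι] [AddCommMonoid M] {m n : ℕ}
    (σ : Fin m ⊕ Fin n ≃ ι) (β : ι → Fin m) (hβ : ∀ r, β (σ (Sum.inl r)) = r) (f : ι → M)
    (r : Fin m) :
    ∑ i, (if β i = r then f i else 0)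
      = f (σ (Sum.inl r)) + ∑ l, (if β (σ (Sum.inr l)) = r then f (σ (Sum.inr l)) else 0) := by
  rw [split_sumT σ]
  congr 1
  simp only [hβ]
  rw [Finset.sum_ite_eq']
  simp

theorem exists_normal_formT {n m : ℕ} (hm : 1 ≤ m) {ι : Type} [Fintype ι]
    (hcard : Fintype.card ι = n + m) (v : ι → E n) (β : ι → Fin m) (a : ι → ℝ) (o : E n)
    (ha : ∀ i, 0 ≤ a i)
    (hsum : ∀ r, ∑ i, (if β i = r then a i else 0) = 1)
    (ho : ∀ r, ∑ i, (if β i = r then a i • v i else 0) = o)
    (hint : (interior (convexHull ℝ (Set.range v))).Nonempty) :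
    ∃ (A : E n ≃ₗ[ℝ] E n) (β' : Fin n → ℕ) (c : E n), (∀ l, 0 ≤ c l) ∧ (∀ l, β' l < m) ∧
      convexHull ℝ (Set.range v) = (fun x => A x + o) '' Qk β' c m ∧
      ∀ r : Fin m, alphaB β' c (r : ℕ) = ∑ i, (if β i = r then (a i) ^ 2 else 0) := by
  classical
  have hex : ∀ r : Fin m, ∃ i, β i = r ∧ 0 < a i := by
    intro r
    by_contra hcon
    push Not at hcon
    have : ∑ i, (if β i = r then a i else 0) = 0 := by
      apply Finset.sum_eq_zero
      intro i _
      split_ifs with h
      · exact le_antisymm (hcon i h) (ha i)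
      · rfl
    rw [hsum r] at this
    exact one_ne_zero this
  choose w hw1 hw2 using hex
  have hwinj : Function.Injective w := by
    intro r s h
    rw [← hw1 r, ← hw1 s, h]
  obtain ⟨σ, hσ⟩ := exists_sigmaT hcard w hwinj
  have hβσ : ∀ r, β (σ (Sum.inl r)) = r := fun r => by rw [hσ, hw1]
  set e : Fin n → ι := fun l => σ (Sum.inr l) with he
  have id1 : ∀ r, a (w r) + ∑ l, (if β (e l) = r then a (e l) else 0) = 1 := by
    intro r
    rw [← hsum r, block_sumT σ β hβσ a r, hσ]
  have id2 : ∀ r, a (w r) ^ 2 + ∑ l, (if β (e l) = r then a (e l) ^ 2 else 0)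
      = ∑ i, (if β i = r then (a i) ^ 2 else 0) := by
    intro r
    rw [block_sumT σ β hβσ (fun i => a i ^ 2) r, hσ]
  have id3 : ∀ r, a (w r) • (v (w r) - o)
      + ∑ l, (if β (e l) = r then a (e l) • (v (e l) - o) else 0) = 0 := by
    intro r
    have h := block_sumT σ β hβσ (fun i => a i • (v i - o)) r
    rw [hσ] at h
    rw [← h]
    have h2 : ∀ i, (if β i = r then a i • (v i - o) else 0)
        = (if β i = r then a i • v i else 0) - (if β i = r then a i else 0) • o := by
      intro i
      split_ifs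
      · rw [smul_sub]
      · simp
    simp only [h2]
    rw [Finset.sum_sub_distrib, ← Finset.sum_smul, hsum r, ho r, one_smul, sub_self]
  -- the spanning family
  set u : Fin n → E n := fun l => v (e l) - o with hu
  set W : Submodule ℝ (E n) := Submodule.span ℝ (Set.range u) with hW
  have hWe : ∀ l, v (e l) - o ∈ W := fun l => Submodule.subset_span ⟨l, rfl⟩
  have hWw : ∀ r, v (w r) - o ∈ W := by
    intro r
    have h1 : a (w r) • (v (w r) - o)
        = - ∑ l, (if β (e l) = r then a (e l) • (v (e l) - o) else 0) :=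
      eq_neg_of_add_eq_zero_left (id3 r)
    have h2 : a (w r) • (v (w r) - o) ∈ W := by
      rw [h1]
      apply W.neg_mem
      apply W.sum_mem
      intro l _
      split_ifs
      · exact W.smul_mem _ (hWe l)
      · exact W.zero_mem
    have h3 := W.smul_mem (a (w r))⁻¹ h2
    rwa [smul_smul, inv_mul_cancel₀ (hw2 r).ne', one_smul] at h3
  have hWall : ∀ i, v i - o ∈ W := by
    intro i
    obtain ⟨x, rfl⟩ := σ.surjective i
    rcases x with r | l
    · rw [hσ]; exact hWw r
    · exact hWe l
  have htopW : ⊤ ≤ W := by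
    have htop := affineSpan_eq_top_of_nonempty_interior hint
    have h1 : vectorSpan ℝ (Set.range v) = ⊤ := by
      rw [← direction_affineSpan, htop, AffineSubspace.direction_top]
    rw [← h1, vectorSpan_def, Submodule.span_le]
    rintro _ ⟨_, ⟨i, rfl⟩, _, ⟨j, rfl⟩, rfl⟩
    have h2 : v i -ᵥ v j = (v i - o) - (v j - o) := by
      rw [vsub_eq_sub]; abel
    show v i -ᵥ v j ∈ W
    rw [h2]
    exact W.sub_mem (hWall i) (hWall j)
  let B := basisOfTopLeSpanOfCardEqFinrank u htopW (by simp)
  let A : E n ≃ₗ[ℝ] E n := (Pi.basisFun ℝ (Fin n)).equiv B (Equiv.refl _)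
  have hA : ∀ l, A (Pi.single l 1) = u l := by
    intro l
    have := (Pi.basisFun ℝ (Fin n)).equiv_apply l B (Equiv.refl _)
    rw [Pi.basisFun_apply] at this
    show (Pi.basisFun ℝ (Fin n)).equiv B (Equiv.refl _) (Pi.single l 1) = u l
    rw [this]
    simp [B]
  have hAx : ∀ x : E n, A x = ∑ l, x l • u l := by
    intro x
    have h1 := LinearMap.pi_apply_eq_sum_univ (A : E n →ₗ[ℝ] E n) x
    have h2 : ∀ l : Fin n, (fun j => if l = j then (1 : ℝ) else 0) = Pi.single l 1 := by
      intro l
      funext j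
      rw [Pi.single_apply]
      simp only [eq_comm]
    simp only [h2] at h1
    have h3 : A x = ∑ l, x l • A (Pi.single l 1) := h1
    rw [h3]
    simp only [hA]
  set β' : Fin n → ℕ := fun l => (β (e l)).val with hβ'
  set c : E n := fun l => a (e l) / a (w (β (e l))) with hc
  have hiff : ∀ (l : Fin n) (r : Fin m), β' l = (r : ℕ) ↔ β (e l) = r := by
    intro l r
    exact Fin.val_inj
  have hAp : ∀ r : Fin m, A (pB β' c (r : ℕ)) + o = v (w r) := by
    intro r
    rw [hAx]
    have h1 : ∀ l, pB β' c (r : ℕ) l • u l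
        = (-(a (w r))⁻¹) • (if β (e l) = r then a (e l) • (v (e l) - o) else 0) := by
      intro l
      unfold pB
      by_cases h : β (e l) = r
      · rw [if_pos ((hiff l r).2 h), if_pos h, smul_smul]
        congr 1
        simp only [hc, h]
        ring
      · rw [if_neg (fun h' => h ((hiff l r).1 h')), if_neg h]
        simp
    simp only [h1]
    rw [← Finset.smul_sum]
    have h2 : ∑ l, (if β (e l) = r then a (e l) • (v (e l) - o) else 0)
        = - (a (w r) • (v (w r) - o)) := eq_neg_of_add_eq_zero_right (id3 r)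
    rw [h2, neg_smul_neg, smul_smul, inv_mul_cancel₀ (hw2 r).ne', one_smul]
    abel
  have ho_mem : o ∈ convexHull ℝ (Set.range v) := by
    have h1 := ho ⟨0, hm⟩
    have h2 : ∀ i, (if β i = ⟨0, hm⟩ then a i • v i else 0)
        = (if β i = ⟨0, hm⟩ then a i else 0) • v i := by
      intro i
      split_ifs <;> simp
    simp only [h2] at h1
    rw [← h1]
    apply (convex_convexHull ℝ (Set.range v)).sum_mem
    · intro i _
      split_ifs
      · exact ha i
      · exact le_rfl
    · exact hsum _
    · intro i _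
      exact subset_convexHull ℝ _ ⟨i, rfl⟩
  refine ⟨A, β', c, ?_, ?_, ?_, ?_⟩
  · intro l
    exact div_nonneg (ha _) (hw2 _).le
  · intro l
    exact (β (e l)).isLt
  · unfold Qk
    rw [image_convexHull_aff]
    apply Set.Subset.antisymm
    · apply convexHull_mono
      rintro _ ⟨i, rfl⟩
      obtain ⟨x, rfl⟩ := σ.surjective i
      rcases x with r | l
      · rw [hσ]
        refine ⟨pB β' c (r : ℕ), ?_, hAp r⟩
        right; right
        exact ⟨(r : ℕ), r.isLt, rfl⟩
      · refine ⟨Pi.single l 1, ?_, ?_⟩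
        · right; left
          exact ⟨l, rfl⟩
        · show A (Pi.single l 1) + o = v (e l)
          rw [hA]
          simp [hu]
    · apply convexHull_min _ (convex_convexHull ℝ _)
      rintro _ ⟨x, hx, rfl⟩
      rcases hx with rfl | ⟨l, rfl⟩ | ⟨r, hr, rfl⟩
      · simpa using ho_mem
      · apply subset_convexHull
        refine ⟨e l, ?_⟩
        show v (e l) = A (Pi.single l 1) + o
        rw [hA]
        simp [hu]
      · apply subset_convexHull
        exact ⟨w ⟨r, hr⟩, (hAp ⟨r, hr⟩).symm⟩
  · intro r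
    have hpos := hw2 r
    have hC : CB β' c (r : ℕ) = (∑ l, (if β (e l) = r then a (e l) else 0)) / a (w r) := by
      unfold CB
      rw [Finset.sum_div]
      apply Finset.sum_congr rfl
      intro l _
      by_cases h : β (e l) = r
      · rw [if_pos ((hiff l r).2 h), if_pos h]
        simp only [hc, h]
      · rw [if_neg (fun h' => h ((hiff l r).1 h')), if_neg h]
        simp
    have hD : DB β' c (r : ℕ) = (∑ l, (if β (e l) = r then a (e l) ^ 2 else 0)) / a (w r) ^ 2 := by
      unfold DB
      rw [Finset.sum_div]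
      apply Finset.sum_congr rfl
      intro l _
      by_cases h : β (e l) = r
      · rw [if_pos ((hiff l r).2 h), if_pos h]
        simp only [hc, h]
        rw [div_pow]
      · rw [if_neg (fun h' => h ((hiff l r).1 h')), if_neg h]
        simp
    have e1 : ∑ l, (if β (e l) = r then a (e l) else 0) = 1 - a (w r) := by
      linarith [id1 r]
    have e2 : ∑ l, (if β (e l) = r then a (e l) ^ 2 else 0)
        = (∑ i, (if β i = r then (a i) ^ 2 else 0)) - a (w r) ^ 2 := by
      linarith [id2 r]
    unfold alphaB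
    rw [hC, hD, e1, e2]
    field_simp
    ring

end P254
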