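import Vale.Agent.Lib.P254.TIso
import Vale.Agent.Lib.P254.TIneq
import Vale.Agent.Lib.P254.TEqSimplex
import Vale.Agent.Lib.P254.TReduce

/-! # P254 part 2: assembly -/

namespace P254
open MeasureTheory

theorem vol_Qk_pos {n : ℕ} (β : Fin n → ℕ) (c : E n) (k : ℕ) : 0 < vol (Qk β c k) := by
  have h1 : vol (stdS n) ≤ vol (Qk β c k) :=
    ENNReal.toReal_mono (isCompact_Qk β c k).measure_lt_top.ne
      (measure_mono (stdS_subset_Qk β c k))
  have h2 : 0 < vol (stdS n) := by rw [vol_stdS]; positivity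
  linarith

/-- Main theorem of part 2. -/
theorem mainT (n m : ℕ) (hn : 1 ≤ n) (hm : 1 ≤ m) {ι : Type} [Fintype ι]
    (hcard : Fintype.card ι = n + m) (v : ι → E n) (β : ι → Fin m) (a : ι → ℝ) (o : E n)
    (ha : ∀ i, 0 ≤ a i)
    (hsum : ∀ r, ∑ i, (if β i = r then a i else 0) = 1)
    (ho : ∀ r, ∑ i, (if β i = r then a i • v i else 0) = o)
    (hint : (interior (convexHull ℝ (Set.range v))).Nonempty) :
    isoPow (convexHull ℝ (Set.range v))
      = cN n * ((∏ r : Fin m, ∑ i, (if β i = r then (a i) ^ 2 else 0))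
          * (∑ r : Fin m, 1 / (∑ i, (if β i = r then (a i) ^ 2 else 0)) - ((m : ℝ) - 1))) ∧
    isoConst (convexHull ℝ (Set.range v)) ≤ simplexConst n ∧
    (isoConst (convexHull ℝ (Set.range v)) = simplexConst n →
      IsSimplex (convexHull ℝ (Set.range v))) := by
  obtain ⟨A, β', c, hc, hβ', hK, hα⟩ := exists_normal_formT hm hcard v β a o ha hsum ho hint
  have hn' : (0 : ℝ) < n := by exact_mod_cast hn
  have hexp : (1 / (2 * (n : ℝ))) ≠ 0 := by positivity
  have hiso : isoPow (convexHull ℝ (Set.range v)) = cN n * ratioT β' c m := by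
    rw [hK, isoPow_affine_image A o _ (isCompact_Qk β' c m) (vol_Qk_pos β' c m),
      isoPow_Qk β' c hc m hβ']
  have hr : ratioT β' c m = (∏ r : Fin m, ∑ i, (if β i = r then (a i) ^ 2 else 0))
          * (∑ r : Fin m, 1 / (∑ i, (if β i = r then (a i) ^ 2 else 0)) - ((m : ℝ) - 1)) := by
    unfold ratioT
    rw [← Fin.prod_univ_eq_prod_range (fun r => alphaB β' c r) m,
      ← Fin.sum_univ_eq_sum_range (fun r => 1 / alphaB β' c r) m]
    simp only [hα]
  have h0 : 0 ≤ isoPow (convexHull ℝ (Set.range v)) := by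
    rw [hiso]; exact mul_nonneg (cN_pos n).le (ratioT_nonneg β' c hc m)
  have h1 : isoPow (convexHull ℝ (Set.range v)) ≤ cN n := by
    rw [hiso]
    calc cN n * ratioT β' c m ≤ cN n * 1 :=
          mul_le_mul_of_nonneg_left (ratioT_le_one β' c hc m) (cN_pos n).le
      _ = cN n := mul_one _
  refine ⟨by rw [hiso, hr], Real.rpow_le_rpow h0 h1 (by positivity), fun h => ?_⟩
  have h2 : isoPow (convexHull ℝ (Set.range v)) = cN n :=
    Real.rpow_left_injOn hexp (Set.mem_ofPred.mpr h0) (Set.mem_ofPred.mpr (cN_pos n).le) h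
  have h3 : ratioT β' c m = 1 := by
    have h4 : cN n * ratioT β' c m = cN n * 1 := by rw [← hiso, h2, mul_one]
    exact mul_left_cancel₀ (cN_pos n).ne' h4
  obtain ⟨r0, hr0⟩ := ratioT_eq_one β' c hc m h3
  rw [hK]
  exact IsSimplex.affine_image A o _ (isSimplex_Qk β' c hc m r0 hr0)

end P254
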