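import Vale.Agent.Lib.P254.TMoments
import Vale.Agent.Lib.P254.TDet

/-! # P254 part 2, unit T7: exact formula for the normal form (as `isoPow_Kp`) -/

namespace P254
open MeasureTheory

theorem CB_nonneg_T7 {n : ℕ} (β : Fin n → ℕ) (c : E n) (hc : ∀ l, 0 ≤ c l) (r : ℕ) :
    0 ≤ CB β c r := by
  unfold CB
  refine Finset.sum_nonneg fun l _ => ?_
  split_ifs
  · exact hc l
  · exact le_rfl

theorem DB_nonneg_T7 {n : ℕ} (β : Fin n → ℕ) (c : E n) (r : ℕ) : 0 ≤ DB β c r := by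
  unfold DB
  refine Finset.sum_nonneg fun l _ => ?_
  split_ifs
  · positivity
  · exact le_rfl

theorem cov_Qk_eq {n : ℕ} (β : Fin n → ℕ) (c : E n) (hc : ∀ l, 0 ≤ c l) (m : ℕ) :
    cov (Qk β c m) = (1 / (((n : ℝ) + 1) * ((n : ℝ) + 2))) •
      (Matrix.of fun a b : Fin n => gK β c m a b - sK β c m a * sK β c m b / ((n : ℝ) + 1)) := by
  have hV : 0 < ∏ r ∈ Finset.range m, (1 + CB β c r) :=
    Finset.prod_pos fun r _ => by linarith [CB_nonneg_T7 β c hc r]
  have hf : (0 : ℝ) < (n.factorial : ℝ) := by positivity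
  have hv : vol (Qk β c m) ≠ 0 := by
    rw [vol_Qk β c hc m]; positivity
  have hn1 : (0 : ℝ) < (n : ℝ) + 1 := by positivity
  have hn2 : (0 : ℝ) < (n : ℝ) + 2 := by positivity
  have f1 : ((n + 1).factorial : ℝ) = ((n : ℝ) + 1) * (n.factorial : ℝ) := by
    rw [Nat.factorial_succ]; push_cast; ring
  have f2 : ((n + 2).factorial : ℝ) = ((n : ℝ) + 2) * (((n : ℝ) + 1) * (n.factorial : ℝ)) := by
    rw [Nat.factorial_succ, Nat.factorial_succ]; push_cast; ring
  ext a b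
  rw [cov_eq (Qk β c m) (isCompact_Qk β c m) hv a b, vol_Qk β c hc m, mom1_Qk β c hc m,
    mom1_Qk β c hc m, mom2_Qk β c hc m, f1, f2]
  simp only [Matrix.smul_apply, Matrix.of_apply, smul_eq_mul]
  set V := ∏ r ∈ Finset.range m, (1 + CB β c r) with hVdef
  field_simp
  ring

/-- `cov_eq`, `vol_Qk`, `mom1_Qk`, `mom2_Qk` give
`cov (Q_m) = (1/((n+1)(n+2))) • (g - s sᵀ/(n+1))`; then `Matrix.det_smul`, `det_T`. -/
theorem isoPow_Qk {n : ℕ} (β : Fin n → ℕ) (c : E n) (hc : ∀ l, 0 ≤ c l) (m : ℕ)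
    (hβ : ∀ l, β l < m) :
    isoPow (Qk β c m) = cN n * ratioT β c m := by
  have hC : ∀ r, 0 < 1 + CB β c r := fun r => by linarith [CB_nonneg_T7 β c hc r]
  have hD : ∀ r, 0 < 1 + DB β c r := fun r => by linarith [DB_nonneg_T7 β c r]
  have hV : 0 < ∏ r ∈ Finset.range m, (1 + CB β c r) := Finset.prod_pos fun r _ => hC r
  have hf : (0 : ℝ) < (n.factorial : ℝ) := by positivity
  have hn1 : (0 : ℝ) < (n : ℝ) + 1 := by positivity
  have hn2 : (0 : ℝ) < (n : ℝ) + 2 := by positivity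
  have hprod : ∏ r ∈ Finset.range m, alphaB β c r
      = (∏ r ∈ Finset.range m, (1 + DB β c r)) / (∏ r ∈ Finset.range m, (1 + CB β c r)) ^ 2 := by
    unfold alphaB
    rw [Finset.prod_div_distrib, Finset.prod_pow]
  have hsum : ∑ r ∈ Finset.range m, 1 / alphaB β c r
      = ∑ r ∈ Finset.range m, (1 + CB β c r) ^ 2 / (1 + DB β c r) := by
    refine Finset.sum_congr rfl fun r _ => ?_
    unfold alphaB
    rw [one_div_div]
  unfold isoPow
  rw [cov_Qk_eq β c hc m, Matrix.det_smul, det_T β c hc m hβ, vol_Qk β c hc m, Fintype.card_fin]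
  unfold cN ratioT
  rw [hprod, hsum, div_pow, one_pow, mul_pow, pow_succ ((n : ℝ) + 1) n]
  set V := ∏ r ∈ Finset.range m, (1 + CB β c r) with hVdef
  set W := ∏ r ∈ Finset.range m, (1 + DB β c r) with hWdef
  set S := ∑ r ∈ Finset.range m, (1 + CB β c r) ^ 2 / (1 + DB β c r) with hSdef
  field_simp

end P254
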