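import Vale.Agent.Lib.P254.TCover
import Vale.Agent.Lib.P254.TDisjoint

/-! # P254 part 2, unit T4: the master recursion (copy the proof of `master`) -/

namespace P254
open MeasureTheory

theorem masterT {n : ℕ} (β : Fin n → ℕ) (c : E n) (hc : ∀ l, 0 ≤ c l) (k : ℕ)
    (f : E n → ℝ) (hf : Continuous f) :
    ∫ x in Qk β c (k + 1), f x
      = (∫ x in Qk β c k, f x)
        + ∑ i, (if β i = k then c i else 0) * (∫ x in Qk β c k, f (phi (pB β c k) i x)) := by
  classical
  set p : E n := pB β c k with hp
  set Q : Set (E n) := Qk β c k with hQ
  let good : Fin n → Prop := fun i => β i = k ∧ 0 < c i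
  let s : Option (Fin n) → Set (E n) := fun o => match o with
    | none => Q
    | some i => if good i then (phi p i) '' Q else ∅
  have hs0 : s none = Q := rfl
  have hs1 : ∀ i, good i → s (some i) = (phi p i) '' Q := fun i hi => if_pos hi
  have hs2 : ∀ i, ¬ good i → s (some i) = ∅ := fun i hi => if_neg hi
  have hU : Qk β c (k + 1) = ⋃ o, s o := by
    rw [Qk_succ_eq_union β c hc k]
    ext x
    simp only [Set.mem_union, Set.mem_iUnion, Finset.mem_filter, Finset.mem_univ, true_and]
    constructor
    · rintro (h | ⟨i, hi, hx⟩)
      · exact ⟨none, h⟩
      · exact ⟨some i, by rw [hs1 i hi]; exact hx⟩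
    · rintro ⟨o, ho⟩
      cases o with
      | none => exact Or.inl ho
      | some i =>
        by_cases hi : good i
        · right
          rw [hs1 i hi] at ho
          exact ⟨i, hi, ho⟩
        · rw [hs2 i hi] at ho
          exact absurd ho (Set.notMem_empty _)
  have hQc : IsCompact Q := isCompact_Qk β c k
  have hcomp : ∀ i, IsCompact ((phi p i) '' Q) := fun i =>
    hQc.image (LinearMap.continuous_of_finiteDimensional _)
  have hm : ∀ o, NullMeasurableSet (s o) volume := by
    intro o
    cases o with
    | none => exact hQc.measurableSet.nullMeasurableSet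
    | some i =>
      by_cases hi : good i
      · rw [hs1 i hi]
        exact (hcomp i).measurableSet.nullMeasurableSet
      · rw [hs2 i hi]
        exact MeasurableSet.empty.nullMeasurableSet
  have hempty : ∀ t : Set (E n), AEDisjoint volume t ∅ := fun t => by
    simp [AEDisjoint]
  have hd : Pairwise (Function.onFun (AEDisjoint volume) s) := by
    intro a b hab
    show AEDisjoint volume (s a) (s b)
    cases a with
    | none =>
      cases b with
      | none => exact absurd rfl hab
      | some j =>
        by_cases hj : good j
        · rw [hs1 j hj]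
          exact aedisjoint_Qk_phi β c k j hj.1 hj.2
        · rw [hs2 j hj]
          exact hempty _
    | some i =>
      cases b with
      | none =>
        by_cases hi : good i
        · rw [hs1 i hi]
          exact (aedisjoint_Qk_phi β c k i hi.1 hi.2).symm
        · rw [hs2 i hi]
          exact (hempty _).symm
      | some j =>
        have hij : i ≠ j := fun h => hab (by rw [h])
        by_cases hi : good i
        · by_cases hj : good j
          · rw [hs1 i hi, hs1 j hj]
            exact aedisjoint_phi_phi_Qk β c k i j hij hi.1 hi.2 hj.1 hj.2
          · rw [hs2 j hj]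
            exact hempty _
        · rw [hs2 i hi]
          exact (hempty _).symm
  have hfi : IntegrableOn f (⋃ o, s o) volume := by
    rw [← hU]
    exact hf.continuousOn.integrableOn_compact (isCompact_Qk β c (k + 1))
  rw [hU, integral_iUnion_ae hm hd hfi, tsum_fintype, Fintype.sum_option, hs0]
  congr 1
  apply Finset.sum_congr rfl
  intro i _
  by_cases hi : good i
  · have hpi : p i = -(c i) := by rw [hp]; simp [pB, hi.1]
    have hneg : p i < 0 := by rw [hpi]; linarith [hi.2]
    rw [hs1 i hi, setIntegral_image_linear (phi p i) (by rw [det_phi]; exact hneg.ne) _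
      hQc.measurableSet f, det_phi, abs_of_neg hneg, hpi, neg_neg, if_pos hi.1]
  · rw [hs2 i hi]
    have h0 : (if β i = k then c i else 0) = 0 := by
      by_cases hb : β i = k
      · rw [if_pos hb]
        have : ¬ 0 < c i := fun h => hi ⟨hb, h⟩
        exact le_antisymm (not_lt.1 this) (hc i)
      · rw [if_neg hb]
    rw [h0]
    simp

end P254
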