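import Vale.Agent.Lib.P254.TDefs

/-! # P254 part 2, unit T1: elementary facts on `Qk` -/

namespace P254

theorem Qk_zero {n : ℕ} (β : Fin n → ℕ) (c : E n) : Qk β c 0 = stdS n := by
  unfold Qk
  simp [convexHull_std]

theorem isCompact_Qk {n : ℕ} (β : Fin n → ℕ) (c : E n) (k : ℕ) : IsCompact (Qk β c k) := by
  unfold Qk
  exact Set.Finite.isCompact_convexHull (𝕜 := ℝ)
    (((Set.finite_range _).union ((Set.finite_lt_nat k).image _)).insert 0)

theorem stdS_subset_Qk {n : ℕ} (β : Fin n → ℕ) (c : E n) (k : ℕ) : stdS n ⊆ Qk β c k := by
  rw [← convexHull_std]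
  unfold Qk
  exact convexHull_mono (Set.insert_subset_insert Set.subset_union_left)

/-- Explicit description (induction on `k` with `convexHull_insert`, as in `mem_Kp_iff`; or directly). -/
theorem mem_Qk_iff {n : ℕ} (β : Fin n → ℕ) (c : E n) (k : ℕ) (x : E n) :
    x ∈ Qk β c k ↔ ∃ (t : E n) (θ : ℕ → ℝ), (∀ l, 0 ≤ t l) ∧ (∀ r, 0 ≤ θ r) ∧
      (∀ r, k ≤ r → θ r = 0) ∧ ∑ l, t l + ∑ r ∈ Finset.range k, θ r ≤ 1 ∧
      ∀ l, x l = t l - θ (β l) * c l := by
  classical
  constructor
  · intro hx
    have hconv : Convex ℝ {x : E n | ∃ (t : E n) (θ : ℕ → ℝ), (∀ l, 0 ≤ t l) ∧ (∀ r, 0 ≤ θ r) ∧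
        (∀ r, k ≤ r → θ r = 0) ∧ ∑ l, t l + ∑ r ∈ Finset.range k, θ r ≤ 1 ∧
        ∀ l, x l = t l - θ (β l) * c l} := by
      rintro x ⟨t, θ, ht, hθ, hθk, hs, hx⟩ y ⟨t', θ', ht', hθ', hθk', hs', hy⟩ a b ha hb hab
      refine ⟨fun l => a * t l + b * t' l, fun r => a * θ r + b * θ' r, ?_, ?_, ?_, ?_, ?_⟩
      · intro l
        have := ht l
        have := ht' l
        positivity
      · intro r
        have := hθ r
        have := hθ' r
        positivity
      · intro r hr
        show a * θ r + b * θ' r = 0
        rw [hθk r hr, hθk' r hr]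
        ring
      · have e1 : ∑ l, (a * t l + b * t' l) + ∑ r ∈ Finset.range k, (a * θ r + b * θ' r) =
            a * (∑ l, t l + ∑ r ∈ Finset.range k, θ r) +
              b * (∑ l, t' l + ∑ r ∈ Finset.range k, θ' r) := by
          simp only [Finset.sum_add_distrib, ← Finset.mul_sum]
          ring
        rw [e1]
        nlinarith
      · intro l
        simp only [Pi.add_apply, Pi.smul_apply, smul_eq_mul]
        rw [hx l, hy l]
        ring
    refine convexHull_min ?_ hconv hx
    intro z hz
    rcases hz with rfl | ⟨i, rfl⟩ | ⟨r, hr, rfl⟩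
    · exact ⟨0, 0, fun _ => le_rfl, fun _ => le_rfl, fun _ _ => rfl, by simp, by simp⟩
    · refine ⟨Pi.single i 1, 0, ?_, fun _ => le_rfl, fun _ _ => rfl, by simp, by simp⟩
      intro l
      by_cases h : l = i
      · subst h
        simp
      · simp [Pi.single_eq_of_ne h]
    · have hr' : r < k := hr
      refine ⟨0, Pi.single r 1, fun _ => le_rfl, ?_, ?_, ?_, ?_⟩
      · intro s
        by_cases h : s = r
        · subst h
          simp
        · simp [Pi.single_eq_of_ne h]
      · intro s hs
        have h : s ≠ r := by omega
        simp [Pi.single_eq_of_ne h]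
      · have : ∑ s ∈ Finset.range k, (Pi.single r 1 : ℕ → ℝ) s = 1 := by
          rw [Finset.sum_eq_single r]
          · simp
          · intro s _ hs
            simp [Pi.single_eq_of_ne hs]
          · intro h
            exact absurd (Finset.mem_range.mpr hr') h
        simp [this]
      · intro l
        unfold pB
        by_cases h : β l = r
        · simp [h]
        · simp [h]
  · rintro ⟨t, θ, ht, hθ, hθk, hs, hx⟩
    have hconv := convex_convexHull ℝ (insert (0 : E n)
      (Set.range (fun i : Fin n => (Pi.single i 1 : E n)) ∪ (pB β c) '' {r | r < k}))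
    have key := hconv.sum_mem (t := (Finset.univ : Finset (Option (Fin n ⊕ Fin k))))
      (w := fun o => match o with
        | none => 1 - (∑ l, t l + ∑ r ∈ Finset.range k, θ r)
        | some (Sum.inl l) => t l
        | some (Sum.inr r) => θ r)
      (z := fun o => match o with
        | none => (0 : E n)
        | some (Sum.inl l) => Pi.single l 1
        | some (Sum.inr r) => pB β c r)
      (by
        intro o _
        rcases o with _ | l | r
        · simpa using hs
        · exact ht l
        · exact hθ r)
      (by
        rw [Fintype.sum_option, Fintype.sum_sum_type, Finset.sum_range]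
        ring)
      (by
        intro o _
        rcases o with _ | l | r
        · exact subset_convexHull _ _ (Set.mem_insert _ _)
        · exact subset_convexHull _ _ (Set.mem_insert_of_mem _ (Or.inl ⟨l, rfl⟩))
        · exact subset_convexHull _ _ (Set.mem_insert_of_mem _ (Or.inr ⟨r, r.2, rfl⟩)))
    rw [Fintype.sum_option, Fintype.sum_sum_type] at key
    simp only [smul_zero, zero_add] at key
    have hxe : x = ∑ l, t l • (Pi.single l 1 : E n) + ∑ r : Fin k, θ r • pB β c r := by
      funext l
      rw [hx l]
      simp only [Pi.add_apply, Finset.sum_apply, Pi.smul_apply, smul_eq_mul]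
      have h1 : ∑ j, t j * (Pi.single j 1 : E n) l = t l := by
        simp [Pi.single_apply]
      have h2 : ∑ r : Fin k, θ r * pB β c r l = - (θ (β l) * c l) := by
        rw [← Finset.sum_range (fun r => θ r * pB β c r l)]
        unfold pB
        by_cases hk : β l < k
        · rw [Finset.sum_eq_single (β l)]
          · simp
          · intro r _ hr
            simp [Ne.symm hr]
          · intro h
            exact absurd (Finset.mem_range.mpr hk) h
        · rw [hθk (β l) (not_lt.mp hk)]
          rw [Finset.sum_eq_zero]
          · simp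
          · intro r hr
            have : β l ≠ r := by
              have := Finset.mem_range.mp hr
              omega
            simp [this]
      rw [h1, h2]
      ring
    unfold Qk
    rw [hxe]
    exact key

end P254
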