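import Vale.Agent.Lib.P254.TMaster

/-! # P254 part 2, unit T5: moments of `Q_k` by induction on `k` (from `masterT`)

Base: `Qk_zero`, `vol_stdS`, `mom1_stdS`, `mom2_stdS`. Step, with `p = pB β c k`, `C = CB β c k`,
`s = sK β c k`, `g = gK β c k`: for `β i = k` one has `s i = 1`, `g a i = δ_ai`;
`∑_i [β i = k] c_i = C`, `∑_i [β i = k] c_i δ_ai = - p a`. Then
`∑_i c_i [ (g a b + s a s b) + (p b - δ_bi)(δ_ai + s a) + (p a - δ_ai)(δ_bi + s b) + 2 (p a - δ_ai)(p b - δ_bi) ]`
`= C (g a b + p a p b + (s a + p a)(s b + p b)) + 2 p a p b + p b s a + p a s b`. -/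

namespace P254
open MeasureTheory

theorem intOnQ {n : ℕ} (β : Fin n → ℕ) (c : E n) (k : ℕ) (g : E n → ℝ) (hg : Continuous g) :
    IntegrableOn g (Qk β c k) volume :=
  hg.continuousOn.integrableOn_compact (isCompact_Qk β c k)

theorem phi_coord {n : ℕ} (p : E n) (i a : Fin n) (x : E n) :
    (phi p i x) a = x a + (p a - (if i = a then 1 else 0)) * x i := by
  rw [phi_apply]
  simp only [Pi.add_apply, Pi.smul_apply, Pi.sub_apply, smul_eq_mul, Pi.single_apply]
  by_cases h : i = a
  · subst h; simp; ring
  · have h' : ¬ a = i := fun hh => h hh.symm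
    simp [h, h']; ring

/-- weights of block `k` -/
theorem sum_w {n : ℕ} (β : Fin n → ℕ) (c : E n) (k : ℕ) :
    ∑ i, (if β i = k then c i else 0) = CB β c k := rfl

theorem sum_w_ite {n : ℕ} (β : Fin n → ℕ) (c : E n) (k : ℕ) (a : Fin n) (t : ℝ) :
    ∑ i, (if β i = k then c i else 0) * ((if i = a then 1 else 0) * t) = -(pB β c k a) * t := by
  have : ∀ i : Fin n, (if β i = k then c i else 0) * ((if i = a then 1 else 0) * t)
      = if i = a then (if β i = k then c i else 0) * t else 0 := by
    intro i; split_ifs <;> ring
  simp only [this]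
  rw [Finset.sum_ite_eq' Finset.univ a (fun i => (if β i = k then c i else 0) * t)]
  simp only [Finset.mem_univ, if_true, pB]
  split_ifs <;> ring

theorem pB_eq_zero {n : ℕ} (β : Fin n → ℕ) (c : E n) (r : ℕ) (i : Fin n) (h : β i ≠ r) :
    pB β c r i = 0 := by
  simp [pB, h]

theorem sK_block {n : ℕ} (β : Fin n → ℕ) (c : E n) (k : ℕ) (i : Fin n) (h : β i = k) :
    sK β c k i = 1 := by
  unfold sK
  rw [Finset.sum_eq_zero, add_zero]
  intro r hr
  exact pB_eq_zero β c r i (by have := Finset.mem_range.1 hr; omega)

theorem gK_block {n : ℕ} (β : Fin n → ℕ) (c : E n) (k : ℕ) (a i : Fin n) (h : β i = k) :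
    gK β c k a i = if i = a then 1 else 0 := by
  unfold gK
  rw [Finset.sum_eq_zero, add_zero]
  · by_cases h1 : a = i
    · simp [h1]
    · have h2 : ¬ i = a := fun hh => h1 hh.symm
      simp [h1, h2]
  intro r hr
  rw [pB_eq_zero β c r i (by have := Finset.mem_range.1 hr; omega), mul_zero]

theorem gK_block' {n : ℕ} (β : Fin n → ℕ) (c : E n) (k : ℕ) (a i : Fin n) (h : β i = k) :
    gK β c k i a = if i = a then 1 else 0 := by
  unfold gK
  rw [Finset.sum_eq_zero, add_zero]
  intro r hr
  rw [pB_eq_zero β c r i (by have := Finset.mem_range.1 hr; omega), zero_mul]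

theorem sK_succ {n : ℕ} (β : Fin n → ℕ) (c : E n) (k : ℕ) (a : Fin n) :
    sK β c (k + 1) a = sK β c k a + pB β c k a := by
  unfold sK; rw [Finset.sum_range_succ]; ring

theorem gK_succ {n : ℕ} (β : Fin n → ℕ) (c : E n) (k : ℕ) (a b : Fin n) :
    gK β c (k + 1) a b = gK β c k a b + pB β c k a * pB β c k b := by
  unfold gK; rw [Finset.sum_range_succ]; ring

theorem vol_Qk {n : ℕ} (β : Fin n → ℕ) (c : E n) (hc : ∀ l, 0 ≤ c l) (k : ℕ) :
    vol (Qk β c k) = (∏ r ∈ Finset.range k, (1 + CB β c r)) / (n.factorial : ℝ) := by
  have e1 : ∀ K : Set (E n), ∫ _x in K, (1 : ℝ) = vol K := by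
    intro K
    simp [vol, Measure.real]
  induction k with
  | zero => rw [Qk_zero, vol_stdS]; simp
  | succ k ih =>
    have h := masterT β c hc k (fun _ => (1 : ℝ)) continuous_const
    rw [e1, e1, ← Finset.sum_mul, sum_w, ih] at h
    rw [h, Finset.prod_range_succ]; ring

theorem mom1_Qk {n : ℕ} (β : Fin n → ℕ) (c : E n) (hc : ∀ l, 0 ≤ c l) (k : ℕ) (a : Fin n) :
    ∫ x in Qk β c k, x a
      = (∏ r ∈ Finset.range k, (1 + CB β c r)) / ((n + 1).factorial : ℝ) * sK β c k a := by
  induction k generalizing a with
  | zero => rw [Qk_zero, mom1_stdS]; simp [sK]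
  | succ k ih =>
    have h := masterT β c hc k (fun x => x a) (continuous_apply a)
    set W : ℝ := (∏ r ∈ Finset.range k, (1 + CB β c r)) / ((n + 1).factorial : ℝ) with hW
    have hphi : ∀ i : Fin n, (if β i = k then c i else 0) *
        (∫ x in Qk β c k, (phi (pB β c k) i x) a) =
        (if β i = k then c i else 0) * (W * (sK β c k a + pB β c k a))
          - (if β i = k then c i else 0) * ((if i = a then 1 else 0) * W) := by
      intro i
      by_cases hi : β i = k
      · simp only [phi_coord]
        rw [integral_add (intOnQ β c k _ (continuous_apply a))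
          ((intOnQ β c k _ (continuous_apply i)).const_mul _), integral_const_mul, ih a, ih i,
          sK_block β c k i hi]
        ring
      · simp [hi]
    simp only [hphi] at h
    rw [Finset.sum_sub_distrib, ← Finset.sum_mul, sum_w, sum_w_ite, ih a] at h
    rw [h, sK_succ, Finset.prod_range_succ, hW]
    ring

theorem mom2_Qk {n : ℕ} (β : Fin n → ℕ) (c : E n) (hc : ∀ l, 0 ≤ c l) (k : ℕ) (a b : Fin n) :
    ∫ x in Qk β c k, x a * x b
      = (∏ r ∈ Finset.range k, (1 + CB β c r)) / ((n + 2).factorial : ℝ)
        * (gK β c k a b + sK β c k a * sK β c k b) := by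
  induction k generalizing a b with
  | zero =>
    rw [Qk_zero, mom2_stdS]
    by_cases hab : a = b <;> simp [sK, gK, hab] <;> ring
  | succ k ih =>
    have h := masterT β c hc k (fun x => x a * x b)
      ((continuous_apply a).mul (continuous_apply b))
    set W : ℝ := (∏ r ∈ Finset.range k, (1 + CB β c r)) / ((n + 2).factorial : ℝ) with hW
    set p : E n := pB β c k with hp
    set K0 : ℝ := gK β c k a b + sK β c k a * sK β c k b + p b * sK β c k a + p a * sK β c k b
      + 2 * p a * p b with hK0
    have hphi : ∀ i : Fin n, (if β i = k then c i else 0) *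
        (∫ x in Qk β c k, (phi p i x) a * (phi p i x) b) =
        (if β i = k then c i else 0) * (W * K0)
          - (if β i = k then c i else 0) * ((if i = a then 1 else 0) * (W * (p b + sK β c k b)))
          - (if β i = k then c i else 0) * ((if i = b then 1 else 0) * (W * (p a + sK β c k a))) := by
      intro i
      by_cases hi : β i = k
      · have e : ∀ x : E n, (phi p i x) a * (phi p i x) b
            = x a * x b + (p b - (if i = b then 1 else 0)) * (x a * x i)
              + (p a - (if i = a then 1 else 0)) * (x i * x b)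
              + ((p a - (if i = a then 1 else 0)) * (p b - (if i = b then 1 else 0)))
                * (x i * x i) := by
          intro x; rw [phi_coord p i a, phi_coord p i b]; ring
        simp only [e]
        set ua : ℝ := p a - (if i = a then 1 else 0) with hua
        set ub : ℝ := p b - (if i = b then 1 else 0) with hub
        have I1 : IntegrableOn (fun x : E n => x a * x b) (Qk β c k) volume :=
          intOnQ β c k _ (by fun_prop)
        have I2 : IntegrableOn (fun x : E n => ub * (x a * x i)) (Qk β c k) volume :=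
          intOnQ β c k _ (by fun_prop)
        have I3 : IntegrableOn (fun x : E n => ua * (x i * x b)) (Qk β c k) volume :=
          intOnQ β c k _ (by fun_prop)
        have I4 : IntegrableOn (fun x : E n => ua * ub * (x i * x i)) (Qk β c k) volume :=
          intOnQ β c k _ (by fun_prop)
        have I12 : IntegrableOn (fun x : E n => x a * x b + ub * (x a * x i)) (Qk β c k) volume :=
          intOnQ β c k _ (by fun_prop)
        have I123 : IntegrableOn (fun x : E n => x a * x b + ub * (x a * x i) + ua * (x i * x b))
            (Qk β c k) volume := intOnQ β c k _ (by fun_prop)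
        rw [integral_add I123 I4, integral_add I12 I3, integral_add I1 I2,
          integral_const_mul, integral_const_mul, integral_const_mul,
          ih a b, ih a i, ih i b, ih i i, sK_block β c k i hi, gK_block β c k a i hi,
          gK_block' β c k b i hi, gK_block β c k i i hi, hua, hub, hK0]
        rw [if_pos hi, if_pos rfl]
        generalize (if i = a then (1 : ℝ) else 0) = da
        generalize (if i = b then (1 : ℝ) else 0) = db
        ring
      · simp [hi]
    simp only [hphi] at h
    rw [Finset.sum_sub_distrib, Finset.sum_sub_distrib, ← Finset.sum_mul, sum_w, sum_w_ite,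
      sum_w_ite, ih a b] at h
    rw [h, sK_succ, sK_succ, gK_succ, Finset.prod_range_succ, hK0, hW]
    ring

end P254
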